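import Vale.Agent.P163N.Geo

open Vale.Agent.P163

namespace Vale.Agent.P163N

variable {S T : Set Site} {F G F' G' : CA} {i j k : Fin 3} {φ : Site → ℝ}
  {J V W : Fin 2 → Site → ℝ}

theorem sx_apply (i : Fin 3) (x : Site) (σ : XX) : sx i x σ = (σ x).1 i.castSucc := rfl

theorem abs_sx_le (i : Fin 3) (x : Site) (σ : XX) : |sx i x σ| ≤ 1 := by
  have h1 : (σ x).1 i.castSucc ^ 2 ≤ ∑ k, (σ x).1 k ^ 2 :=
    Finset.single_le_sum (f := fun k => (σ x).1 k ^ 2) (fun _ _ => sq_nonneg _) (Finset.mem_univ _)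
  exact (sq_le_one_iff_abs_le_one _).1 (h1.trans (le_of_eq (σ x).2))

/-! ### dependence -/

theorem Dep.mono (h : Dep S F) (hST : S ⊆ T) : Dep T F :=
  fun σ τ e => h σ τ fun x hx => e x (hST hx)

theorem Dep.add (h : Dep S F) (h' : Dep S G) : Dep S (F + G) := fun σ τ e => by
  simp only [ContinuousMap.add_apply, h σ τ e, h' σ τ e]

theorem Dep.sub (h : Dep S F) (h' : Dep S G) : Dep S (F - G) := fun σ τ e => by
  simp only [ContinuousMap.sub_apply, h σ τ e, h' σ τ e]

theorem Dep.mul (h : Dep S F) (h' : Dep S G) : Dep S (F * G) := fun σ τ e => by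
  simp only [ContinuousMap.mul_apply, h σ τ e, h' σ τ e]

theorem Dep.neg (h : Dep S F) : Dep S (-F) := fun σ τ e => by
  simp only [ContinuousMap.neg_apply, h σ τ e]

theorem Dep.smul (h : Dep S F) (c : ℝ) : Dep S (c • F) := fun σ τ e => by
  simp only [ContinuousMap.smul_apply, h σ τ e]

theorem dep_one : Dep S 1 := fun _ _ _ => rfl

theorem dep_zero : Dep S 0 := fun _ _ _ => rfl

theorem dep_sum {ι : Type} {s : Finset ι} {f : ι → CA} (h : ∀ a ∈ s, Dep S (f a)) :
    Dep S (∑ a ∈ s, f a) := fun σ τ e => by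
  simp only [ContinuousMap.sum_apply]
  exact Finset.sum_congr rfl fun a ha => h a ha σ τ e

theorem dep_univ (F : CA) : Dep Set.univ F := fun σ τ e => by
  rw [funext fun x => e x trivial]

theorem dep_sx (i : Fin 3) {x : Site} (hx : x ∈ S) : Dep S (sx i x) := fun σ τ e => by
  simp only [sx_apply, e x hx]

theorem dep_jc {A : Finset Site} (h : ∀ x ∈ A, ∀ μ, x ∈ S ∧ x + ee μ ∈ S) :
    Dep S (jc J i j A V) :=
  dep_sum fun x hx => dep_sum fun μ _ =>
    ((((dep_sx _ (h x hx μ).1).mul (dep_sx _ (h x hx μ).2)).sub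
      ((dep_sx _ (h x hx μ).1).mul (dep_sx _ (h x hx μ).2))).smul _).smul _

theorem dep_ep {A : Finset Site} (h : ∀ x ∈ A, ∀ μ, x ∈ S ∧ x + ee μ ∈ S) :
    Dep S (ep J i A V) :=
  dep_sum fun x hx => dep_sum fun μ _ =>
    ((dep_sx _ (h x hx μ).1).mul (dep_sx _ (h x hx μ).2)).smul _

theorem dep_jc_cel (l : ℤ) (U : Site) : Dep (cls l U) (jc J i j (cel l U) V) :=
  dep_jc fun _ hx μ => cel_edge hx μ

theorem dep_ep_cel (l : ℤ) (U : Site) : Dep (cls l U) (ep J i (cel l U) V) :=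
  dep_ep fun _ hx μ => cel_edge hx μ

/-! ### smeared currents and norms -/

theorem jc_congr {A : Finset Site} (h : ∀ x ∈ A, ∀ μ, V μ x = W μ x) :
    jc J i j A V = jc J i j A W :=
  Finset.sum_congr rfl fun x hx => Finset.sum_congr rfl fun μ _ => by rw [h x hx μ]

theorem jc_add (A : Finset Site) :
    jc J i j A (fun μ x => V μ x + W μ x) = jc J i j A V + jc J i j A W := by
  simp only [jc, add_smul, Finset.sum_add_distrib]

theorem jc_sub (A : Finset Site) :
    jc J i j A (fun μ x => V μ x - W μ x) = jc J i j A V - jc J i j A W := by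
  simp only [jc, sub_smul, Finset.sum_sub_distrib]

theorem jc_subset {A A' : Finset Site} (h : A ⊆ A') (h0 : ∀ μ x, V μ x ≠ 0 → x ∈ A) :
    jc J i j A' V = jc J i j A V := by
  refine (Finset.sum_subset h fun x _ hx => Finset.sum_eq_zero fun μ _ => ?_).symm
  have : V μ x = 0 := by_contra fun e => hx (h0 μ x e)
  rw [this, zero_smul]

theorem jc_cel {l : ℤ} (hl : 0 < l) (K : ℤ) (U : Site) :
    jc J i j (cel (K * l) U) V = ∑ u ∈ cel K U, jc J i j (cel l u) V := sum_cel hl K U _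

theorem ep_cel {l : ℤ} (hl : 0 < l) (K : ℤ) (U : Site) :
    ep J i (cel (K * l) U) V = ∑ u ∈ cel K U, ep J i (cel l u) V := sum_cel hl K U _

theorem nq_cel {l : ℤ} (hl : 0 < l) (K : ℤ) (U : Site) :
    nq (cel (K * l) U) V = ∑ u ∈ cel K U, nq (cel l u) V := sum_cel hl K U _

theorem nq_nonneg (A : Finset Site) (V : Fin 2 → Site → ℝ) : 0 ≤ nq A V :=
  Finset.sum_nonneg fun _ _ => Finset.sum_nonneg fun _ _ => sq_nonneg _

theorem nv_nonneg (A : Finset Site) (V : Fin 2 → Site → ℝ) : 0 ≤ nv A V := Real.sqrt_nonneg _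

theorem nv_sq (A : Finset Site) (V : Fin 2 → Site → ℝ) : nv A V ^ 2 = nq A V :=
  Real.sq_sqrt (nq_nonneg A V)

theorem nq_mono {A : Finset Site} (h : ∀ x ∈ A, ∀ μ, |V μ x| ≤ |W μ x|) : nq A V ≤ nq A W :=
  Finset.sum_le_sum fun x hx => Finset.sum_le_sum fun μ _ => sq_le_sq.2 (h x hx μ)

theorem nv_mono {A : Finset Site} (h : ∀ x ∈ A, ∀ μ, |V μ x| ≤ |W μ x|) : nv A V ≤ nv A W :=
  Real.sqrt_le_sqrt (nq_mono h)

theorem nq_le_card {A : Finset Site} {γ : ℝ} (h : ∀ x ∈ A, ∀ μ, |V μ x| ≤ γ) :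
    nq A V ≤ 2 * A.card * γ ^ 2 := by
  have : ∀ x ∈ A, ∑ μ, V μ x ^ 2 ≤ 2 * γ ^ 2 := by
    intro x hx
    have h0 := sq_le_sq' (abs_le.1 (h x hx 0)).1 (abs_le.1 (h x hx 0)).2
    have h1 := sq_le_sq' (abs_le.1 (h x hx 1)).1 (abs_le.1 (h x hx 1)).2
    rw [Fin.sum_univ_two]
    linarith
  refine (Finset.sum_le_sum this).trans (le_of_eq ?_)
  rw [Finset.sum_const, nsmul_eq_mul]
  ring

theorem nv_le {A : Finset Site} {a : ℝ} (ha : 0 ≤ a) (h : nq A V ≤ a ^ 2) : nv A V ≤ a :=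
  Real.sqrt_le_iff.2 ⟨ha, h⟩

/-! ### rotations -/

theorem ro_i (h : i ≠ j) (φ : Site → ℝ) (t : ℝ) (σ : XX) (x : Site) :
    sx i x (ro i j φ t σ) = Real.cos (t * φ x) * sx i x σ - Real.sin (t * φ x) * sx j x σ := by
  show WardF_R i j (t * φ x) (σ x).1 i.castSucc = _
  rw [WardF_R_apply]
  simp only [WardF_L_apply, sx_apply, Fin.castSucc_inj, h, h.symm, if_true, if_false]
  ring

theorem ro_j (h : i ≠ j) (φ : Site → ℝ) (t : ℝ) (σ : XX) (x : Site) :
    sx j x (ro i j φ t σ) = Real.cos (t * φ x) * sx j x σ + Real.sin (t * φ x) * sx i x σ := by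
  show WardF_R i j (t * φ x) (σ x).1 j.castSucc = _
  rw [WardF_R_apply]
  simp only [WardF_L_apply, sx_apply, Fin.castSucc_inj, h, h.symm, if_true, if_false]
  ring

theorem ro_k (hi : k ≠ i) (hj : k ≠ j) (φ : Site → ℝ) (t : ℝ) (σ : XX) (x : Site) :
    sx k x (ro i j φ t σ) = sx k x σ := by
  show WardF_R i j (t * φ x) (σ x).1 k.castSucc = _
  rw [WardF_R_apply]
  simp only [WardF_L_apply, sx_apply, Fin.castSucc_inj, hi, hj, if_false]
  ring

theorem ro_angle (i j : Fin 3) (φ : Site → ℝ) {t : ℝ} (σ : XX) {x : Site} (h : t * φ x = 0) :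
    ro i j φ t σ x = σ x := by
  refine Subtype.ext (funext fun k => ?_)
  show WardF_R i j (t * φ x) (σ x).1 k = _
  rw [h, WardF_R_apply]
  simp

theorem ro_zero (i j : Fin 3) (φ : Site → ℝ) (σ : XX) : ro i j φ 0 σ = σ :=
  funext fun _ => ro_angle i j φ σ (zero_mul _)

theorem gr_sx_i (h : i ≠ j) (t : ℝ) (x : Site) :
    gr i j t (sx i x) = Real.cos t • sx i x - Real.sin t • sx j x := by
  ext σ
  simp [gr_apply, ro_i h]

theorem gr_sx_j (h : i ≠ j) (t : ℝ) (x : Site) :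
    gr i j t (sx j x) = Real.cos t • sx j x + Real.sin t • sx i x := by
  ext σ
  simp [gr_apply, ro_j h]

theorem gr_sx_k (hi : k ≠ i) (hj : k ≠ j) (t : ℝ) (x : Site) : gr i j t (sx k x) = sx k x := by
  ext σ
  simp [gr_apply, ro_k hi hj]

theorem gr_jc_self (h : i ≠ j) (t : ℝ) (A : Finset Site) :
    gr i j t (jc J i j A V) = jc J i j A V := by
  simp only [jc, cu, map_sum, map_smul, map_sub, map_mul, gr_sx_i h, gr_sx_j h]
  refine Finset.sum_congr rfl fun x _ => Finset.sum_congr rfl fun μ _ => ?_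
  congr 2
  ext σ
  simp only [ContinuousMap.sub_apply, ContinuousMap.add_apply, ContinuousMap.mul_apply,
    ContinuousMap.smul_apply, smul_eq_mul]
  linear_combination (sx i x σ * sx j (x + ee μ) σ - sx j x σ * sx i (x + ee μ) σ) *
    Real.sin_sq_add_cos_sq t

theorem gr_jc02 (t : ℝ) (A : Finset Site) :
    gr 0 1 t (jc J 0 2 A V) = Real.cos t • jc J 0 2 A V - Real.sin t • jc J 1 2 A V := by
  have h01 : (0 : Fin 3) ≠ 1 := by decide
  simp only [jc, cu, map_sum, map_smul, map_sub, map_mul, gr_sx_i h01,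
    gr_sx_k (k := 2) (i := 0) (j := 1) (by decide) (by decide), Finset.smul_sum,
    ← Finset.sum_sub_distrib]
  refine Finset.sum_congr rfl fun x _ => Finset.sum_congr rfl fun μ _ => ?_
  ext σ
  simp only [ContinuousMap.sub_apply, ContinuousMap.mul_apply, ContinuousMap.smul_apply,
    smul_eq_mul]
  ring

theorem gr_ep1 (t : ℝ) (A : Finset Site) :
    gr 0 1 t (ep J 1 A V) = Real.cos t • ep J 1 A V + Real.sin t • ep J 0 A V := by
  have h01 : (0 : Fin 3) ≠ 1 := by decide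
  simp only [ep, map_sum, map_smul, map_mul, gr_sx_j h01,
    gr_sx_k (k := 2) (i := 0) (j := 1) (by decide) (by decide), Finset.smul_sum,
    ← Finset.sum_add_distrib]
  refine Finset.sum_congr rfl fun x _ => Finset.sum_congr rfl fun μ _ => ?_
  ext σ
  simp only [ContinuousMap.add_apply, ContinuousMap.mul_apply, ContinuousMap.smul_apply,
    smul_eq_mul]
  ring

/-! ### generators -/

theorem Gen.add (h : Gen i j φ F F') (h' : Gen i j φ G G') : Gen i j φ (F + G) (F' + G') :=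
  fun σ => (h σ).add (h' σ)

theorem Gen.sub (h : Gen i j φ F F') (h' : Gen i j φ G G') : Gen i j φ (F - G) (F' - G') :=
  fun σ => (h σ).sub (h' σ)

theorem Gen.mul (h : Gen i j φ F F') (h' : Gen i j φ G G') :
    Gen i j φ (F * G) (F' * G + F * G') := fun σ => by
  have := (h σ).mul (h' σ)
  simp only [ro_zero] at this
  exact this

theorem Gen.smul (h : Gen i j φ F F') (c : ℝ) : Gen i j φ (c • F) (c • F') :=
  fun σ => (h σ).const_mul c

theorem Gen.congr (h : Gen i j φ F F') (e : F' = G') : Gen i j φ F G' := e ▸ h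

theorem gen_sum {ι : Type} {s : Finset ι} {f f' : ι → CA} (h : ∀ a ∈ s, Gen i j φ (f a) (f' a)) :
    Gen i j φ (∑ a ∈ s, f a) (∑ a ∈ s, f' a) := fun σ => by
  simp only [ContinuousMap.sum_apply]
  exact HasDerivAt.fun_sum fun a ha => h a ha σ

theorem gen_trig (a p q : ℝ) :
    HasDerivAt (fun t => Real.cos (t * a) * p + Real.sin (t * a) * q) (a * q) 0 := by
  have h1 := (((hasDerivAt_id' (0 : ℝ)).mul_const a).cos.mul_const p).fun_add
    (((hasDerivAt_id' (0 : ℝ)).mul_const a).sin.mul_const q)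
  exact h1.congr_deriv (by simp)

theorem gen_sx_i (h : i ≠ j) (φ : Site → ℝ) (x : Site) :
    Gen i j φ (sx i x) (-(φ x • sx j x)) := fun σ => by
  have := gen_trig (φ x) (sx i x σ) (-sx j x σ)
  simpa [ro_i h, sub_eq_add_neg] using this

theorem gen_sx_j (h : i ≠ j) (φ : Site → ℝ) (x : Site) :
    Gen i j φ (sx j x) (φ x • sx i x) := fun σ => by
  have := gen_trig (φ x) (sx j x σ) (sx i x σ)
  simpa [ro_j h] using this

theorem gen_sx_k (hi : k ≠ i) (hj : k ≠ j) (φ : Site → ℝ) (x : Site) :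
    Gen i j φ (sx k x) 0 := fun σ => by
  simpa [ro_k hi hj] using hasDerivAt_const (0 : ℝ) (sx k x σ)

/-- an observable that rotates like a vector component under global rotations -/
theorem gen_rot (hF : Dep S F) {c : ℝ} (h : ∀ x ∈ S, φ x = c)
    (hr : ∀ t, gr i j t F = Real.cos t • F + Real.sin t • F') : Gen i j φ F (c • F') := fun σ => by
  have e : ∀ t, F (ro i j φ t σ) = Real.cos (t * c) * F σ + Real.sin (t * c) * F' σ := by
    intro t
    have h1 : F (ro i j φ t σ) = gr i j (t * c) F σ := by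
      rw [gr_apply]
      exact hF _ _ fun x hx => by simp only [ro, h x hx, mul_one]
    rw [h1, hr]
    rfl
  simpa [e] using gen_trig c (F σ) (F' σ)

/-- an invariant observable -/
theorem gen_inv (hF : Dep S F) {c : ℝ} (h : ∀ x ∈ S, φ x = c) (hr : ∀ t, gr i j t F = F) :
    Gen i j φ F 0 := fun σ => by
  have e : ∀ t, F (ro i j φ t σ) = F σ := by
    intro t
    have h1 : F (ro i j φ t σ) = gr i j (t * c) F σ := by
      rw [gr_apply]
      exact hF _ _ fun x hx => by simp only [ro, h x hx, mul_one]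
    rw [h1, hr]
  simpa [e] using hasDerivAt_const (0 : ℝ) (F σ)

theorem gen_zero (hF : Dep S F) (h : ∀ x ∈ S, φ x = 0) : Gen i j φ F 0 := fun σ => by
  have e : ∀ t, F (ro i j φ t σ) = F σ := fun t =>
    hF _ _ fun x hx => ro_angle i j φ σ (by rw [h x hx, mul_zero])
  simpa [e] using hasDerivAt_const (0 : ℝ) (F σ)

/-- the commutator of two rotations -/
theorem gen_jc (f : Site → ℝ) (A : Finset Site) : Gen 0 1 f (jc J 1 2 A W)
    (jc J 0 2 A (fun μ x => f x * W μ x) - ep J 0 A fun μ x => W μ x * gd f μ x) := by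
  have h01 : (0 : Fin 3) ≠ 1 := by decide
  have h2 := gen_sx_k (k := 2) (i := 0) (j := 1) (by decide) (by decide) f
  refine (gen_sum fun x _ => gen_sum fun μ _ =>
    ((((gen_sx_j h01 f x).mul (h2 (x + ee μ))).sub
      ((h2 x).mul (gen_sx_j h01 f (x + ee μ)))).smul _).smul _).congr ?_
  simp only [jc, ep, cu, gd, ← Finset.sum_sub_distrib]
  refine Finset.sum_congr rfl fun x _ => Finset.sum_congr rfl fun μ _ => ?_
  ext σ
  simp only [ContinuousMap.sub_apply, ContinuousMap.add_apply, ContinuousMap.mul_apply,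
    ContinuousMap.smul_apply, ContinuousMap.zero_apply, smul_eq_mul]
  ring

end Vale.Agent.P163N
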