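import Vale.Agent.P163N.Nrm

open MeasureTheory Vale.Agent.P163

namespace Vale.Agent.P163N

variable {b : ℝ} {Ω : Set Site} {J : Fin 2 → Site → ℝ} {E : CA →ₗ[ℝ] ℝ}
  {P : Finset Site → CA →ₗ[ℝ] CA}

theorem asi_qq (E : CA →ₗ[ℝ] ℝ) (S : Finset Site) (f : Site → ℝ) (T : Finset Site) (g : Site → ℝ) :
    QQ (GG E) S f T g = E ((∑ x ∈ S, f x • sx 0 x) * ∑ y ∈ T, g y • sx 0 y) := by
  simp only [QQ, GG, Finset.sum_mul_sum, map_sum, smul_mul_smul_comm, map_smul, smul_eq_mul]

theorem Sys.ker (h : Sys b Ω J E P) : Ker (GG E) := by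
  refine ⟨h.g2, fun x y => ?_, fun S f T g => ?_⟩
  · rw [← h.one]
    refine h.mono fun σ => (le_abs_self _).trans ?_
    rw [ContinuousMap.mul_apply, abs_mul]
    exact mul_le_one₀ (abs_sx_le _ _ _) (abs_nonneg _) (abs_sx_le _ _ _)
  · rw [asi_qq, asi_qq, asi_qq, ← sq, ← sq]
    exact (le_abs_self _).trans (h.cs _ _)

theorem asi_sum (T S : Finset Site) (e : Site) (f : Site → ℝ) (hf : ∀ u, 0 ≤ f u) :
    ∑ y ∈ T, (if y + e ∈ S then f (y + e) else 0) ≤ ∑ u ∈ S, f u := by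
  rw [← Finset.sum_filter, ← Finset.sum_image (g := fun y => y + e) (f := f)
    fun _ _ _ _ h => add_right_cancel h]
  refine Finset.sum_le_sum_of_subset_of_nonneg (fun u hu => ?_) fun u _ _ => hf u
  obtain ⟨y, hy, rfl⟩ := Finset.mem_image.1 hu
  exact (Finset.mem_filter.1 hy).2

theorem Sys.asi_bond (h : Sys b Ω J E P) (x z u v : Site) (μ : Fin 2) (y : Site) :
    J μ y * (E (sx 0 v * sx 0 z * (sx 2 x * sx 2 u)) - E (sx 0 u * sx 0 z * (sx 2 x * sx 2 v))) ≤
      b * (GG E x u * GG E v z) := by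
  have h1 := h.neg v z x u
  have h2 := h.grif u z x v
  rw [h.sym] at h1
  have h3 : 0 ≤ GG E x u * GG E v z := mul_nonneg (h.g2 _ _) (h.g2 _ _)
  refine le_trans (mul_le_mul_of_nonneg_left ?_ (h.J0 μ y))
    (mul_le_mul_of_nonneg_right (h.J1 μ y) h3)
  unfold GG
  linarith

theorem Sys.asi (h : Sys b Ω J E P) : ASI Ω (GG E) b := by
  intro x z r hr hΩ hz
  have h02 : (0 : Fin 3) ≠ 2 := by decide
  have hb : 0 ≤ b := zero_le_one.trans h.b1
  set φ : Site → ℝ := fun y => if y ∈ bal x r then 1 else 0 with hφ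
  have hs : ∀ y, φ y ≠ 0 → y ∈ bal x r := fun y hy => by_contra fun e => hy (if_neg e)
  have hx : φ x = 1 := if_pos (mem_bal.2 (by omega))
  have hz' : φ z = 0 := if_neg hz
  have hg : Gen 0 2 φ (sx 2 x * sx 0 z) (sx 0 x * sx 0 z) :=
    ((gen_sx_j h02 φ x).mul (gen_sx_i h02 φ z)).congr (by simp [hx, hz'])
  have hw := h.ward 0 2 φ (bal x (r + 1)) _ _ (fun y hy => hΩ (hs y hy)) (gd_mem_bal hs) hg
  set S := bal x r \ bal x (r - 1) with hS
  have term : ∀ (y : Site) (μ : Fin 2), E (sx 2 x * sx 0 z * gd φ μ y • cu J 0 2 μ y) ≤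
      b * ((if y + 0 ∈ S then GG E x (y + 0) * GG E (y + 0 + ee μ) z else 0) +
        if y + ee μ ∈ S then GG E x (y + ee μ) * GG E (y + ee μ - ee μ) z else 0) := by
    intro y μ
    have e : E (sx 2 x * sx 0 z * gd φ μ y • cu J 0 2 μ y) = gd φ μ y * (J μ y *
        (E (sx 0 y * sx 0 z * (sx 2 x * sx 2 (y + ee μ))) -
          E (sx 0 (y + ee μ) * sx 0 z * (sx 2 x * sx 2 y)))) := by
      rw [cu, mul_smul_comm, mul_smul_comm, map_smul, map_smul, ← map_sub]
      congr 3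
      ring
    have n1 : 0 ≤ GG E x y * GG E (y + ee μ) z := mul_nonneg (h.g2 _ _) (h.g2 _ _)
    have n2 : 0 ≤ GG E x (y + ee μ) * GG E y z := mul_nonneg (h.g2 _ _) (h.g2 _ _)
    have b1 := h.asi_bond x z y (y + ee μ) μ y
    have b2 := h.asi_bond x z (y + ee μ) y μ y
    have c := ee_cases μ
    rw [e, add_zero, add_sub_cancel_right, gd]
    by_cases h1 : y ∈ bal x r <;> by_cases h2 : y + ee μ ∈ bal x r
    · rw [show φ y = 1 from if_pos h1, show φ (y + ee μ) = 1 from if_pos h2, sub_self, zero_mul]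
      refine mul_nonneg hb (add_nonneg ?_ ?_) <;> split_ifs <;> first | assumption | rfl
    · have h3 : y ∈ S := by
        simp only [hS, Finset.mem_sdiff, mem_bal, Prod.fst_add, Prod.snd_add] at *
        omega
      rw [show φ y = 1 from if_pos h1, show φ (y + ee μ) = 0 from if_neg h2, if_pos h3,
        if_neg fun e => h2 (Finset.mem_sdiff.1 e).1]
      linarith
    · have h3 : y + ee μ ∈ S := by
        simp only [hS, Finset.mem_sdiff, mem_bal, Prod.fst_add, Prod.snd_add] at *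
        omega
      rw [show φ y = 0 from if_neg h1, show φ (y + ee μ) = 1 from if_pos h2, if_pos h3,
        if_neg fun e => h1 (Finset.mem_sdiff.1 e).1]
      linarith
    · rw [show φ y = 0 from if_neg h1, show φ (y + ee μ) = 0 from if_neg h2, sub_self, zero_mul]
      refine mul_nonneg hb (add_nonneg ?_ ?_) <;> split_ifs <;> first | assumption | rfl
  rw [GG, hw, jc, Finset.mul_sum, map_sum]
  simp only [Finset.mul_sum (s := Finset.univ), map_sum]
  refine (Finset.sum_le_sum fun y _ => Finset.sum_le_sum fun μ _ => term y μ).trans ?_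
  rw [Finset.sum_comm, Finset.sum_comm (s := S), Finset.mul_sum]
  refine Finset.sum_le_sum fun μ _ => ?_
  rw [← Finset.mul_sum]
  refine mul_le_mul_of_nonneg_left ?_ hb
  simp only [mul_add]
  rw [Finset.sum_add_distrib, Finset.sum_add_distrib]
  exact add_le_add
    (asi_sum _ S 0 (fun u => GG E x u * GG E (u + ee μ) z) fun u => mul_nonneg (h.g2 _ _) (h.g2 _ _))
    (asi_sum _ S (ee μ) (fun u => GG E x u * GG E (u - ee μ) z)
      fun u => mul_nonneg (h.g2 _ _) (h.g2 _ _))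

end Vale.Agent.P163N
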