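import Vale.Agent.P163N.Alg
import Vale.Agent.P163.Sym

open MeasureTheory Vale.Agent.P163

namespace Vale.Agent.P163N

variable {om : Measure S4} [IsProbabilityMeasure om] {ν : Measure unitInterval}
  {η : Measure Circle} {Λ : Finset Site} {K : Site → Site → ℝ}

theorem av_one (A : Finset Site) : av om A 1 = 1 := by
  ext σ
  simp [av_apply]

theorem av_pos (A : Finset Site) {F : CA} (hF : ∀ σ, 0 ≤ F σ) (σ : XX) : 0 ≤ av om A F σ :=
  integral_nonneg fun _ => hF _

theorem av_mul (A : Finset Site) (F : CA) {G : CA} (hG : Dep (A : Set Site)ᶜ G) :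
    av om A (G * F) = G * av om A F := by
  ext σ
  rw [ContinuousMap.mul_apply, av_apply, av_apply, ← integral_const_mul]
  refine integral_congr_ae (ae_of_all _ fun τ => ?_)
  have h : G (A.piecewise τ σ) = G σ :=
    hG _ _ fun x hx => Finset.piecewise_eq_of_notMem _ _ _ (by simpa using hx)
  simp only [ContinuousMap.mul_apply, h]

theorem av_dep (A : Finset Site) {S : Set Site} {F : CA} (hF : Dep S F) :
    Dep (S \ A) (av om A F) := by
  intro σ σ' h
  rw [av_apply, av_apply]
  refine integral_congr_ae (ae_of_all _ fun τ => hF _ _ fun x hx => ?_)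
  by_cases hA : x ∈ A
  · rw [Finset.piecewise_eq_of_mem _ _ _ hA, Finset.piecewise_eq_of_mem _ _ _ hA]
  · rw [Finset.piecewise_eq_of_notMem _ _ _ hA, Finset.piecewise_eq_of_notMem _ _ _ hA]
    exact h x ⟨hx, hA⟩

theorem II_av (A : Finset Site) (F : CA) : II om (av om A F) = II om F := by
  have hi : Integrable (fun z : XX × XX => F (A.piecewise z.1 z.2)) ((pm om).prod (pm om)) :=
    (F.continuous.comp (continuous_pw A)).integrable_of_hasCompactSupport
      (HasCompactSupport.of_compactSpace _)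
  have h1 := Sym_integral (Sym_mp_mix (om := om) fun x => x ∈ A) F.continuous
  have h2 : ∫ z : XX × XX, F (A.piecewise z.1 z.2) ∂(pm om).prod (pm om) = ∫ σ, F σ ∂pm om := h1
  rw [II_apply, II_apply, ← h2, integral_prod_symm _ hi]
  rfl

theorem av_av {A B : Finset Site} (hAB : A ⊆ B) (F : CA) : av om B (av om A F) = av om B F := by
  ext σ
  have h := II_av (om := om) A ⟨fun τ => F (B.piecewise τ σ), continuous_pw1 B F σ⟩
  rw [II_apply, II_apply] at h
  rw [av_apply, av_apply]
  refine Eq.trans (integral_congr_ae (ae_of_all _ fun τ => ?_)) h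
  simp only [av_apply, ContinuousMap.coe_mk]
  refine integral_congr_ae (ae_of_all _ fun τ' => congrArg F (funext fun x => ?_))
  by_cases hA : x ∈ A
  · simp only [Finset.piecewise_eq_of_mem _ _ _ hA, Finset.piecewise_eq_of_mem _ _ _ (hAB hA)]
  · by_cases hB : x ∈ B
    · simp only [Finset.piecewise_eq_of_notMem _ _ _ hA, Finset.piecewise_eq_of_mem _ _ _ hB]
    · simp only [Finset.piecewise_eq_of_notMem _ _ _ hA, Finset.piecewise_eq_of_notMem _ _ _ hB]

theorem Av_dep_c (A : Finset Site) (F : CA) : Dep (A : Set Site)ᶜ (av om A F) := by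
  have h : Dep Set.univ F := fun σ τ h => congrArg F (funext fun x => h x trivial)
  have h1 := av_dep (om := om) A h
  rwa [← Set.compl_eq_univ_sdiff] at h1

theorem Av_iz_dep (A : Finset Site) : Dep (A : Set Site)ᶜ (iz om Λ K A) := fun σ τ h => by
  rw [iz_apply, iz_apply, Av_dep_c A _ σ τ h]

theorem Av_wt_iz (A : Finset Site) : av om A (wt Λ K) * iz om Λ K A = 1 := by
  ext σ
  rw [ContinuousMap.mul_apply, iz_apply]
  exact mul_inv_cancel₀ (av_wt_pos om Λ K A σ).ne'

theorem Av_PP_wt (A : Finset Site) (F : CA) :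
    av om A (PP om Λ K A F * wt Λ K) = av om A (F * wt Λ K) := by
  have h : Dep (A : Set Site)ᶜ (PP om Λ K A F) := fun σ τ h => by
    rw [PP_apply, ContinuousMap.mul_apply, ContinuousMap.mul_apply, Av_dep_c A _ σ τ h,
      Av_iz_dep A σ τ h]
  rw [av_mul A _ h, PP_apply, mul_assoc, mul_comm (iz om Λ K A), Av_wt_iz, mul_one]

theorem EE_one : EE om Λ K 1 = 1 := by
  rw [EE_apply, one_mul]
  exact inv_mul_cancel₀ (II_wt_pos om Λ K).ne'

theorem EE_pos (F : CA) (hF : ∀ σ, 0 ≤ F σ) : 0 ≤ EE om Λ K F := by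
  rw [EE_apply]
  exact mul_nonneg (inv_nonneg.2 (II_wt_pos om Λ K).le)
    (integral_nonneg fun σ => mul_nonneg (hF σ) (Real.exp_pos _).le)

theorem PP_one (A : Finset Site) : PP om Λ K A 1 = 1 := by
  rw [PP_apply, one_mul, Av_wt_iz]

theorem PP_pos (A : Finset Site) (F : CA) (hF : ∀ σ, 0 ≤ F σ) (σ : XX) :
    0 ≤ PP om Λ K A F σ := by
  rw [PP_apply, ContinuousMap.mul_apply, iz_apply]
  exact mul_nonneg (av_pos A (fun τ => mul_nonneg (hF τ) (Real.exp_pos _).le) σ)
    (inv_nonneg.2 (av_wt_pos om Λ K A σ).le)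

theorem PP_mul (A : Finset Site) (F G : CA) (hG : Dep (A : Set Site)ᶜ G) :
    PP om Λ K A (G * F) = G * PP om Λ K A F := by
  rw [PP_apply, PP_apply, mul_assoc G, av_mul A _ hG, mul_assoc]

theorem EE_PP (A : Finset Site) (F : CA) : EE om Λ K (PP om Λ K A F) = EE om Λ K F := by
  rw [EE_apply, EE_apply, ← II_av A (PP om Λ K A F * wt Λ K), Av_PP_wt, II_av]

theorem PP_tower (A B : Finset Site) (F : CA) (hAB : A ⊆ B) :
    PP om Λ K B (PP om Λ K A F) = PP om Λ K B F := by
  rw [PP_apply om Λ K B, PP_apply om Λ K B, ← av_av hAB, Av_PP_wt, av_av hAB]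

end Vale.Agent.P163N
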