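import Vale.Agent.P163N.Ind

open MeasureTheory Vale.Agent.P163

namespace Vale.Agent.P163N

variable {b : ℝ} {Ω : Set Site} {J : Fin 2 → Site → ℝ} {E : CA →ₗ[ℝ] ℝ}
  {P : Finset Site → CA →ₗ[ℝ] CA}

/-- the partner of the diagonal term under rotations of the plane `0, 1` -/
noncomputable def BdD (J : Fin 2 → Site → ℝ) (Q : CA →ₗ[ℝ] CA) (S : Finset Site) (f : Site → ℝ)
    (W : Fin 2 → Site → ℝ) : CA :=
  ep J 1 S (fun μ x => W μ x * gd f μ x) - ccv Q (jc J 0 1 S (gd f)) (jc J 0 2 S W)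

theorem Bd_gr (h : Sys b Ω J E P) (A S : Finset Site) (f : Site → ℝ) (W : Fin 2 → Site → ℝ)
    (t : ℝ) : gr 0 1 t (BdD J (P A) S f W) =
      Real.cos t • BdD J (P A) S f W + Real.sin t • DD J (P A) S f W := by
  have h01 : (0 : Fin 3) ≠ 1 := by decide
  simp only [BdD, DD, ccv, map_sub, map_mul, ← h.equi, gr_jc_self h01, gr_jc02, gr_ep1, mul_sub,
    mul_smul_comm, map_smul]
  module

theorem Bd_n2 (h : Sys b Ω J E P) (A S : Finset Site) (f : Site → ℝ) (W : Fin 2 → Site → ℝ) :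
    n2 E (BdD J (P A) S f W) ≤ 3 * b ^ 2 * (nv S (gd f) * nv S W) := by
  have hb := h.b1
  have h1 := h.n4_jc (i := 0) (j := 1) (by decide) S (gd f)
  have h2 := h.n4_jc (i := 0) (j := 2) (by decide) S W
  have h3 := h.n2_ep 1 S W (gd f)
  have n1 := nv_nonneg S (gd f)
  have n0 := nv_nonneg S W
  have h4 : n2 E (P A (jc J 0 1 S (gd f) * jc J 0 2 S W)) ≤ b * nv S (gd f) * (b * nv S W) :=
    (h.n2_P _ _).trans ((h.n2_mul _ _).trans
      (mul_le_mul h1 h2 (n4_nonneg _ _) (by positivity)))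
  have h5 : n2 E (P A (jc J 0 1 S (gd f)) * P A (jc J 0 2 S W))
      ≤ b * nv S (gd f) * (b * nv S W) :=
    (h.n2_mul _ _).trans (mul_le_mul ((h.n4_P _ _).trans h1) ((h.n4_P _ _).trans h2)
      (n4_nonneg _ _) (by positivity))
  have h6 := h.n2_sub (P A (jc J 0 1 S (gd f) * jc J 0 2 S W))
    (P A (jc J 0 1 S (gd f)) * P A (jc J 0 2 S W))
  have h7 : b * (nv S W * nv S (gd f)) ≤ b ^ 2 * (nv S W * nv S (gd f)) :=
    mul_le_mul_of_nonneg_right (by nlinarith) (by positivity)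
  refine (h.n2_sub _ _).trans ?_
  rw [ccv]
  linarith

/-- Mermin Wagner bound for the diagonal term of a small cell -/
theorem Sys.bd (h : Sys b Ω J E P) {l : ℤ} (hl : 0 < l) {B : Finset Site}
    (hB : (B : Set Site) ⊆ Ω) {u : Site} (hu : opn l u ⊆ B) {Z : CA} {S : Set Site}
    (hZ : Dep S Z) (φ : Site → ℝ) (T : Finset Site) (h1 : ∀ x ∈ cls l u, φ x = 1)
    (h0 : ∀ x ∈ S, φ x = 0) (hΩ : ∀ x, φ x ≠ 0 → x ∈ Ω) (hT : ∀ μ x, gd φ μ x ≠ 0 → x ∈ T)
    (f : Site → ℝ) (W : Fin 2 → Site → ℝ) :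
    |E (Z * DD J (P (off l B)) (cel l u) f W)| ≤
      3 * b ^ 3 * n4 E Z * nv T (gd φ) * (nv (cel l u) (gd f) * nv (cel l u) W) := by
  have hb := h.b1
  have hc : ∀ {F : CA}, Dep (cls l u) F → Dep (cls l u) (P (off l B) F) := fun hF =>
    h.dep_cls dvd_rfl hB hu hF
  have hD : Dep (cls l u) (BdD J (P (off l B)) (cel l u) f W) :=
    (dep_ep_cel l u).sub ((hc ((dep_jc_cel l u).mul (dep_jc_cel l u))).sub
      ((hc (dep_jc_cel l u)).mul (hc (dep_jc_cel l u))))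
  have g1 := gen_rot (φ := φ) hD (c := 1) (fun x hx => h1 x hx) (Bd_gr h _ _ f W)
  have g2 := h.ward 0 1 φ T _ _ hΩ hT ((gen_zero hZ h0).mul g1)
  rw [zero_mul, zero_add, one_smul, mul_right_comm] at g2
  rw [g2]
  refine (h.hold _ _ _).trans ?_
  have a1 := h.n4_jc (i := 0) (j := 1) (by decide) T (gd φ)
  have a2 := Bd_n2 h (off l B) (cel l u) f W
  have a3 := n4_nonneg E Z
  have a4 := nv_nonneg T (gd φ)
  calc _ ≤ n4 E Z * (b * nv T (gd φ)) * (3 * b ^ 2 * (nv (cel l u) (gd f) * nv (cel l u) W)) :=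
        mul_le_mul (mul_le_mul_of_nonneg_left a1 a3) a2 (n2_nonneg _ _) (by positivity)
    _ = _ := by ring

end Vale.Agent.P163N
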