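import Vale.Agent.P163N.Bid
import Vale.Agent.P163N.Bd

open MeasureTheory Vale.Agent.P163

namespace Vale.Agent.P163N

variable {b : ℝ} {Ω : Set Site} {J : Fin 2 → Site → ℝ} {E : CA →ₗ[ℝ] ℝ}
  {P : Finset Site → CA →ₗ[ℝ] CA}

theorem bcell_DD_zero (Q : CA →ₗ[ℝ] CA) (S : Finset Site) (f : Site → ℝ) (W : Fin 2 → Site → ℝ)
    (h0 : ∀ x ∈ S, ∀ μ, gd f μ x = 0) : DD J Q S f W = 0 := by
  have h1 : jc J 0 1 S (gd f) = 0 := by
    unfold jc
    refine Finset.sum_eq_zero fun x hx => Finset.sum_eq_zero fun μ _ => ?_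
    rw [h0 x hx μ, zero_smul]
  have h2 : ep J 0 S (fun μ x => W μ x * gd f μ x) = 0 := by
    unfold ep
    refine Finset.sum_eq_zero fun x hx => Finset.sum_eq_zero fun μ _ => ?_
    beta_reduce
    rw [h0 x hx μ, mul_zero, zero_mul, zero_smul]
  unfold DD ccv
  rw [h1, h2, zero_mul, map_zero, zero_mul, sub_zero, add_zero]

theorem bcell_sum {l : ℤ} (hl : 0 < l) (K : ℤ) (U : Site) (V W : Fin 2 → Site → ℝ) :
    ∑ u ∈ cel K U, nv (cel l u) V * nv (cel l u) W ≤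
      nv (cel (K * l) U) V * nv (cel (K * l) U) W := by
  unfold nv
  rw [nq_cel hl, nq_cel hl]
  exact Real.sum_sqrt_mul_sqrt_le _ (fun _ => nq_nonneg _ _) fun _ => nq_nonneg _ _

/-- the estimate in a large cell -/
theorem Sys.bcell (h : Sys b Ω J E P) {l K : ℤ} (hl : 0 < l) (hK : 0 < K) {B : Finset Site}
    (hB : (B : Set Site) ⊆ Ω) {U : Site} (hU : opn (K * l) U ⊆ B) (W : Fin 2 → Site → ℝ)
    (f : Site → ℝ) (hf1 : ∀ x, |f x| ≤ 1) (hf : ∀ x, f x ≠ 0 → x ∈ opn (K * l) U)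
    (η : ℝ) (hη : 0 ≤ η)
    (hφ : ∀ u ∈ cel K U, ∀ x ∈ cel l u, ∀ μ, gd f μ x ≠ 0 → ∃ (φ : Site → ℝ) (T : Finset Site),
      (∀ x ∈ cls l u, φ x = 1) ∧ (∀ x, φ x ≠ 0 → x ∈ opn (K * l) U) ∧
      (∀ μ x, gd φ μ x ≠ 0 → x ∈ T) ∧ nv T (gd φ) ≤ η) :
    E (ZZ J P (K * l) B U f W ^ 2) ≤
      3 * b ^ 4 * nv (cel (K * l) U) W * nv (cel (K * l) U) (gd f) *
        (n2 E (DL J P l (K * l) B U W) + η * nv (cel (K * l) U) W) := by
  have hL : 0 < K * l := mul_pos hK hl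
  have hb := h.b1
  have hZ4 : n4 E (ZZ J P (K * l) B U f W) ≤ b * nv (cel (K * l) U) W := by
    unfold ZZ
    refine (h.n4_P _ _).trans ((h.n4_jc (by decide) _ _).trans ?_)
    refine mul_le_mul_of_nonneg_left (nv_mono fun x _ μ => ?_) (by linarith)
    rw [abs_mul]
    exact mul_le_of_le_one_left (abs_nonneg _) (hf1 x)
  have hZd : Dep ((cls (K * l) U : Set Site) \ opn (K * l) U) (ZZ J P (K * l) B U f W) :=
    h.dep_bd hL hB hU (dep_jc_cel _ _)
  rw [h.bid hl hK hB hU W f hf]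
  have hX4 : n4 E (jc J 0 1 (cel (K * l) U) (gd f)) ≤ b * nv (cel (K * l) U) (gd f) :=
    h.n4_jc (by decide) _ _
  have h1 := (le_abs_self _).trans
    (h.hold (ZZ J P (K * l) B U f W) (jc J 0 1 (cel (K * l) U) (gd f)) (DL J P l (K * l) B U W))
  have hz0 := n4_nonneg E (ZZ J P (K * l) B U f W)
  have hx0 := n4_nonneg E (jc J 0 1 (cel (K * l) U) (gd f))
  have hd0 := n2_nonneg E (DL J P l (K * l) B U W)
  have hw0 := nv_nonneg (cel (K * l) U) W
  have hg0 := nv_nonneg (cel (K * l) U) (gd f)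
  have h2 : ∀ u ∈ cel K U, E (ZZ J P (K * l) B U f W * DD J (P (off l B)) (cel l u) f W) ≤
      3 * b ^ 3 * (b * nv (cel (K * l) U) W) * η * (nv (cel l u) (gd f) * nv (cel l u) W) := by
    intro u hu
    have p1 := nv_nonneg (cel l u) (gd f)
    have p2 := nv_nonneg (cel l u) W
    by_cases h0 : ∀ x ∈ cel l u, ∀ μ, gd f μ x = 0
    · rw [bcell_DD_zero _ _ _ _ h0, mul_zero, map_zero]
      positivity
    · push Not at h0
      obtain ⟨x, hx, μ, hμ⟩ := h0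
      obtain ⟨φ, T, a1, a2, a3, a4⟩ := hφ u hu x hx μ hμ
      have h3 := h.bd hl hB ((opn_sub_opn hl hu).trans hU) hZd φ T a1
        (fun y hy => by
          by_contra hc
          exact hy.2 (a2 y hc))
        (fun y hy => hB (hU (a2 y hy))) a3 f W
      refine (le_abs_self _).trans (h3.trans ?_)
      have p3 := nv_nonneg T (gd φ)
      gcongr
  have h4 := Finset.sum_le_sum h2
  rw [← Finset.mul_sum] at h4
  have h5 := bcell_sum hl K U (gd f) W
  have h6 : 3 * b ^ 3 * (b * nv (cel (K * l) U) W) * η *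
      ∑ u ∈ cel K U, nv (cel l u) (gd f) * nv (cel l u) W ≤
      3 * b ^ 3 * (b * nv (cel (K * l) U) W) * η *
        (nv (cel (K * l) U) (gd f) * nv (cel (K * l) U) W) :=
    mul_le_mul_of_nonneg_left h5 (by positivity)
  have h7 : n4 E (ZZ J P (K * l) B U f W) * n4 E (jc J 0 1 (cel (K * l) U) (gd f)) *
      n2 E (DL J P l (K * l) B U W) ≤ (b * nv (cel (K * l) U) W) *
        (b * nv (cel (K * l) U) (gd f)) * n2 E (DL J P l (K * l) B U W) := by
    gcongr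
  have h8 : b * b ≤ 3 * b ^ 4 := by
    have e1 : 1 ≤ b * b := by nlinarith
    nlinarith
  have h9 := mul_le_mul_of_nonneg_right h8 (mul_nonneg (mul_nonneg hw0 hg0) hd0)
  linarith

end Vale.Agent.P163N
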