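import Vale.Agent.P163N.Ind

open MeasureTheory Vale.Agent.P163

namespace Vale.Agent.P163N

variable {b : ℝ} {Ω : Set Site} {J : Fin 2 → Site → ℝ} {E : CA →ₗ[ℝ] ℝ}
  {P : Finset Site → CA →ₗ[ℝ] CA}

theorem bid_cov {ι : Type} [DecidableEq ι] (Q : CA →ₗ[ℝ] CA) (s : Finset ι) (X Y : ι → CA)
    (h : ∀ u ∈ s, ∀ v ∈ s, u ≠ v → Q (X u * Y v) = Q (X u) * Q (Y v)) :
    Q ((∑ u ∈ s, X u) * ∑ u ∈ s, Y u) =
      Q (∑ u ∈ s, X u) * Q (∑ u ∈ s, Y u) + ∑ u ∈ s, ccv Q (X u) (Y u) := by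
  rw [Finset.sum_mul_sum, map_sum, map_sum Q X, map_sum Q Y, Finset.sum_mul_sum,
    ← Finset.sum_add_distrib]
  refine Finset.sum_congr rfl fun u hu => ?_
  rw [map_sum, ← Finset.add_sum_erase s _ hu, ← Finset.add_sum_erase s _ hu,
    Finset.sum_congr rfl fun v hv =>
      h u hu v (Finset.mem_of_mem_erase hv) (Finset.ne_of_mem_erase hv).symm]
  unfold ccv
  ring

/-- the non abelian Ward identity in a large cell -/
theorem Sys.bid (h : Sys b Ω J E P) {l K : ℤ} (hl : 0 < l) (hK : 0 < K) {B : Finset Site}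
    (hB : (B : Set Site) ⊆ Ω) {U : Site} (hU : opn (K * l) U ⊆ B) (W : Fin 2 → Site → ℝ)
    (f : Site → ℝ) (hf : ∀ x, f x ≠ 0 → x ∈ opn (K * l) U) :
    E (ZZ J P (K * l) B U f W ^ 2) =
      E (ZZ J P (K * l) B U f W * jc J 0 1 (cel (K * l) U) (gd f) * DL J P l (K * l) B U W) +
        ∑ u ∈ cel K U, E (ZZ J P (K * l) B U f W * DD J (P (off l B)) (cel l u) f W) := by
  have hL : 0 < K * l := mul_pos hK hl
  have hd : l ∣ K * l := Dvd.intro_left K rfl
  have hΩ1 : ((off l B : Finset Site) : Set Site) ⊆ Ω := fun x hx => hB (off_sub hx)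
  have hΩ2 : ((off (K * l) B : Finset Site) : Set Site) ⊆ Ω := fun x hx => hB (off_sub hx)
  have hfΩ : ∀ x, f x ≠ 0 → x ∈ Ω := fun x hx => hB (hU (hf x hx))
  have hf0 : ∀ x ∈ (cls (K * l) U : Set Site) \ opn (K * l) U, f x = 0 := fun x hx => by
    by_contra hne
    exact hx.2 (hf x hne)
  set Z : CA := ZZ J P (K * l) B U f W with hZ
  set X : CA := jc J 0 1 (cel (K * l) U) (gd f) with hX
  set Y : CA := jc J 1 2 (cel (K * l) U) W with hY
  set Jf : CA := jc J 0 2 (cel (K * l) U) (fun μ x => f x * W μ x) with hJf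
  set eps : CA := ep J 0 (cel (K * l) U) (fun μ x => W μ x * gd f μ x) with heps
  have hZP : Z = P (off (K * l) B) Jf := rfl
  have hZb : Dep ((cls (K * l) U : Set Site) \ opn (K * l) U) Z :=
    h.dep_bd hL hB hU (dep_jc_cel _ _)
  have hZ2 : Dep ((off (K * l) B : Finset Site) : Set Site)ᶜ Z := h.P_dep hΩ2 Jf
  have hZ1 : Dep ((off l B : Finset Site) : Set Site)ᶜ Z :=
    hZ2.mono (Set.compl_subset_compl.2 fun x hx => off_mono hd hx)
  have e1 : E (0 * Y + Z * (Jf - eps)) = E (Z * Y * X) :=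
    h.ward 0 1 f (cel (K * l) U) _ _ hfΩ (gd_mem_cel hf) ((gen_zero hZb hf0).mul (gen_jc f _))
  have e2 : E (Z * Z) = E (Z * Jf) := by
    have := h.E_P hZ2 Jf
    rwa [← hZP] at this
  have e3 : E (Z * P (off l B) (X * Y)) = E (Z * (X * Y)) := h.E_P hZ1 _
  have e4 : P (off l B) (X * Y) = P (off l B) X * P (off l B) Y +
      ∑ u ∈ cel K U, ccv (P (off l B)) (jc J 0 1 (cel l u) (gd f)) (jc J 1 2 (cel l u) W) := by
    rw [hX, hY, jc_cel hl, jc_cel hl]
    exact bid_cov _ _ _ _ fun u hu v _ huv =>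
      h.indep hl hB ((opn_sub_opn hl hu).trans hU) huv (dep_jc_cel _ _) (dep_jc_cel _ _)
  have e5 : E (Z * P (off l B) Y * P (off l B) X) = E (Z * P (off l B) Y * X) :=
    h.E_P (hZ1.mul (h.P_dep hΩ1 Y)) X
  have e6 : E 0 = E (Z * P (off (K * l) B) Y * X) :=
    h.ward 0 1 f (cel (K * l) U) _ _ hfΩ (gd_mem_cel hf)
      (gen_zero (hZb.mul (h.dep_bd hL hB hU (dep_jc_cel _ _))) hf0)
  have e7 : eps = ∑ u ∈ cel K U, ep J 0 (cel l u) (fun μ x => W μ x * gd f μ x) := ep_cel hl K U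
  have e8 : ∑ u ∈ cel K U, E (Z * DD J (P (off l B)) (cel l u) f W) =
      E (Z * (P (off l B) (X * Y) - P (off l B) X * P (off l B) Y)) + E (Z * eps) := by
    rw [e4, add_sub_cancel_left, e7, ← map_add, ← mul_add, ← Finset.sum_add_distrib,
      Finset.mul_sum, map_sum]
    rfl
  have e9 : E (Z * X * DL J P l (K * l) B U W) =
      E (Z * P (off l B) Y * X) - E (Z * P (off (K * l) B) Y * X) := by
    rw [← map_sub]
    congr 1
    unfold DL
    ring
  have e10 : E (Z * (P (off l B) (X * Y) - P (off l B) X * P (off l B) Y)) =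
      E (Z * P (off l B) (X * Y)) - E (Z * P (off l B) Y * P (off l B) X) := by
    rw [← map_sub]
    congr 1
    ring
  have e11 : E (0 * Y + Z * (Jf - eps)) = E (Z * Jf) - E (Z * eps) := by
    rw [← map_sub]
    congr 1
    ring
  have e12 : E (Z * Y * X) = E (Z * (X * Y)) := by
    congr 1
    ring
  rw [map_zero] at e6
  rw [e8, e9, e10, sq]
  linarith

end Vale.Agent.P163N
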