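import Vale.Agent.P163N.Ind

open MeasureTheory Vale.Agent.P163

namespace Vale.Agent.P163N

variable {b : ℝ} {Ω : Set Site} {J : Fin 2 → Site → ℝ} {E : CA →ₗ[ℝ] ℝ}
  {P : Finset Site → CA →ₗ[ℝ] CA}

/-- the gradient current seen from one cell -/
theorem Sys.bs (h : Sys b Ω J E P) {L : ℤ} (hL : 0 < L) {B : Finset Site}
    (hB : (B : Set Site) ⊆ Ω) {U : Site} (hU : opn L U ⊆ B) (g k : Site → ℝ) (c0 : ℝ)
    (T T' : Finset Site) (hg : ∀ x, g x ≠ 0 → x ∈ Ω) (hT : ∀ μ x, gd g μ x ≠ 0 → x ∈ T)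
    (hk : ∀ x, k x ≠ 0 → x ∈ Ω) (hT' : ∀ μ x, gd k μ x ≠ 0 → x ∈ T')
    (hc : ∀ x ∈ cls L U, g x - k x = c0) (f : Site → ℝ) (W : Fin 2 → Site → ℝ) :
    E (jc J 0 2 T (gd g) * P (off L B) (jc J 0 2 (cel L U) W)) ≤
      b * nv T' (gd k) * (n2 E (ZZ J P L B U f W) +
        b * nv (cel L U) fun μ x => (1 - f x) * W μ x) := by
  have h02 : (0 : Fin 3) < 2 := by decide
  have hb : 0 ≤ b := zero_le_one.trans h.b1
  have hD : Dep (cls L U) (P (off L B) (jc J 0 2 (cel L U) W)) :=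
    h.dep_cls dvd_rfl hB hU (dep_jc_cel L U)
  have hG : Gen 0 2 (fun x => g x - k x) (P (off L B) (jc J 0 2 (cel L U) W)) 0 :=
    gen_inv hD (c := c0) (fun x hx => hc x hx) fun t => by
      rw [← h.equi, gr_jc_self h02.ne]
  have hw := h.ward 0 2 (fun x => g x - k x) (T ∪ T') _ _ (fun x hx => by
      by_cases h0 : g x = 0
      · exact hk x fun h1 => hx (by simp only [h0, h1, sub_self])
      · exact hg x h0) (fun μ x hx => by
      by_cases h0 : gd g μ x = 0
      · refine Finset.mem_union_right _ (hT' μ x fun h1 => hx ?_)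
        simp only [gd] at h0 h1 ⊢
        linarith
      · exact Finset.mem_union_left _ (hT μ x h0)) hG
  have hj : jc J 0 2 (T ∪ T') (gd fun x => g x - k x) =
      jc J 0 2 T (gd g) - jc J 0 2 T' (gd k) := by
    rw [← jc_subset Finset.subset_union_left hT (A' := T ∪ T'),
      ← jc_subset Finset.subset_union_right hT' (A' := T ∪ T'), ← jc_sub]
    refine jc_congr fun x _ μ => ?_
    simp only [gd]
    ring
  rw [hj, map_zero, mul_sub, map_sub] at hw
  have hS : P (off L B) (jc J 0 2 (cel L U) W) = ZZ J P L B U f W +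
      P (off L B) (jc J 0 2 (cel L U) fun μ x => (1 - f x) * W μ x) := by
    rw [ZZ, ← map_add, ← jc_add]
    refine congrArg _ (jc_congr fun x _ μ => ?_)
    ring
  have h1 : n2 E (P (off L B) (jc J 0 2 (cel L U) W)) ≤ n2 E (ZZ J P L B U f W) +
      b * nv (cel L U) fun μ x => (1 - f x) * W μ x := by
    rw [hS]
    exact (h.n2_add _ _).trans (add_le_add le_rfl ((h.n2_P _ _).trans (h.n2_jc h02 _ _)))
  have h2 := (le_abs_self _).trans (h.cs (jc J 0 2 T' (gd k)) (P (off L B) (jc J 0 2 (cel L U) W)))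
  have h3 := mul_le_mul (h.n2_jc h02 T' (gd k)) h1 (n2_nonneg _ _)
    (mul_nonneg hb (nv_nonneg _ _))
  rw [mul_comm (jc J 0 2 T' (gd k))] at h2
  rw [mul_comm (jc J 0 2 T (gd g))]
  linarith

end Vale.Agent.P163N
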