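import Vale.Agent.P163N.Alg
import Vale.Agent.P163.Sym
import Vale.Agent.P163.Trans

open MeasureTheory Vale.Agent.P163

namespace Vale.Agent.P163N

variable {om : Measure S4} [IsProbabilityMeasure om] {ν : Measure unitInterval}
  {η : Measure Circle} {Λ : Finset Site} {K : Site → Site → ℝ}

/-- link with the unnormalized expectations of the directory P163 -/
theorem II_num (D : Finset Site) (hD : Λ ⊆ D) {F : CA} (hF : Dep D F) :
    II om (F * wt Λ K) = num om Λ D K F := by
  rw [II_apply, num]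
  refine integral_congr_ae (ae_of_all _ fun σ => ?_)
  have e : ∀ x ∈ D, σ x = frz e0 D σ x := fun x hx => by simp [frz, hx]
  have h1 : F σ = F (frz e0 D σ) := hF _ _ fun x hx => e x hx
  have h2 : ham Λ K σ = ham Λ K (frz e0 D σ) :=
    Finset.sum_congr rfl fun x hx => Finset.sum_congr rfl fun y hy => by
      rw [← e x (hD hx), ← e y (hD hy)]
  simp only [ContinuousMap.mul_apply, wt_apply]
  rw [← h1, ← h2]

/-- invariance under global rotations -/
theorem EE_gr (h : Model om ν η) (i j : Fin 3) (t : ℝ) (F : CA) :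
    EE om Λ K (gr i j t F) = EE om Λ K F := by
  have hp : ∀ x : Site, MeasurePreserving
      (sph (WardF_R i j (t * 1)) (WardF_R_norm i j _)) om om := fun _ =>
    h.inv _ _ (WardF_R_three i j _)
  have hm : MeasurePreserving (ro i j (fun _ => 1) t) (pm om) (pm om) := by
    refine ⟨(continuous_ro i j _ t).measurable, ?_⟩
    have h1 := Measure.infinitePi_map_pi (μ := fun _ : Site => om) fun x => (hp x).measurable
    refine h1.trans ?_
    congr 1
    funext y
    exact (hp y).map_eq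
  rw [EE_apply, EE_apply, II_apply om (F * wt Λ K),
    ← Sym_integral hm (F * wt Λ K).continuous, II_apply om (gr i j t F * wt Λ K)]
  congr 1
  refine integral_congr_ae (ae_of_all _ fun σ => ?_)
  simp only [ContinuousMap.mul_apply, wt_apply, gr_apply, ham, ro, Sym_dot]

theorem EE_g2 (h : Model om ν η) (hK : ∀ x y, 0 ≤ K x y) (x y : Site) :
    0 ≤ EE om Λ K (sx 0 x * sx 0 y) := by
  have h1 := grifS h K hK Λ (Λ ∪ {x, y}) [[(x, true)], [(y, true)]] []
  rw [EE_apply, II_num (Λ ∪ {x, y}) Finset.subset_union_left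
    ((dep_sx 0 (by simp)).mul (dep_sx 0 (by simp)))]
  refine mul_nonneg (inv_nonneg.mpr (II_wt_pos om Λ K).le) (h1.trans (le_of_eq ?_))
  congr 1
  funext σ
  simp [oA, oB, gA, zeta, sx_apply]

theorem EE_sym (h : Model om ν η) (x y : Site) :
    EE om Λ K (sx 2 x * sx 2 y) = EE om Λ K (sx 0 x * sx 0 y) := by
  rw [← EE_gr h 0 2 (Real.pi / 2), map_mul, gr_sx_j (by decide), gr_sx_j (by decide)]
  simp

theorem EE_grif (h : Model om ν η) (hK : ∀ x y, 0 ≤ K x y) (x y z w : Site) :
    0 ≤ EE om Λ K (sx 0 x * sx 0 y * (sx 2 z * sx 2 w)) := by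
  have h1 := grifS h K hK Λ (Λ ∪ {x, y, z, w}) [[(x, true)], [(y, true)]] [z, w]
  rw [EE_apply, II_num (Λ ∪ {x, y, z, w}) Finset.subset_union_left
    (((dep_sx 0 (by simp)).mul (dep_sx 0 (by simp))).mul
      ((dep_sx 2 (by simp)).mul (dep_sx 2 (by simp))))]
  refine mul_nonneg (inv_nonneg.mpr (II_wt_pos om Λ K).le) (h1.trans (le_of_eq ?_))
  congr 1
  funext σ
  simp [oA, oB, gA, zeta, sx_apply]

theorem EE_neg (h : Model om ν η) (hK : ∀ x y, 0 ≤ K x y) (x y z w : Site) :
    EE om Λ K (sx 0 x * sx 0 y * (sx 2 z * sx 2 w)) ≤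
      EE om Λ K (sx 0 x * sx 0 y) * EE om Λ K (sx 2 z * sx 2 w) := by
  have h1 := negS h K hK Λ (Λ ∪ {x, y, z, w}) [[(x, true)], [(y, true)]] [z, w]
  have hA : Dep ((Λ ∪ {x, y, z, w} : Finset Site) : Set Site) (sx 0 x * sx 0 y) :=
    (dep_sx 0 (by simp)).mul (dep_sx 0 (by simp))
  have hB : Dep ((Λ ∪ {x, y, z, w} : Finset Site) : Set Site) (sx 2 z * sx 2 w) :=
    (dep_sx 2 (by simp)).mul (dep_sx 2 (by simp))
  have eA : oA [[(x, true)], [(y, true)]] = ⇑(sx 0 x * sx 0 y) := by
    funext σ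
    simp [oA, gA, zeta, sx_apply]
  have eB : oB [z, w] = ⇑(sx 2 z * sx 2 w) := by
    funext σ
    simp [oB, sx_apply]
  have e1 := II_num (om := om) (K := K) _ Finset.subset_union_left hA
  have e2 := II_num (om := om) (K := K) _ Finset.subset_union_left hB
  have e3 := II_num (om := om) (K := K) _ Finset.subset_union_left (hA.mul hB)
  have e4 := II_num (om := om) (K := K) (Λ ∪ {x, y, z, w}) Finset.subset_union_left dep_one
  rw [one_mul] at e4
  rw [eA, eB, ← e1, ← e2] at h1
  have h2 : II om (sx 0 x * sx 0 y * (sx 2 z * sx 2 w) * wt Λ K) * II om (wt Λ K) ≤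
      II om (sx 0 x * sx 0 y * wt Λ K) * II om (sx 2 z * sx 2 w * wt Λ K) := by
    rw [e3, e4]
    exact h1
  have hZ := II_wt_pos om Λ K
  rw [EE_apply, EE_apply, EE_apply]
  generalize II om (wt Λ K) = Z at hZ h2
  have h3 := mul_le_mul_of_nonneg_left h2 (mul_pos (inv_pos.mpr hZ) (inv_pos.mpr hZ)).le
  refine le_of_eq_of_le ?_ (h3.trans (le_of_eq (by ring)))
  field_simp

end Vale.Agent.P163N
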