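import Vale.Agent.P163N.Alg

open MeasureTheory Vale.Agent.P163

namespace Vale.Agent.P163N

theorem Cut_clamp (n : Site → ℤ) (w : ℤ) (hw : 1 ≤ w)
    (hn : ∀ μ x, n (x + ee μ) ≤ n x + 1 ∧ n x ≤ n (x + ee μ) + 1) : ∃ χ : Site → ℝ,
    (∀ x, 0 ≤ χ x ∧ χ x ≤ 1) ∧ (∀ x, w ≤ n x → χ x = 1) ∧ (∀ x, χ x ≠ 0 → 0 < n x) ∧
    (∀ μ x, |gd χ μ x| ≤ 1 / (w : ℝ)) ∧ ∀ μ x, gd χ μ x ≠ 0 → 0 ≤ n x ∧ n x ≤ w := by
  have w0 : (0 : ℝ) < w := by exact_mod_cast (by omega : 0 < w)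
  refine ⟨fun x => ((max 0 (min w (n x)) : ℤ) : ℝ) / w, fun x => ⟨?_, ?_⟩, fun x hx => ?_,
    fun x hx => ?_, fun μ x => ?_, fun μ x hx => ?_⟩
  · have : (0 : ℤ) ≤ max 0 (min w (n x)) := by omega
    exact div_nonneg (by exact_mod_cast this) w0.le
  · have : max 0 (min w (n x)) ≤ w := by omega
    rw [div_le_one w0]
    exact_mod_cast this
  · have : max 0 (min w (n x)) = w := by omega
    simp only [this]
    exact div_self w0.ne'
  · by_contra h
    have : max 0 (min w (n x)) = 0 := by omega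
    simp [this] at hx
  · have h := hn μ x
    have h1 : |max 0 (min w (n (x + ee μ))) - max 0 (min w (n x))| ≤ 1 := by
      rw [abs_le]
      omega
    simp only [gd]
    rw [← sub_div, abs_div, abs_of_pos w0]
    refine div_le_div_of_nonneg_right ?_ w0.le
    exact_mod_cast h1
  · have h := hn μ x
    by_contra hc
    have : max 0 (min w (n (x + ee μ))) = max 0 (min w (n x)) := by omega
    simp [gd, this] at hx

/-- linear cutoff between the radii `a` and `a + w` -/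
theorem ramp (c : Site) (a w : ℤ) (hw : 1 ≤ w) : ∃ χ : Site → ℝ, (∀ x, 0 ≤ χ x ∧ χ x ≤ 1) ∧
    (∀ x ∈ bal c a, χ x = 1) ∧ (∀ x, χ x ≠ 0 → x ∈ bal c (a + w)) ∧
    ∀ μ x, |gd χ μ x| ≤ 1 / (w : ℝ) := by
  obtain ⟨χ, h1, h2, h3, h4, -⟩ := Cut_clamp
    (fun x => a + w + min (min (x.1 - c.1) (c.1 - x.1)) (min (x.2 - c.2) (c.2 - x.2))) w hw
    (fun μ x => by
      have := ee_cases μ
      simp only [Prod.fst_add, Prod.snd_add]
      omega)
  refine ⟨χ, h1, fun x hx => h2 x ?_, fun x hx => ?_, h4⟩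
  · rw [mem_bal] at hx
    omega
  · have := h3 x hx
    rw [mem_bal]
    omega

theorem Cut_lip (h : ℤ → ℝ) (γ : ℝ) (hh : ∀ t, |h (t + 1) - h t| ≤ γ) (a b R : ℤ)
    (h1 : b - R ≤ a) (h2 : a ≤ b + R) : |h a - h b| ≤ γ * R := by
  have γ0 : 0 ≤ γ := (abs_nonneg _).trans (hh 0)
  have key : ∀ (n : ℕ) (b : ℤ), |h (b + n) - h b| ≤ γ * n := by
    intro n b
    induction n with
    | zero => simp
    | succ n ih =>
      have e := abs_sub_le (h (b + n + 1)) (h (b + n)) (h b)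
      have := hh (b + n)
      push_cast
      rw [← add_assoc]
      linarith
  rcases le_total b a with hab | hab
  · obtain ⟨n, rfl⟩ := Int.le.dest hab
    refine (key n b).trans (mul_le_mul_of_nonneg_left ?_ γ0)
    exact_mod_cast (by omega : (n : ℤ) ≤ R)
  · obtain ⟨n, rfl⟩ := Int.le.dest hab
    rw [abs_sub_comm]
    refine (key n a).trans (mul_le_mul_of_nonneg_left ?_ γ0)
    exact_mod_cast (by omega : (n : ℤ) ≤ R)

theorem Cut_lip2 (g : Site → ℝ) (γ : ℝ) (hg : ∀ μ x, |gd g μ x| ≤ γ) (c x : Site) (R : ℤ)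
    (hx : x ∈ bal c R) : |g x - g c| ≤ 2 * (γ * R) := by
  rw [mem_bal] at hx
  have h1 := Cut_lip (fun t => g (t, x.2)) γ
    (fun t => by simpa [gd, ee0] using hg 0 (t, x.2)) x.1 c.1 R hx.1 hx.2.1
  have h2 := Cut_lip (fun t => g (c.1, t)) γ
    (fun t => by simpa [gd, ee1] using hg 1 (c.1, t)) x.2 c.2 R hx.2.2.1 hx.2.2.2
  have := abs_sub_le (g x) (g (c.1, x.2)) (g c)
  simp only [Prod.mk.eta] at h1 h2
  linarith

/-- localization of a Lipschitz function near a cell -/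
theorem hcut (L : ℤ) (hL : 1 ≤ L) (U : Site) (g : Site → ℝ) (γ : ℝ)
    (hg : ∀ μ x, |gd g μ x| ≤ γ) : ∃ (k : Site → ℝ) (c0 : ℝ),
    (∀ x, k x ≠ 0 → x ∈ bal (cor L U) (2 * L)) ∧ (∀ x ∈ cls L U, g x - k x = c0) ∧
    nv (bal (cor L U) (2 * L + 1)) (gd k) ≤ 70 * γ * (L : ℝ) := by
  obtain ⟨χ, h1, h2, h3, h4⟩ := ramp (cor L U) L L hL
  have γ0 : 0 ≤ γ := (abs_nonneg _).trans (hg 0 0)
  have L1 : (1 : ℝ) ≤ L := by exact_mod_cast hL
  refine ⟨fun x => (g x - g (cor L U)) * χ x, g (cor L U), fun x hx => ?_, fun x hx => ?_, ?_⟩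
  · rw [two_mul]
    exact h3 x (right_ne_zero_of_mul hx)
  · simp only [h2 x (cls_sub_bal (cel_sub_cls (cor_mem_cel (by omega) U)) hx)]
    ring
  · refine nv_le (by positivity) ((nq_le_card (γ := 7 * γ) fun x hx μ => ?_).trans ?_)
    · have e : gd (fun x => (g x - g (cor L U)) * χ x) μ x
          = χ (x + ee μ) * gd g μ x + (g x - g (cor L U)) * gd χ μ x := by
        simp only [gd]
        ring
      have b1 : |χ (x + ee μ) * gd g μ x| ≤ 1 * γ := by
        rw [abs_mul, abs_of_nonneg (h1 _).1]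
        exact mul_le_mul (h1 _).2 (hg μ x) (abs_nonneg _) zero_le_one
      have b2 : |g x - g (cor L U)| ≤ 6 * γ * L := by
        refine (Cut_lip2 g γ hg _ x _ hx).trans ?_
        push_cast
        nlinarith
      have b3 : |(g x - g (cor L U)) * gd χ μ x| ≤ 6 * γ * L * (1 / L) := by
        rw [abs_mul]
        exact mul_le_mul b2 (h4 μ x) (abs_nonneg _) (by positivity)
      have e2 : 6 * γ * L * (1 / (L : ℝ)) = 6 * γ := by field_simp
      rw [e]
      linarith [abs_add_le (χ (x + ee μ) * gd g μ x) ((g x - g (cor L U)) * gd χ μ x)]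
    · rw [card_bal _ (by omega)]
      push_cast
      have : (2 * (2 * (L : ℝ) + 1) + 1) ^ 2 ≤ 49 * L ^ 2 := by nlinarith
      nlinarith [mul_le_mul_of_nonneg_right this (sq_nonneg γ), sq_nonneg (γ * L)]

theorem Cut_card (L w : ℤ) (hL : 1 ≤ L) (hw : 1 ≤ w) (p q : ℤ) (S : Finset Site)
    (hS : ∀ x ∈ S, (p ≤ x.1 ∧ x.1 < p + L ∧ q ≤ x.2 ∧ x.2 < q + L) ∧
      min (min (x.1 - p) (p + L - x.1)) (min (x.2 - q) (q + L - x.2)) ≤ 2 * w) :
    (S.card : ℝ) ≤ 12 * (L : ℝ) * w := by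
  have hsub : S ⊆ (Finset.Icc p (p + 2 * w) ∪ Finset.Icc (p + L - 2 * w) (p + L)) ×ˢ
      Finset.Ico q (q + L) ∪ Finset.Ico p (p + L) ×ˢ
        (Finset.Icc q (q + 2 * w) ∪ Finset.Icc (q + L - 2 * w) (q + L)) := by
    intro x hx
    have := hS x hx
    simp only [Finset.mem_union, Finset.mem_product, Finset.mem_Icc, Finset.mem_Ico]
    omega
  have c1 : ∀ a : ℤ, ((Finset.Icc a (a + 2 * w) ∪ Finset.Icc (a + L - 2 * w) (a + L)).card : ℤ)
      ≤ 6 * w := fun a => by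
    have := Finset.card_union_le (Finset.Icc a (a + 2 * w)) (Finset.Icc (a + L - 2 * w) (a + L))
    rw [Int.card_Icc, Int.card_Icc] at this
    omega
  have c2 : ∀ a : ℤ, ((Finset.Ico a (a + L)).card : ℤ) = L := fun a => by
    rw [Int.card_Ico]
    omega
  have h := (Finset.card_le_card hsub).trans (Finset.card_union_le _ _)
  rw [Finset.card_product, Finset.card_product] at h
  have h' : (S.card : ℤ) ≤ 12 * L * w := by
    have h'' := (Int.ofNat_le.2 h)
    push_cast at h''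
    rw [c2, c2] at h''
    nlinarith [c1 p, c1 q]
  exact_mod_cast h'

/-- cutoff of a cell near its boundary -/
theorem fcut (L w : ℤ) (hL : 1 ≤ L) (hw : 1 ≤ w) (U : Site) : ∃ f : Site → ℝ,
    (∀ x, 0 ≤ f x ∧ f x ≤ 1) ∧ (∀ x, f x ≠ 0 → x ∈ opn L U) ∧
    (∀ μ x, gd f μ x ≠ 0 → bal x (w - 1) ⊆ opn L U) ∧
    nq (cel L U) (gd f) ≤ 24 * (L : ℝ) / w ∧
    ∑ x ∈ cel L U, (1 - f x) ^ 2 ≤ 12 * (L : ℝ) * w := by
  classical
  obtain ⟨f, h1, h2, h3, h4, h5⟩ := Cut_clamp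
    (fun x => min (min (x.1 - L * U.1) (L * U.1 + L - x.1))
      (min (x.2 - L * U.2) (L * U.2 + L - x.2)) - w) w hw
    (fun μ x => by
      have := ee_cases μ
      simp only [Prod.fst_add, Prod.snd_add]
      omega)
  have w0 : (0 : ℝ) < w := by exact_mod_cast (by omega : 0 < w)
  set S := (cel L U).filter fun x => min (min (x.1 - L * U.1) (L * U.1 + L - x.1))
      (min (x.2 - L * U.2) (L * U.2 + L - x.2)) ≤ 2 * w with hS
  have hc : (S.card : ℝ) ≤ 12 * (L : ℝ) * w := Cut_card L w hL hw _ _ S fun x hx => by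
    rw [hS, Finset.mem_filter, mem_cel] at hx
    exact hx
  refine ⟨f, h1, fun x hx => ?_, fun μ x hx y hy => ?_, ?_, ?_⟩
  · have := h3 x hx
    rw [mem_opn]
    omega
  · have := h5 μ x hx
    rw [mem_bal] at hy
    rw [mem_opn]
    omega
  · have e : nq (cel L U) (gd f) = nq S (gd f) := by
      refine (Finset.sum_filter_of_ne fun x _ hx => ?_).symm
      obtain ⟨μ, -, hμ⟩ := Finset.exists_ne_zero_of_sum_ne_zero hx
      have := h5 μ x (fun h => hμ (by simp [h]))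
      omega
    rw [e]
    refine (nq_le_card fun x _ μ => h4 μ x).trans ?_
    calc 2 * (S.card : ℝ) * (1 / w) ^ 2 ≤ 2 * (12 * (L : ℝ) * w) * (1 / w) ^ 2 := by gcongr
      _ = 24 * (L : ℝ) / w := by
        field_simp
        ring
  · have e : ∑ x ∈ cel L U, (1 - f x) ^ 2 = ∑ x ∈ S, (1 - f x) ^ 2 := by
      refine (Finset.sum_filter_of_ne fun x _ hx => ?_).symm
      by_contra hc
      exact hx (by rw [h2 x (by omega)]; simp)
    rw [e]
    refine le_trans ?_ hc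
    have := Finset.sum_le_card_nsmul S (fun x => (1 - f x) ^ 2) 1 fun x _ => by
      nlinarith [(h1 x).1, (h1 x).2]
    simpa using this

end Vale.Agent.P163N
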