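import Vale.Agent.P163N.Stiff

open MeasureTheory Vale.Agent.P163

namespace Vale.Agent.P163N

/-- block spin -/
noncomputable def dec_bs (i : Fin 3) (S : Finset Site) (f : Site → ℝ) : CA := ∑ x ∈ S, f x • sx i x

theorem dec_mul (i j : Fin 3) (S T : Finset Site) (f g : Site → ℝ) :
    dec_bs i S f * dec_bs j T g = ∑ x ∈ S, ∑ y ∈ T, (f x * g y) • (sx i x * sx j y) := by
  simp only [dec_bs, Finset.sum_mul_sum, smul_mul_smul_comm]

theorem dec_QQ (E : CA →ₗ[ℝ] ℝ) (S T : Finset Site) (f g : Site → ℝ) :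
    E (dec_bs 0 S f * dec_bs 0 T g) = QQ (GG E) S f T g := by
  simp only [dec_mul, map_sum, map_smul, smul_eq_mul, QQ, GG]

theorem dec_dep (i : Fin 3) {S : Finset Site} {U : Set Site} (f : Site → ℝ) (h : ∀ x ∈ S, x ∈ U) :
    Dep U (dec_bs i S f) := dep_sum fun x hx => (dep_sx i (h x hx)).smul _

theorem dec_n2 {b : ℝ} {Ω : Set Site} {J : Fin 2 → Site → ℝ} {E : CA →ₗ[ℝ] ℝ}
    {P : Finset Site → CA →ₗ[ℝ] CA} (h : Sys b Ω J E P) (S T : Finset Site) {f g : Site → ℝ}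
    (hf : ∀ x, 0 ≤ f x) (hg : ∀ x, 0 ≤ g x) : n2 E (dec_bs 2 S f * dec_bs 0 T g) ≤
      Real.sqrt (QQ (GG E) S f S f) * Real.sqrt (QQ (GG E) T g T g) := by
  have h0 : 0 ≤ QQ (GG E) S f S f := Finset.sum_nonneg fun x _ => Finset.sum_nonneg fun y _ =>
    mul_nonneg (mul_nonneg (hf x) (hf y)) (h.g2 x y)
  rw [← Real.sqrt_mul h0]
  refine Real.sqrt_le_sqrt ?_
  have e : (dec_bs 2 S f * dec_bs 0 T g) ^ 2 =
      (dec_bs 0 T g * dec_bs 0 T g) * (dec_bs 2 S f * dec_bs 2 S f) := by ring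
  rw [e, dec_mul, dec_mul, mul_comm (QQ _ _ _ _ _)]
  simp only [QQ, Finset.sum_mul, Finset.mul_sum, map_sum, smul_mul_smul_comm, map_smul,
    smul_eq_mul]
  refine Finset.sum_le_sum fun x _ => Finset.sum_le_sum fun x' _ =>
    Finset.sum_le_sum fun y _ => Finset.sum_le_sum fun y' _ => ?_
  have h1 := mul_le_mul_of_nonneg_left (h.neg y y' x x')
    (mul_nonneg (mul_nonneg (hg y) (hg y')) (mul_nonneg (hf x) (hf x')))
  rw [h.sym] at h1
  refine h1.trans_eq ?_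
  simp only [GG]
  ring

/-- decoupling of block spins -/
theorem dec (b δ : ℝ) (hδ : 0 < δ) : ∃ l0 : ℤ, 1 ≤ l0 ∧ ∀ (Ω : Set Site) (J : Fin 2 → Site → ℝ)
    (E : CA →ₗ[ℝ] ℝ) (P : Finset Site → CA →ₗ[ℝ] CA), Sys b Ω J E P →
    ∀ l, l0 ≤ l → Dc Ω (GG E) δ l := by
  obtain ⟨R, hR, H⟩ := stiff b (δ / 3) (by positivity)
  refine ⟨R + 1, by omega, fun Ω J E P h l hl c S T f g hΩ hS hT hf hg => ?_⟩
  obtain ⟨χ, -, c1, c2, c3⟩ := ramp c (2 * l) l (by omega)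
  have c2' : ∀ x, χ x ≠ 0 → x ∈ bal c (3 * l) := fun x hx => bal_mono c (by omega) (c2 x hx)
  obtain ⟨A, hA, hn⟩ := H Ω J E P h χ (1 / l) c (3 * l) (bal c (4 * l) \ bal c l) (by omega)
    (fun x hx => hΩ (bal_mono c (by omega) hx))
    (fun x hx => hΩ (bal_mono c (by omega) (Finset.mem_sdiff.1 hx).1)) c2' c3
    (fun μ x hx y hy => by
      have h1 := gd_mem_bal c2' μ x hx
      have h2 : ¬ (x ∈ bal c (2 * l) ∧ x + ee μ ∈ bal c (2 * l)) := fun h =>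
        hx (by rw [gd, c1 _ h.1, c1 _ h.2, sub_self])
      have := ee_cases μ
      simp only [Finset.mem_sdiff, mem_bal, Prod.fst_add, Prod.snd_add] at *
      omega)
  have hl0 : (0 : ℝ) < l := by exact_mod_cast (by omega : 0 < l)
  have e0 : δ / 3 * (1 / l) * ((3 * l : ℤ) : ℝ) = δ := by
    push_cast
    field_simp
  rw [e0] at hn
  have g1 : Gen 0 2 χ (dec_bs 2 S f) (dec_bs 0 S f) :=
    (gen_sum fun x _ => (gen_sx_j (by decide) χ x).smul (f x)).congr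
      (Finset.sum_congr rfl fun x hx => by
        rw [c1 x (bal_mono c (by omega) (hS hx)), one_smul])
  have g2 : Gen 0 2 χ (dec_bs 0 T g) 0 :=
    gen_zero (dec_dep 0 (U := T) g fun _ hx => hx) fun x hx => by_contra fun e =>
      Finset.disjoint_left.1 hT hx (bal_mono c (by omega) (c2' x e))
  have hw := h.ward 0 2 χ (bal c (3 * l + 1)) _ _
    (fun x hx => hΩ (bal_mono c (by omega) (c2' x hx))) (gd_mem_bal c2') (g1.mul g2)
  have hd : Dep (A : Set Site)ᶜ (dec_bs 2 S f * dec_bs 0 T g) :=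
    (dec_dep 2 f fun x hx hx' => (Finset.mem_sdiff.1 (hA hx')).2 (hS hx)).mul
      (dec_dep 0 g fun x hx hx' => Finset.disjoint_left.1 hT hx (Finset.mem_sdiff.1 (hA hx')).1)
  rw [mul_zero, add_zero, dec_QQ, ← h.E_P hd] at hw
  rw [hw, mul_comm δ]
  exact (le_abs_self _).trans ((h.cs _ _).trans (mul_le_mul (dec_n2 h S T hf hg) hn
    (n2_nonneg _ _) (mul_nonneg (Real.sqrt_nonneg _) (Real.sqrt_nonneg _))))

end Vale.Agent.P163N
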