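import Vale.Agent.P163.WardF
import Vale.Agent.P163.Mod

open MeasureTheory Vale.Agent.P163

namespace Vale.Agent.P163N

/-! ### Observables -/

abbrev XX := Site → S4

/-- the algebra of continuous observables -/
abbrev CA := C(XX, ℝ)

/-- spin component -/
def sx (i : Fin 3) (x : Site) : CA :=
  ⟨fun σ => (σ x).1 i.castSucc,
    (continuous_apply _).comp (continuous_subtype_val.comp (continuous_apply x))⟩

/-- current of the plane `i, j` on the bond from `x` to `x + ee μ`, coupling included -/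
noncomputable def cu (J : Fin 2 → Site → ℝ) (i j : Fin 3) (μ : Fin 2) (x : Site) : CA :=
  J μ x • (sx i x * sx j (x + ee μ) - sx j x * sx i (x + ee μ))

/-- smeared current, bonds with base point in `S` -/
noncomputable def jc (J : Fin 2 → Site → ℝ) (i j : Fin 3) (S : Finset Site)
    (V : Fin 2 → Site → ℝ) : CA := ∑ x ∈ S, ∑ μ, V μ x • cu J i j μ x

/-- the contact term -/
noncomputable def ep (J : Fin 2 → Site → ℝ) (a : Fin 3) (S : Finset Site)
    (V : Fin 2 → Site → ℝ) : CA := ∑ x ∈ S, ∑ μ, (V μ x * J μ x) • (sx 2 x * sx a (x + ee μ))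

/-- squared norm of a bond function on the bonds with base point in `S` -/
def nq (S : Finset Site) (V : Fin 2 → Site → ℝ) : ℝ := ∑ x ∈ S, ∑ μ, V μ x ^ 2

/-- norm of a bond function -/
noncomputable def nv (S : Finset Site) (V : Fin 2 → Site → ℝ) : ℝ := Real.sqrt (nq S V)

/-- lattice gradient -/
def gd (φ : Site → ℝ) (μ : Fin 2) (x : Site) : ℝ := φ (x + ee μ) - φ x

/-- `F` only depends on the spins in `S` -/
def Dep (S : Set Site) (F : CA) : Prop := ∀ σ τ : XX, (∀ x ∈ S, σ x = τ x) → F σ = F τ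

/-- rotation of the plane `i, j` by the angle `t * φ x` at the site `x` -/
noncomputable def ro (i j : Fin 3) (φ : Site → ℝ) (t : ℝ) (σ : XX) : XX :=
  fun x => sph (WardF_R i j (t * φ x)) (WardF_R_norm i j _) (σ x)

theorem continuous_ro (i j : Fin 3) (φ : Site → ℝ) (t : ℝ) : Continuous (ro i j φ t) :=
  continuous_pi fun x => Continuous.subtype_mk
    ((WardF_R i j (t * φ x)).continuous_of_finiteDimensional.comp
      (continuous_subtype_val.comp (continuous_apply x))) _

/-- global rotation acting on observables -/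
noncomputable def gr (i j : Fin 3) (t : ℝ) : CA →ₐ[ℝ] CA :=
  ContinuousMap.compRightAlgHom ℝ ℝ ⟨ro i j (fun _ => 1) t, continuous_ro i j _ t⟩

theorem gr_apply (i j : Fin 3) (t : ℝ) (F : CA) (σ : XX) :
    gr i j t F σ = F (ro i j (fun _ => 1) t σ) := rfl

/-- `F'` is the derivative of `F` along the local rotation with profile `φ` -/
def Gen (i j : Fin 3) (φ : Site → ℝ) (F F' : CA) : Prop :=
  ∀ σ, HasDerivAt (fun t => F (ro i j φ t σ)) (F' σ) 0

/-- lattice neighbours of a set -/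
def nbr (A : Finset Site) : Set Site := {y | ∃ x ∈ A, ∃ μ, y = x + ee μ ∨ x = y + ee μ}

/-- An O(3) ferromagnet seen through its expectation `E` and its conditional expectations `P A`
(the spins in `A` are integrated out); in `Ω` the interaction is nearest neighbour. -/
structure Sys (b : ℝ) (Ω : Set Site) (J : Fin 2 → Site → ℝ) (E : CA →ₗ[ℝ] ℝ)
    (P : Finset Site → CA →ₗ[ℝ] CA) : Prop where
  b1 : 1 ≤ b
  J0 : ∀ μ x, 0 ≤ J μ x
  J1 : ∀ μ x, J μ x ≤ b
  one : E 1 = 1
  pos : ∀ F : CA, (∀ σ, 0 ≤ F σ) → 0 ≤ E F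
  Pone : ∀ A, P A 1 = 1
  Ppos : ∀ A (F : CA), (∀ σ, 0 ≤ F σ) → ∀ σ, 0 ≤ P A F σ
  Pmul : ∀ (A : Finset Site) F G, Dep (A : Set Site)ᶜ G → P A (G * F) = G * P A F
  EP : ∀ A F, E (P A F) = E F
  tower : ∀ A B F, A ⊆ B → P B (P A F) = P B F
  loc : ∀ (A : Finset Site) (S : Set Site) F, (A : Set Site) ⊆ Ω → Dep S F →
    Dep ((S ∪ nbr A) \ A) (P A F)
  equi : ∀ A i j t F, P A (gr i j t F) = gr i j t (P A F)
  ward : ∀ i j (φ : Site → ℝ) (T : Finset Site) F F', (∀ x, φ x ≠ 0 → x ∈ Ω) →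
    (∀ μ x, gd φ μ x ≠ 0 → x ∈ T) → Gen i j φ F F' → E F' = E (F * jc J i j T (gd φ))
  mom : ∀ i j, i < j → ∀ S V, E (jc J i j S V ^ 4) ≤ b * nq S V ^ 2
  g2 : ∀ x y, 0 ≤ E (sx 0 x * sx 0 y)
  sym : ∀ x y, E (sx 2 x * sx 2 y) = E (sx 0 x * sx 0 y)
  grif : ∀ x y z w, 0 ≤ E (sx 0 x * sx 0 y * (sx 2 z * sx 2 w))
  neg : ∀ x y z w, E (sx 0 x * sx 0 y * (sx 2 z * sx 2 w)) ≤
    E (sx 0 x * sx 0 y) * E (sx 2 z * sx 2 w)

/-- second moment norm -/
noncomputable def n2 (E : CA →ₗ[ℝ] ℝ) (F : CA) : ℝ := Real.sqrt (E (F ^ 2))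

/-- fourth moment norm -/
noncomputable def n4 (E : CA →ₗ[ℝ] ℝ) (F : CA) : ℝ := Real.sqrt (Real.sqrt (E (F ^ 4)))

/-! ### Geometry -/

/-- sup norm ball -/
noncomputable def bal (c : Site) (r : ℤ) : Finset Site :=
  Finset.Icc (c.1 - r) (c.1 + r) ×ˢ Finset.Icc (c.2 - r) (c.2 + r)

/-- half open cell of side `l` with index `U` -/
noncomputable def cel (l : ℤ) (U : Site) : Finset Site :=
  Finset.Ico (l * U.1) (l * U.1 + l) ×ˢ Finset.Ico (l * U.2) (l * U.2 + l)

/-- open cell -/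
noncomputable def opn (l : ℤ) (U : Site) : Finset Site :=
  Finset.Ioo (l * U.1) (l * U.1 + l) ×ˢ Finset.Ioo (l * U.2) (l * U.2 + l)

/-- closed cell -/
noncomputable def cls (l : ℤ) (U : Site) : Finset Site :=
  Finset.Icc (l * U.1) (l * U.1 + l) ×ˢ Finset.Icc (l * U.2) (l * U.2 + l)

/-- the part of `B` off the grid of mesh `l` -/
def off (l : ℤ) (B : Finset Site) : Finset Site := B.filter fun x => ¬ l ∣ x.1 ∧ ¬ l ∣ x.2

/-- corner of a cell -/
def cor (l : ℤ) (U : Site) : Site := (l * U.1, l * U.2)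

/-- index of the cell of a site -/
def idx (l : ℤ) (x : Site) : Site := (x.1 / l, x.2 / l)

/-! ### The objects of the stiffness estimate -/

/-- conditional covariance -/
noncomputable def ccv (Q : CA →ₗ[ℝ] CA) (X Y : CA) : CA := Q (X * Y) - Q X * Q Y

/-- the diagonal term of a small cell -/
noncomputable def DD (J : Fin 2 → Site → ℝ) (Q : CA →ₗ[ℝ] CA) (S : Finset Site) (f : Site → ℝ)
    (W : Fin 2 → Site → ℝ) : CA :=
  ccv Q (jc J 0 1 S (gd f)) (jc J 1 2 S W) + ep J 0 S fun μ x => W μ x * gd f μ x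

/-- conditional expectation of the cut off current of a large cell -/
noncomputable def ZZ (J : Fin 2 → Site → ℝ) (P : Finset Site → CA →ₗ[ℝ] CA) (L : ℤ)
    (B : Finset Site) (U : Site) (f : Site → ℝ) (W : Fin 2 → Site → ℝ) : CA :=
  P (off L B) (jc J 0 2 (cel L U) fun μ x => f x * W μ x)

/-- martingale increment of a large cell -/
noncomputable def DL (J : Fin 2 → Site → ℝ) (P : Finset Site → CA →ₗ[ℝ] CA) (l L : ℤ)
    (B : Finset Site) (U : Site) (W : Fin 2 → Site → ℝ) : CA :=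
  P (off l B) (jc J 1 2 (cel L U) W) - P (off L B) (jc J 1 2 (cel L U) W)

/-! ### Kernels -/

/-- bilinear form of a kernel -/
def QQ (G : Site → Site → ℝ) (S : Finset Site) (f : Site → ℝ) (T : Finset Site) (g : Site → ℝ) :
    ℝ := ∑ x ∈ S, ∑ y ∈ T, f x * g y * G x y

structure Ker (G : Site → Site → ℝ) : Prop where
  nn : ∀ x y, 0 ≤ G x y
  le1 : ∀ x y, G x y ≤ 1
  cs : ∀ S f T g, QQ G S f T g ≤ Real.sqrt (QQ G S f S f) * Real.sqrt (QQ G T g T g)

/-- decoupling at scale `l` -/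
def Dc (Ω : Set Site) (G : Site → Site → ℝ) (δ : ℝ) (l : ℤ) : Prop :=
  ∀ (c : Site) (S T : Finset Site) (f g : Site → ℝ), (bal c (15 * l) : Set Site) ⊆ Ω →
    S ⊆ bal c l → Disjoint T (bal c (4 * l)) → (∀ x, 0 ≤ f x) → (∀ x, 0 ≤ g x) →
    QQ G S f T g ≤ δ * (Real.sqrt (QQ G S f S f) * Real.sqrt (QQ G T g T g))

/-- operator bound at scale `l` -/
def Op (Ω : Set Site) (G : Site → Site → ℝ) (lam : ℝ) (l : ℤ) : Prop :=
  ∀ (c : Site) (S : Finset Site) (f : Site → ℝ), (bal c (20 * l) : Set Site) ⊆ Ω →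
    S ⊆ bal c l → (∀ x, 0 ≤ f x) → QQ G S f S f ≤ lam * ∑ x ∈ S, f x ^ 2

/-- the Aizenman Simon inequality -/
def ASI (Ω : Set Site) (G : Site → Site → ℝ) (b : ℝ) : Prop :=
  ∀ (x z : Site) (r : ℤ), 0 ≤ r → (bal x r : Set Site) ⊆ Ω → z ∉ bal x r →
    G x z ≤ b * ∑ u ∈ bal x r \ bal x (r - 1), G x u * ∑ μ, (G (u + ee μ) z + G (u - ee μ) z)

/-- two point function -/
noncomputable def GG (E : CA →ₗ[ℝ] ℝ) (x y : Site) : ℝ := E (sx 0 x * sx 0 y)

/-- Euclidean distance -/
noncomputable def ed (x y : Site) : ℝ := Real.sqrt (((x.1 : ℝ) - y.1) ^ 2 + ((x.2 : ℝ) - y.2) ^ 2)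

/-! ### The model -/

/-- ferromagnetic couplings that are nearest neighbour and bounded in `Ω` -/
structure Nice (β : ℝ) (Ω : Set Site) (Λ : Finset Site) (K : Site → Site → ℝ) : Prop where
  nn : ∀ x y, 0 ≤ K x y
  nb : ∀ x ∈ Ω, ∀ y, symK Λ K x y ≠ 0 → ∃ μ, y = x + ee μ ∨ x = y + ee μ
  le : ∀ x ∈ Ω, ∀ y, symK Λ K x y ≤ β

open Classical in
/-- bond couplings -/
noncomputable def JJ (Ω : Set Site) (Λ : Finset Site) (K : Site → Site → ℝ) (μ : Fin 2)
    (x : Site) : ℝ := if x ∈ Ω ∨ x + ee μ ∈ Ω then symK Λ K x (x + ee μ) else 0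

/-- the constant of the system -/
noncomputable def cb (β : ℝ) : ℝ := 48 * Real.exp β + β + 1

/-- the product measure -/
noncomputable abbrev pm (om : Measure S4) : Measure XX := Measure.infinitePi fun _ : Site => om

theorem ca_int (μ : Measure XX) [IsFiniteMeasure μ] {f : XX → ℝ} (hf : Continuous f) :
    Integrable f μ :=
  hf.integrable_of_hasCompactSupport (HasCompactSupport.of_compactSpace f)

theorem continuous_pw (A : Finset Site) :
    Continuous fun p : XX × XX => A.piecewise p.1 p.2 := by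
  refine continuous_pi fun x => ?_
  by_cases hx : x ∈ A
  · simp only [Finset.piecewise_eq_of_mem _ _ _ hx]
    fun_prop
  · simp only [Finset.piecewise_eq_of_notMem _ _ _ hx]
    fun_prop

theorem continuous_pw1 (A : Finset Site) (F : CA) (σ : XX) :
    Continuous fun τ : XX => F (A.piecewise τ σ) :=
  F.continuous.comp ((continuous_pw A).comp (continuous_id.prodMk continuous_const))

variable (om : Measure S4) [IsProbabilityMeasure om]

/-- integral against the product measure -/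
noncomputable def II : CA →ₗ[ℝ] ℝ where
  toFun F := ∫ σ, F σ ∂pm om
  map_add' F G := integral_add (ca_int _ F.continuous) (ca_int _ G.continuous)
  map_smul' c F := integral_const_mul c F

theorem II_apply (F : CA) : II om F = ∫ σ, F σ ∂pm om := rfl

/-- integration of the spins in `A` against the product measure -/
noncomputable def av (A : Finset Site) : CA →ₗ[ℝ] CA where
  toFun F := ⟨fun σ => ∫ τ, F (A.piecewise τ σ) ∂pm om,
    continuous_of_dominated (bound := fun _ => ‖F‖)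
      (fun σ => (continuous_pw1 A F σ).aestronglyMeasurable)
      (fun _ => ae_of_all _ fun _ => F.norm_coe_le_norm _) (integrable_const _)
      (ae_of_all _ fun _ => F.continuous.comp
        ((continuous_pw A).comp (continuous_const.prodMk continuous_id)))⟩
  map_add' F G := ContinuousMap.ext fun σ =>
    integral_add (ca_int _ (continuous_pw1 A F σ)) (ca_int _ (continuous_pw1 A G σ))
  map_smul' c F := ContinuousMap.ext fun σ => integral_const_mul c fun τ => F (A.piecewise τ σ)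

theorem av_apply (A : Finset Site) (F : CA) (σ : XX) :
    av om A F σ = ∫ τ, F (A.piecewise τ σ) ∂pm om := rfl

/-- Boltzmann weight -/
noncomputable def wt (Λ : Finset Site) (K : Site → Site → ℝ) : CA :=
  ⟨fun σ => Real.exp (ham Λ K σ), Real.continuous_exp.comp (WardF_cont_ham Λ K)⟩

theorem wt_apply (Λ : Finset Site) (K : Site → Site → ℝ) (σ : XX) :
    wt Λ K σ = Real.exp (ham Λ K σ) := rfl

theorem II_wt_pos (Λ : Finset Site) (K : Site → Site → ℝ) : 0 < II om (wt Λ K) :=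
  integral_exp_pos (ca_int _ (wt Λ K).continuous)

theorem av_wt_pos (Λ : Finset Site) (K : Site → Site → ℝ) (A : Finset Site) (σ : XX) :
    0 < av om A (wt Λ K) σ :=
  integral_exp_pos (ca_int _ (continuous_pw1 A (wt Λ K) σ))

/-- inverse of the conditional partition function -/
noncomputable def iz (Λ : Finset Site) (K : Site → Site → ℝ) (A : Finset Site) : CA :=
  ⟨fun σ => (av om A (wt Λ K) σ)⁻¹,
    (av om A (wt Λ K)).continuous.inv₀ fun σ => (av_wt_pos om Λ K A σ).ne'⟩

theorem iz_apply (Λ : Finset Site) (K : Site → Site → ℝ) (A : Finset Site) (σ : XX) :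
    iz om Λ K A σ = (av om A (wt Λ K) σ)⁻¹ := rfl

/-- Gibbs expectation, free boundary condition -/
noncomputable def EE (Λ : Finset Site) (K : Site → Site → ℝ) : CA →ₗ[ℝ] ℝ :=
  (II om (wt Λ K))⁻¹ • (II om ∘ₗ LinearMap.mulRight ℝ (wt Λ K))

theorem EE_apply (Λ : Finset Site) (K : Site → Site → ℝ) (F : CA) :
    EE om Λ K F = (II om (wt Λ K))⁻¹ * II om (F * wt Λ K) := rfl

/-- conditional Gibbs expectation given the spins outside `A` -/
noncomputable def PP (Λ : Finset Site) (K : Site → Site → ℝ) (A : Finset Site) : CA →ₗ[ℝ] CA :=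
  LinearMap.mulRight ℝ (iz om Λ K A) ∘ₗ av om A ∘ₗ LinearMap.mulRight ℝ (wt Λ K)

theorem PP_apply (Λ : Finset Site) (K : Site → Site → ℝ) (A : Finset Site) (F : CA) :
    PP om Λ K A F = av om A (F * wt Λ K) * iz om Λ K A := rfl

/-- the single site measure of the Heisenberg model -/
noncomputable def om3 : Measure S4 := (unif 3).map (emb 3 (by norm_num))

instance : IsProbabilityMeasure om3 := by
  have := unif_prob 3 (by norm_num)
  exact Measure.isProbabilityMeasure_map (continuous_emb 3 (by norm_num)).measurable.aemeasurable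

/-- length of the first three components -/
noncomputable def rad {n : ℕ} (s : Spin n) : ℝ :=
  Real.sqrt (∑ i : Fin n, if (i : ℕ) < 3 then s.1 i ^ 2 else 0)

/-- the direction of the first three components is replaced by `u` -/
noncomputable def mixv {n : ℕ} (s : Spin n) (u : Spin 3) : EuclideanSpace ℝ (Fin n) :=
  WithLp.toLp 2 fun i => if h : (i : ℕ) < 3 then rad s * u.1 ⟨i, h⟩ else s.1 i

theorem sum_lt3 {n : ℕ} (hn : 3 ≤ n) (f : Fin 3 → ℝ) :
    ∑ i : Fin n, (if h : (i : ℕ) < 3 then f ⟨i, h⟩ else 0) = ∑ k, f k := by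
  symm
  refine Finset.sum_of_injOn (Fin.castLE hn) (Fin.castLE_injective hn).injOn (by simp) ?_ ?_
  · intro j _ hj
    have : ¬ (j : ℕ) < 3 := fun h => hj ⟨⟨j, h⟩, by simp, by ext; simp⟩
    simp [this]
  · intro k _
    simp

theorem mixv_norm {n : ℕ} (hn : 3 ≤ n) (s : Spin n) (u : Spin 3) : ‖mixv s u‖ = 1 := by
  have hs : ∑ i, s.1 i ^ 2 = 1 := by
    have h2 := EuclideanSpace.real_norm_sq_eq s.1
    rw [norm_eq_of_mem_sphere] at h2; linarith
  have hu : ∑ i, u.1 i ^ 2 = 1 := by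
    have h2 := EuclideanSpace.real_norm_sq_eq u.1
    rw [norm_eq_of_mem_sphere] at h2; linarith
  have hr : rad s ^ 2 = ∑ i : Fin n, if (i : ℕ) < 3 then s.1 i ^ 2 else 0 :=
    Real.sq_sqrt (Finset.sum_nonneg fun i _ => by split_ifs <;> positivity)
  have h1 : ‖mixv s u‖ ^ 2 = 1 := by
    rw [EuclideanSpace.real_norm_sq_eq]
    have e : ∀ i : Fin n, mixv s u i ^ 2 =
        (if h : (i : ℕ) < 3 then (fun k => rad s ^ 2 * u.1 k ^ 2) ⟨i, h⟩ else 0) +
          (s.1 i ^ 2 - if (i : ℕ) < 3 then s.1 i ^ 2 else 0) := by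
      intro i
      by_cases h : (i : ℕ) < 3 <;> simp [mixv, h, mul_pow]
    simp only [e]
    rw [Finset.sum_add_distrib, sum_lt3 hn fun k => rad s ^ 2 * u.1 k ^ 2, ← Finset.mul_sum, hu,
      Finset.sum_sub_distrib, hs, ← hr]
    ring
  exact (pow_eq_one_iff_of_nonneg (norm_nonneg _) two_ne_zero).1 h1

/-- the resampled spin -/
noncomputable def mix {n : ℕ} (hn : 3 ≤ n) (s : Spin n) (u : Spin 3) : Spin n :=
  ⟨mixv s u, by simpa using mixv_norm hn s u⟩

end Vale.Agent.P163N
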