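import Vale.Agent.P163N.Estep

open MeasureTheory Vale.Agent.P163

namespace Vale.Agent.P163N

theorem Edec_iter {Ω : Set Site} {G : Site → Site → ℝ} (h : Ker G) {b lam : ℝ} (hb : 0 ≤ b)
    (hlam : 0 ≤ lam) {l : ℤ} (hl : 1 ≤ l) (hs : 24 * b * lam ≤ l) (h1 : ASI Ω G b)
    (h2 : Op Ω G lam (2 * l)) (z : Site) (k : ℕ) : ∀ c : Site,
    (bal c ((2 * l + 1) * k + 40 * l) : Set Site) ⊆ Ω → z ∉ bal c ((2 * l + 1) * k) →
      ∑ x ∈ bal c l, G x z ^ 2 ≤ (2 * l + 1) ^ 2 / 4 ^ k := by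
  induction k with
  | zero =>
    intro c _ _
    rw [pow_zero, div_one, ← card_bal c (by omega : 0 ≤ l)]
    simpa using Finset.sum_le_card_nsmul (bal c l) (fun x => G x z ^ 2) 1 fun x _ =>
      pow_le_one₀ (h.nn x z) (h.le1 x z)
  | succ k ih =>
    intro c hc hz
    have e : (2 * l + 1) * ((k + 1 : ℕ) : ℤ) = 2 * l + 1 + (2 * l + 1) * k := by push_cast; ring
    have h0 : 0 ≤ (2 * l + 1) * (k : ℤ) := by positivity
    rw [e] at hc hz
    rw [pow_succ (4 : ℝ), ← div_div]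
    refine exp_step h hb hlam hl hs h1 h2 c z
      (subset_trans (Finset.coe_subset.2 (bal_mono c (by omega))) hc)
      (fun h3 => hz (bal_mono c (by omega) h3)) _ fun c' hc' => ih c' ?_ fun h3 => ?_
    · refine subset_trans (Finset.coe_subset.2 ?_) hc
      rw [add_assoc]
      exact bal_sub hc' _
    · exact hz (bal_sub hc' _ h3)

theorem Edec_ed {x z : Site} {r : ℤ} (h : z ∈ bal x r) : ed x z ≤ 2 * r := by
  obtain ⟨h1, h2, h3, h4⟩ := mem_bal.1 h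
  have a1 : (x.1 : ℝ) - r ≤ z.1 := by exact_mod_cast h1
  have a2 : (z.1 : ℝ) ≤ x.1 + r := by exact_mod_cast h2
  have a3 : (x.2 : ℝ) - r ≤ z.2 := by exact_mod_cast h3
  have a4 : (z.2 : ℝ) ≤ x.2 + r := by exact_mod_cast h4
  have b1 : ((x.1 : ℝ) - z.1) ^ 2 ≤ (r : ℝ) ^ 2 := sq_le_sq' (by linarith) (by linarith)
  have b2 : ((x.2 : ℝ) - z.2) ^ 2 ≤ (r : ℝ) ^ 2 := sq_le_sq' (by linarith) (by linarith)
  unfold ed
  refine Real.sqrt_le_iff.2 ⟨by linarith, by nlinarith [sq_nonneg (r : ℝ)]⟩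

theorem exp_dec (b lam : ℝ) (hb : 0 ≤ b) (hlam : 0 ≤ lam) (l : ℤ) (hl : 1 ≤ l)
    (hs : 24 * b * lam ≤ l) : ∃ (C m : ℝ) (R : ℤ), 0 ≤ C ∧ 0 < m ∧
    ∀ (Ω : Set Site) (G : Site → Site → ℝ), Ker G → ASI Ω G b → Op Ω G lam (2 * l) →
      ∀ (x z : Site) (r : ℤ), z ∈ bal x r → (bal x (r + R) : Set Site) ⊆ Ω →
        G x z ≤ C * Real.exp (-m * ed x z) := by
  have hl' : (1 : ℝ) ≤ l := by exact_mod_cast hl
  have hD : (0 : ℝ) < 2 * l + 1 := by linarith
  have hlog : 0 < Real.log 2 := Real.log_pos one_lt_two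
  refine ⟨2 * (2 * l + 1), Real.log 2 / (2 * (2 * l + 1)), 40 * l, by positivity, by positivity,
    fun Ω G h h1 h2 x z r hz hΩ => ?_⟩
  have hex : ∃ k : ℕ, z ∈ bal x ((2 * l + 1) * ((k + 1 : ℕ) : ℤ)) := by
    refine ⟨r.toNat, bal_mono x ?_ hz⟩
    have : r ≤ ((r.toNat + 1 : ℕ) : ℤ) := by omega
    exact this.trans (le_mul_of_one_le_left (by positivity) (by omega))
  obtain ⟨k, hk, hG⟩ : ∃ k : ℕ, z ∈ bal x ((2 * l + 1) * ((k + 1 : ℕ) : ℤ)) ∧
      G x z ≤ (2 * l + 1) / 2 ^ k := by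
    refine ⟨Nat.find hex, Nat.find_spec hex, ?_⟩
    rcases hk : Nat.find hex with _ | k
    · rw [pow_zero, div_one]
      linarith [h.le1 x z]
    · have h3 : z ∉ bal x ((2 * l + 1) * ((k + 1 : ℕ) : ℤ)) := Nat.find_min hex (by omega)
      have h4 : (2 * l + 1) * ((k + 1 : ℕ) : ℤ) ≤ r := by
        by_contra h5
        exact h3 (bal_mono x (not_le.1 h5).le hz)
      have h5 := Edec_iter h hb hlam hl hs h1 h2 z (k + 1) x
        (subset_trans (Finset.coe_subset.2 (bal_mono x (by omega))) hΩ) h3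
      have h6 : G x z ^ 2 ≤ ∑ y ∈ bal x l, G y z ^ 2 :=
        Finset.single_le_sum (f := fun y => G y z ^ 2) (fun y _ => sq_nonneg _)
          (mem_bal.2 (by omega))
      refine (abs_le_of_sq_le_sq' ?_ (by positivity)).2
      rw [div_pow, ← pow_mul, mul_comm (k + 1), pow_mul]
      norm_num
      exact h6.trans h5
  have h3 := Edec_ed hk
  push_cast at h3
  have h4 : -((k + 1 : ℕ) * Real.log 2) ≤ -(Real.log 2 / (2 * (2 * l + 1))) * ed x z := by
    rw [neg_mul, neg_le_neg_iff, div_mul_eq_mul_div, div_le_iff₀ (by positivity)]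
    push_cast
    nlinarith
  have h5 := Real.exp_le_exp.2 h4
  rw [Real.exp_neg, Real.exp_nat_mul, Real.exp_log two_pos] at h5
  refine hG.trans (le_trans (le_of_eq ?_) (mul_le_mul_of_nonneg_left h5 (by positivity)))
  field_simp
  ring

end Vale.Agent.P163N
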