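import Vale.Agent.P163N.Geo

open MeasureTheory Vale.Agent.P163

namespace Vale.Agent.P163N

theorem Estep_shell (F : Site → ℝ) (x : Site) (m : ℕ) :
    ∑ k ∈ Finset.range m, ∑ u ∈ bal x ((k : ℤ) + 1) \ bal x ((k : ℤ) + 1 - 1), F u +
      ∑ u ∈ bal x 0, F u = ∑ u ∈ bal x m, F u := by
  induction m with
  | zero => simp
  | succ m ih =>
    have hs : bal x (m : ℤ) ⊆ bal x ((m : ℤ) + 1) := by
      intro y hy
      simp only [mem_bal] at *
      omega
    rw [Finset.sum_range_succ, add_right_comm, ih, add_sub_cancel_right, add_comm,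
      Finset.sum_sdiff hs]
    push_cast
    rfl

theorem Estep_union {ι : Type} [DecidableEq ι] (g : Site → ℝ) (hg : ∀ v, 0 ≤ g v)
    (t : ι → Finset Site) (s : Finset ι) :
    ∑ v ∈ s.biUnion t, g v ≤ ∑ i ∈ s, ∑ v ∈ t i, g v := by
  induction s using Finset.induction_on with
  | empty => simp
  | insert i s hi ih =>
    rw [Finset.biUnion_insert, Finset.sum_insert hi]
    have h1 := Finset.sum_union_inter (s₁ := t i) (s₂ := s.biUnion t) (f := g)
    have h2 : 0 ≤ ∑ v ∈ t i ∩ s.biUnion t, g v := Finset.sum_nonneg fun v _ => hg v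
    linarith

theorem Estep_cover (g : Site → ℝ) (hg : ∀ v, 0 ≤ g v) (c : Site) {l : ℤ} (hl : 1 ≤ l) (M : ℝ)
    (hM : ∀ c' ∈ bal c (2 * l + 1), ∑ x ∈ bal c' l, g x ≤ M) :
    ∑ v ∈ bal c (2 * l + 1), g v ≤ 9 * M := by
  have hM0 : 0 ≤ M := (Finset.sum_nonneg fun v _ => hg v).trans
    (hM c (by simp only [mem_bal]; omega))
  obtain ⟨I, hI⟩ : ∃ I : Finset Site, I = ({c.1 - (2 * l + 1), c.1, c.1 + (2 * l + 1)} : Finset ℤ)
    ×ˢ ({c.2 - (2 * l + 1), c.2, c.2 + (2 * l + 1)} : Finset ℤ) := ⟨_, rfl⟩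
  have hc : I.card ≤ 9 := by
    rw [hI, Finset.card_product]
    exact Nat.mul_le_mul Finset.card_le_three Finset.card_le_three
  have hsub : bal c (2 * l + 1) ⊆ I.biUnion fun c' => bal c' l := by
    intro v hv
    rw [mem_bal] at hv
    have key : ∀ a d : ℤ, d - (2 * l + 1) ≤ a → a ≤ d + (2 * l + 1) →
        ∃ e ∈ ({d - (2 * l + 1), d, d + (2 * l + 1)} : Finset ℤ), e - l ≤ a ∧ a ≤ e + l := by
      intro a d h1 h2
      by_cases k1 : a < d - l
      · exact ⟨d - (2 * l + 1), by simp, by omega⟩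
      · by_cases k2 : d + l < a
        · exact ⟨d + (2 * l + 1), by simp, by omega⟩
        · exact ⟨d, by simp, by omega⟩
    obtain ⟨e1, m1, k1⟩ := key _ _ hv.1 hv.2.1
    obtain ⟨e2, m2, k2⟩ := key _ _ hv.2.2.1 hv.2.2.2
    exact Finset.mem_biUnion.2 ⟨(e1, e2), hI ▸ Finset.mem_product.2 ⟨m1, m2⟩,
      mem_bal.2 ⟨k1.1, k1.2, k2.1, k2.2⟩⟩
  refine (Finset.sum_le_sum_of_subset_of_nonneg hsub fun v _ _ => hg v).trans
    ((Estep_union g hg _ I).trans ?_)
  refine (Finset.sum_le_card_nsmul I _ M fun c' hc' => hM c' ?_).trans ?_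
  · rw [hI, Finset.mem_product] at hc'
    simp only [Finset.mem_insert, Finset.mem_singleton] at hc'
    rw [mem_bal]
    omega
  · rw [nsmul_eq_mul]
    exact mul_le_mul_of_nonneg_right (by exact_mod_cast hc) hM0

theorem Estep_shift (g : Site → ℝ) (hg : ∀ v, 0 ≤ g v) (c t : Site) (r : ℤ)
    (ht : -1 ≤ t.1 ∧ t.1 ≤ 1 ∧ -1 ≤ t.2 ∧ t.2 ≤ 1) :
    ∑ u ∈ bal c r, g (u + t) ≤ ∑ v ∈ bal c (r + 1), g v := by
  rw [← Finset.sum_image (g := fun u => u + t) fun _ _ _ _ h => add_right_cancel h]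
  refine Finset.sum_le_sum_of_subset_of_nonneg (fun v hv => ?_) fun v _ _ => hg v
  obtain ⟨u, hu, rfl⟩ := Finset.mem_image.1 hv
  simp only [mem_bal, Prod.fst_add, Prod.snd_add] at *
  omega

/-- one step of the iteration -/
theorem exp_step {Ω : Set Site} {G : Site → Site → ℝ} (h : Ker G) {b lam : ℝ} (hb : 0 ≤ b)
    (hlam : 0 ≤ lam) {l : ℤ} (hl : 1 ≤ l) (hs : 24 * b * lam ≤ l) (h1 : ASI Ω G b)
    (h2 : Op Ω G lam (2 * l)) (c z : Site) (hc : (bal c (40 * l) : Set Site) ⊆ Ω)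
    (hz : z ∉ bal c (2 * l)) (M : ℝ)
    (hM : ∀ c' ∈ bal c (2 * l + 1), ∑ x ∈ bal c' l, G x z ^ 2 ≤ M) :
    ∑ x ∈ bal c l, G x z ^ 2 ≤ M / 4 := by
  obtain ⟨m, rfl⟩ := Int.eq_ofNat_of_zero_le (show 0 ≤ l by omega)
  obtain ⟨H, hH⟩ : ∃ H : Site → ℝ, ∀ u, H u = ∑ μ, (G (u + ee μ) z + G (u - ee μ) z) :=
    ⟨_, fun _ => rfl⟩
  have hH0 : ∀ u, 0 ≤ H u := fun u => by
    rw [hH]
    exact Finset.sum_nonneg fun μ _ => add_nonneg (h.nn _ _) (h.nn _ _)
  have a1 : ∀ x ∈ bal c (m : ℤ), (m : ℝ) * G x z ≤ b * ∑ u ∈ bal c (2 * m), G x u * H u := by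
    intro x hx
    have hF : ∀ u, 0 ≤ G x u * H u := fun u => mul_nonneg (h.nn _ _) (hH0 u)
    have e := Estep_shell (fun u => G x u * H u) x m
    have e0 : 0 ≤ ∑ u ∈ bal x 0, G x u * H u := Finset.sum_nonneg fun u _ => hF u
    have e1 : ∑ u ∈ bal x m, G x u * H u ≤ ∑ u ∈ bal c (2 * m), G x u * H u := by
      refine Finset.sum_le_sum_of_subset_of_nonneg (fun y hy => ?_) fun u _ _ => hF u
      simp only [mem_bal] at *
      omega
    have e2 : ∑ _k ∈ Finset.range m, G x z ≤ ∑ k ∈ Finset.range m,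
        b * ∑ u ∈ bal x ((k : ℤ) + 1) \ bal x ((k : ℤ) + 1 - 1), G x u * H u := by
      refine Finset.sum_le_sum fun k hk => ?_
      have hk' := Finset.mem_range.1 hk
      simp only [hH]
      refine h1 x z _ (by omega) (fun y hy => hc ?_) fun hy => hz ?_
      · simp only [Finset.mem_coe, mem_bal] at *
        omega
      · simp only [mem_bal] at *
        omega
    rw [Finset.sum_const, Finset.card_range, nsmul_eq_mul, ← Finset.mul_sum] at e2
    exact e2.trans (mul_le_mul_of_nonneg_left (by linarith) hb)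
  have a2 : (m : ℝ) * ∑ x ∈ bal c (m : ℤ), G x z ^ 2 ≤
      b * QQ G (bal c m) (fun x => G x z) (bal c (2 * m)) H := by
    unfold QQ
    rw [Finset.mul_sum, Finset.mul_sum]
    refine Finset.sum_le_sum fun x hx => ?_
    have := mul_le_mul_of_nonneg_left (a1 x hx) (h.nn x z)
    refine le_of_eq_of_le (by ring) (this.trans (le_of_eq ?_))
    rw [mul_left_comm, Finset.mul_sum]
    exact congrArg _ (Finset.sum_congr rfl fun u _ => by ring)
  have hg : ∀ v, 0 ≤ G v z ^ 2 := fun v => sq_nonneg _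
  have hN := Estep_cover (fun v => G v z ^ 2) hg c hl M hM
  have a3 : ∑ u ∈ bal c (2 * m), H u ^ 2 ≤ 144 * M := by
    have s1 := Estep_shift (fun v => G v z ^ 2) hg c (ee 0) (2 * m) (by simp [ee0])
    have s2 := Estep_shift (fun v => G v z ^ 2) hg c (ee 1) (2 * m) (by simp [ee1])
    have s3 := Estep_shift (fun v => G v z ^ 2) hg c (-ee 0) (2 * m) (by simp [ee0])
    have s4 := Estep_shift (fun v => G v z ^ 2) hg c (-ee 1) (2 * m) (by simp [ee1])
    have s5 : ∑ u ∈ bal c (2 * m), H u ^ 2 ≤ ∑ u ∈ bal c (2 * m),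
        4 * (G (u + ee 0) z ^ 2 + G (u + ee 1) z ^ 2 + G (u + -ee 0) z ^ 2 +
          G (u + -ee 1) z ^ 2) := by
      refine Finset.sum_le_sum fun u _ => ?_
      rw [hH, Fin.sum_univ_two, sub_eq_add_neg, sub_eq_add_neg]
      generalize G (u + ee 0) z = p
      generalize G (u + ee 1) z = q
      generalize G (u + -ee 0) z = r
      generalize G (u + -ee 1) z = s
      linarith only [sq_nonneg (p - q), sq_nonneg (p - r), sq_nonneg (p - s), sq_nonneg (q - r),
        sq_nonneg (q - s), sq_nonneg (r - s)]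
    rw [← Finset.mul_sum, Finset.sum_add_distrib, Finset.sum_add_distrib,
      Finset.sum_add_distrib] at s5
    linarith
  have hc' : (bal c (20 * (2 * (m : ℤ))) : Set Site) ⊆ Ω := by
    rw [← mul_assoc]
    exact hc
  have o1 := h2 c (bal c m) (fun x => G x z) hc' (fun y hy => by
    simp only [mem_bal] at *
    omega) fun x => h.nn x z
  have o2 := h2 c (bal c (2 * m)) H hc' subset_rfl hH0
  have cs := h.cs (bal c m) (fun x => G x z) (bal c (2 * m)) H
  have hA : 0 ≤ ∑ x ∈ bal c (m : ℤ), G x z ^ 2 := Finset.sum_nonneg fun v _ => hg v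
  have hM0 : 0 ≤ 144 * M := (Finset.sum_nonneg fun v _ => sq_nonneg _).trans a3
  have q1 : Real.sqrt (QQ G (bal c m) (fun x => G x z) (bal c m) fun x => G x z) ^ 2 ≤
      lam * ∑ x ∈ bal c (m : ℤ), G x z ^ 2 := by
    rw [Real.sq_sqrt']
    exact max_le o1 (mul_nonneg hlam hA)
  have q2 : Real.sqrt (QQ G (bal c (2 * m)) H (bal c (2 * m)) H) ^ 2 ≤ lam * (144 * M) := by
    rw [Real.sq_sqrt']
    exact max_le (o2.trans (mul_le_mul_of_nonneg_left a3 hlam)) (mul_nonneg hlam hM0)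
  generalize Real.sqrt (QQ G (bal c m) (fun x => G x z) (bal c m) fun x => G x z) = X at cs q1
  generalize Real.sqrt (QQ G (bal c (2 * m)) H (bal c (2 * m)) H) = Y at cs q2
  generalize QQ G (bal c m) (fun x => G x z) (bal c (2 * m)) H = Q at cs a2
  generalize ∑ x ∈ bal c (m : ℤ), G x z ^ 2 = A at a2 q1 hA ⊢
  have b1 : Q ≤ lam * (12 * A + 3 * M) := by
    linarith only [cs, q1, q2, sq_nonneg (24 * X - Y)]
  have b2 := mul_le_mul_of_nonneg_left b1 hb
  have hs' : 24 * b * lam ≤ (m : ℝ) := by exact_mod_cast hs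
  have b3 := mul_le_mul_of_nonneg_right hs' (show 0 ≤ 12 * A + 3 * M by linarith)
  have hm : (0 : ℝ) < m := by exact_mod_cast (show (0 : ℤ) < m by omega)
  refine le_of_mul_le_mul_left ?_ hm
  linarith only [a2, b2, b3]

end Vale.Agent.P163N
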