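import Vale.Agent.P163N.Defs

open Vale.Agent.P163

namespace Vale.Agent.P163N

variable {x c U U' u : Site} {r s l K L : ℤ} {B : Finset Site}

theorem mem_bal : x ∈ bal c r ↔
    c.1 - r ≤ x.1 ∧ x.1 ≤ c.1 + r ∧ c.2 - r ≤ x.2 ∧ x.2 ≤ c.2 + r := by
  simp [bal, and_assoc]

theorem mem_cel : x ∈ cel l U ↔
    l * U.1 ≤ x.1 ∧ x.1 < l * U.1 + l ∧ l * U.2 ≤ x.2 ∧ x.2 < l * U.2 + l := by
  simp [cel, and_assoc]

theorem mem_opn : x ∈ opn l U ↔
    l * U.1 < x.1 ∧ x.1 < l * U.1 + l ∧ l * U.2 < x.2 ∧ x.2 < l * U.2 + l := by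
  simp [opn, and_assoc]

theorem mem_cls : x ∈ cls l U ↔
    l * U.1 ≤ x.1 ∧ x.1 ≤ l * U.1 + l ∧ l * U.2 ≤ x.2 ∧ x.2 ≤ l * U.2 + l := by
  simp [cls, and_assoc]

theorem mem_off : x ∈ off l B ↔ x ∈ B ∧ ¬ l ∣ x.1 ∧ ¬ l ∣ x.2 := by
  simp [off]

theorem ee0 : ee 0 = (1, 0) := rfl

theorem ee1 : ee 1 = (0, 1) := rfl

/-- coordinates of the unit vectors, in a form suited to `omega` -/
theorem ee_cases (μ : Fin 2) :
    ((ee μ).1 = 1 ∧ (ee μ).2 = 0) ∨ ((ee μ).1 = 0 ∧ (ee μ).2 = 1) := by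
  fin_cases μ <;> simp [ee]

theorem card_bal (c : Site) (hr : 0 ≤ r) : ((bal c r).card : ℝ) = (2 * r + 1) ^ 2 := by
  have h1 : ∀ a : ℤ, (((a + r + 1 - (a - r)).toNat : ℕ) : ℝ) = 2 * r + 1 := by
    intro a
    have : (((a + r + 1 - (a - r)).toNat : ℕ) : ℤ) = 2 * r + 1 := by omega
    exact_mod_cast this
  simp only [bal, Finset.card_product, Int.card_Icc, Nat.cast_mul, h1]
  ring

theorem card_cel (U : Site) (hl : 0 ≤ l) : ((cel l U).card : ℝ) = (l : ℝ) ^ 2 := by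
  have h1 : ∀ a : ℤ, (((a + l - a).toNat : ℕ) : ℝ) = l := by
    intro a
    have : (((a + l - a).toNat : ℕ) : ℤ) = l := by omega
    exact_mod_cast this
  simp only [cel, Finset.card_product, Int.card_Ico, Nat.cast_mul, h1]
  ring

theorem bal_sub (h : x ∈ bal c r) (s : ℤ) : bal x s ⊆ bal c (r + s) := by
  intro y hy
  rw [mem_bal] at *
  omega

theorem bal_mono (c : Site) (h : r ≤ s) : bal c r ⊆ bal c s := by
  intro y hy
  rw [mem_bal] at *
  omega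

theorem geo_div (hl : 0 < l) (a k : ℤ) : a / l = k ↔ l * k ≤ a ∧ a < l * k + l := by
  constructor
  · rintro rfl
    have h1 := Int.mul_ediv_add_emod a l
    have h2 := Int.emod_nonneg a hl.ne'
    have h3 := Int.emod_lt_of_pos a hl
    omega
  · rintro ⟨h1, h2⟩
    refine le_antisymm (Int.lt_add_one_iff.1 ((Int.ediv_lt_iff_lt_mul hl).2 ?_))
      ((Int.le_ediv_iff_mul_le hl).2 ?_) <;> linarith

theorem mem_cel_iff (hl : 0 < l) : x ∈ cel l U ↔ idx l x = U := by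
  rw [mem_cel, Prod.ext_iff]
  simp only [idx, geo_div hl, and_assoc]

theorem mem_cel_idx (hl : 0 < l) (x : Site) : x ∈ cel l (idx l x) := (mem_cel_iff hl).2 rfl

/-- a finitely supported sum, cell by cell -/
theorem sum_idx {M : Type} [AddCommMonoid M] (hl : 0 < l) (T I : Finset Site) (F : Site → M)
    (h1 : ∀ x ∈ T, F x ≠ 0 → idx l x ∈ I) (h2 : ∀ x, idx l x ∈ I → F x ≠ 0 → x ∈ T) :
    ∑ x ∈ T, F x = ∑ U ∈ I, ∑ x ∈ cel l U, F x := by
  classical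
  rw [← Finset.sum_biUnion]
  · refine (Finset.sum_filter_ne_zero T).symm.trans
      (Eq.trans (Finset.sum_congr ?_ fun _ _ => rfl) (Finset.sum_filter_ne_zero _))
    ext x
    simp only [Finset.mem_filter, Finset.mem_biUnion, mem_cel_iff hl, exists_eq_right']
    exact ⟨fun h => ⟨h1 x h.1 h.2, h.2⟩, fun h => ⟨h2 x h.1 h.2, h.2⟩⟩
  · intro U _ U' _ hU
    refine Finset.disjoint_left.2 fun x hx hx' => hU ?_
    rw [mem_cel_iff hl] at hx hx'
    rw [← hx, ← hx']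

theorem idx_mem_cel (hl : 0 < l) : idx l x ∈ cel K U ↔ x ∈ cel (K * l) U := by
  have key : ∀ a k : ℤ, (K * k ≤ a / l ∧ a / l < K * k + K) ↔
      (K * l * k ≤ a ∧ a < K * l * k + K * l) := by
    intro a k
    rw [Int.le_ediv_iff_mul_le hl, Int.ediv_lt_iff_lt_mul hl]
    constructor <;> rintro ⟨h1, h2⟩ <;> constructor <;> linarith
  rw [mem_cel, mem_cel]
  have h1 := key x.1 U.1
  have h2 := key x.2 U.2
  simp only [idx]
  tauto

/-- a large cell is the union of its small cells -/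
theorem sum_cel {M : Type} [AddCommMonoid M] (hl : 0 < l) (K : ℤ) (U : Site) (F : Site → M) :
    ∑ x ∈ cel (K * l) U, F x = ∑ u ∈ cel K U, ∑ x ∈ cel l u, F x :=
  sum_idx hl _ _ F (fun _ hx _ => (idx_mem_cel hl).2 hx) fun _ hx _ => (idx_mem_cel hl).1 hx

theorem cel_edge (hx : x ∈ cel l U) (μ : Fin 2) : x ∈ cls l U ∧ x + ee μ ∈ cls l U := by
  have := ee_cases μ
  simp only [mem_cel, mem_cls, Prod.fst_add, Prod.snd_add] at *
  omega

theorem opn_sub_cel : opn l U ⊆ cel l U := by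
  intro x hx
  simp only [mem_cel, mem_opn] at *
  omega

theorem cel_sub_cls : cel l U ⊆ cls l U := fun _ hx => (cel_edge hx 0).1

theorem opn_sub_cls : opn l U ⊆ cls l U := opn_sub_cel.trans cel_sub_cls

theorem nbr_opn : nbr (opn l U) ⊆ cls l U := by
  rintro y ⟨x, hx, μ, h⟩
  have := ee_cases μ
  simp only [Finset.mem_coe, mem_opn, mem_cls, Prod.ext_iff, Prod.fst_add, Prod.snd_add] at *
  omega

theorem nbr_mono {A A' : Finset Site} (h : A ⊆ A') : nbr A ⊆ nbr A' :=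
  fun _ ⟨x, hx, h'⟩ => ⟨x, h hx, h'⟩

theorem cls_sub_bal (hx : x ∈ cls l U) : cls l U ⊆ bal x l := by
  intro y hy
  simp only [mem_cls, mem_bal] at *
  omega

theorem cor_mem_cel (hl : 0 < l) (U : Site) : cor l U ∈ cel l U := by
  simp only [mem_cel, cor]
  omega

theorem cls_sub_cls (hl : 0 < l) (hu : u ∈ cel K U) : cls l u ⊆ cls (K * l) U := by
  intro y hy
  simp only [mem_cls, mem_cel] at *
  obtain ⟨h1, h2, h3, h4⟩ := hu
  obtain ⟨k1, k2, k3, k4⟩ := hy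
  refine ⟨?_, ?_, ?_, ?_⟩ <;> nlinarith

theorem opn_sub_opn (hl : 0 < l) (hu : u ∈ cel K U) : opn l u ⊆ opn (K * l) U := by
  intro y hy
  simp only [mem_opn, mem_cel] at *
  obtain ⟨h1, h2, h3, h4⟩ := hu
  obtain ⟨k1, k2, k3, k4⟩ := hy
  refine ⟨?_, ?_, ?_, ?_⟩ <;> nlinarith

theorem geo_ndvd (hl : 0 < l) {a k : ℤ} (h1 : l * k < a) (h2 : a < l * k + l) : ¬ l ∣ a := by
  rintro ⟨m, rfl⟩
  have h3 : k < m := lt_of_mul_lt_mul_left h1 hl.le
  have h4 : m < k + 1 := lt_of_mul_lt_mul_left (by linarith) hl.le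
  omega

theorem opn_sub_off (hl : 0 < l) (h : opn l U ⊆ B) : opn l U ⊆ off l B := by
  intro x hx
  have hx' := mem_opn.1 hx
  exact mem_off.2 ⟨h hx, geo_ndvd hl hx'.1 hx'.2.1, geo_ndvd hl hx'.2.2.1 hx'.2.2.2⟩

/-- a site of a closed cell off the grid (of the same or of a finer mesh) is in the open cell -/
theorem off_cls (hd : l ∣ L) (hx : x ∈ cls L U) (hx' : x ∈ off l B) : x ∈ opn L U := by
  obtain ⟨-, h1, h2⟩ := mem_off.1 hx'
  have e1 : ∀ k : ℤ, x.1 ≠ L * k := fun k e => h1 (e ▸ hd.mul_right k)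
  have e2 : ∀ k : ℤ, x.2 ≠ L * k := fun k e => h2 (e ▸ hd.mul_right k)
  have a1 := e1 U.1
  have a2 := e1 (U.1 + 1)
  have a3 := e2 U.2
  have a4 := e2 (U.2 + 1)
  simp only [mem_cls, mem_opn, mul_add, mul_one] at *
  omega

theorem opn_cls (hl : 0 < l) (hx : x ∈ opn l U) (hx' : x ∈ cls l U') : U = U' := by
  simp only [mem_cls, mem_opn] at *
  obtain ⟨h1, h2, h3, h4⟩ := hx
  obtain ⟨k1, k2, k3, k4⟩ := hx'
  have key : ∀ a k m : ℤ, l * k < a → a < l * k + l → l * m ≤ a → a ≤ l * m + l → k = m := by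
    intro a k m e1 e2 e3 e4
    have h3 : k < m + 1 := lt_of_mul_lt_mul_left (by linarith) hl.le
    have h4 : m < k + 1 := lt_of_mul_lt_mul_left (by linarith) hl.le
    omega
  exact Prod.ext (key _ _ _ h1 h2 k1 k2) (key _ _ _ h3 h4 k3 k4)

theorem off_mono (h : l ∣ L) : off l B ⊆ off L B := by
  intro x hx
  obtain ⟨h0, h1, h2⟩ := mem_off.1 hx
  exact mem_off.2 ⟨h0, fun e => h1 (h.trans e), fun e => h2 (h.trans e)⟩

theorem off_sub : off l B ⊆ B := Finset.filter_subset _ _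

theorem gd_ne {φ : Site → ℝ} {μ : Fin 2} (h : gd φ μ x ≠ 0) : φ x ≠ 0 ∨ φ (x + ee μ) ≠ 0 := by
  by_contra hc
  push Not at hc
  exact h (by simp [gd, hc.1, hc.2])

theorem gd_mem_bal {φ : Site → ℝ} (h : ∀ x, φ x ≠ 0 → x ∈ bal c r) (μ : Fin 2) (x : Site)
    (hx : gd φ μ x ≠ 0) : x ∈ bal c (r + 1) := by
  have := ee_cases μ
  rcases gd_ne hx with h1 | h1 <;> have h2 := h _ h1 <;>
    simp only [mem_bal, Prod.fst_add, Prod.snd_add] at * <;> omega

theorem gd_mem_cel {φ : Site → ℝ} (h : ∀ x, φ x ≠ 0 → x ∈ opn l U) (μ : Fin 2) (x : Site)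
    (hx : gd φ μ x ≠ 0) : x ∈ cel l U := by
  have := ee_cases μ
  rcases gd_ne hx with h1 | h1 <;> have h2 := h _ h1 <;>
    simp only [mem_opn, mem_cel, Prod.fst_add, Prod.snd_add] at * <;> omega

theorem idx_mem_bal (hl : 0 < l) (hx : x ∈ bal c (K * l)) : idx l x ∈ bal (idx l c) K := by
  have key : ∀ a d : ℤ, d - K * l ≤ a → a ≤ d + K * l → d / l - K ≤ a / l ∧ a / l ≤ d / l + K := by
    intro a d h1 h2
    have e1 := Int.ediv_le_ediv hl h1
    have e2 := Int.ediv_le_ediv hl h2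
    rw [Int.sub_mul_ediv_right _ _ hl.ne'] at e1
    rw [Int.add_mul_ediv_right _ _ hl.ne'] at e2
    exact ⟨e1, e2⟩
  rw [mem_bal] at *
  have h1 := key _ _ hx.1 hx.2.1
  have h2 := key _ _ hx.2.2.1 hx.2.2.2
  exact ⟨h1.1, h1.2, h2.1, h2.2⟩

end Vale.Agent.P163N
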