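import Vale.Agent.P163N.Nrm

open MeasureTheory Vale.Agent.P163

namespace Vale.Agent.P163N

variable {b : ℝ} {Ω : Set Site} {J : Fin 2 → Site → ℝ} {E : CA →ₗ[ℝ] ℝ}
  {P : Finset Site → CA →ₗ[ℝ] CA}

theorem Sys.P_dep (h : Sys b Ω J E P) {A : Finset Site} (hA : (A : Set Site) ⊆ Ω) (F : CA) :
    Dep (A : Set Site)ᶜ (P A F) := by
  exact (h.loc A Set.univ F hA (dep_univ F)).mono fun _ hx => hx.2

theorem Sys.P_fix (h : Sys b Ω J E P) {A : Finset Site} {G : CA} (hG : Dep (A : Set Site)ᶜ G) :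
    P A G = G := by
  have := h.Pmul A 1 G hG
  rwa [h.Pone, mul_one] at this

theorem Sys.E_P (h : Sys b Ω J E P) {A : Finset Site} {G : CA} (hG : Dep (A : Set Site)ᶜ G)
    (F : CA) : E (G * P A F) = E (G * F) := by
  rw [← h.Pmul A F G hG, h.EP]

theorem Sys.ind_loc (h : Sys b Ω J E P) {A A1 : Finset Site} {S : Set Site} (h1 : A1 ⊆ A)
    (hA : (A : Set Site) ⊆ Ω) {F : CA} (hF : Dep S F)
    (hd : ∀ x ∈ (S ∪ nbr A1) \ A1, x ∉ A) : P A F = P A1 F := by
  rw [← h.tower A1 A F h1]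
  exact h.P_fix ((h.loc A1 S F ((Finset.coe_subset.2 h1).trans hA) hF).mono hd)

theorem Sys.ind_cell (h : Sys b Ω J E P) {l : ℤ} (hl : 0 < l) {B : Finset Site}
    (hB : (B : Set Site) ⊆ Ω) {U : Site} (hU : opn l U ⊆ B) {F : CA} (hF : Dep (cls l U) F) :
    P (off l B) F = P (opn l U) F :=
  h.ind_loc (opn_sub_off hl hU) ((Finset.coe_subset.2 off_sub).trans hB) hF fun _ hx hx' =>
    hx.2 (off_cls dvd_rfl (hx.1.elim id fun e => nbr_opn e) hx')

theorem Sys.ind_sq (h : Sys b Ω J E P) {A : Finset Site} (hA : (A : Set Site) ⊆ Ω) (G : CA) :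
    E ((G - P A G) ^ 2) = E (G ^ 2) - E (P A G ^ 2) := by
  have h1 := h.E_P (h.P_dep hA G) G
  have h2 : (G - P A G) ^ 2 = G ^ 2 - P A G * G - P A G * G + P A G * P A G := by ring
  rw [h2, map_add, map_sub, map_sub, ← h1, sq (P A G)]
  ring

/-- for an observable of a closed cell, `P (off l B)` only depends on the boundary of the cell -/
theorem Sys.dep_bd (h : Sys b Ω J E P) {l : ℤ} (hl : 0 < l) {B : Finset Site}
    (hB : (B : Set Site) ⊆ Ω) {U : Site} (hU : opn l U ⊆ B) {F : CA} (hF : Dep (cls l U) F) :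
    Dep ((cls l U : Set Site) \ opn l U) (P (off l B) F) := by
  rw [h.ind_cell hl hB hU hF]
  refine (h.loc _ _ F ((Finset.coe_subset.2 hU).trans hB) hF).mono fun x hx => ⟨?_, hx.2⟩
  exact hx.1.elim id fun e => nbr_opn e

/-- the same for a finer grid -/
theorem Sys.dep_cls (h : Sys b Ω J E P) {l L : ℤ} (hd : l ∣ L) {B : Finset Site}
    (hB : (B : Set Site) ⊆ Ω) {U : Site} (hU : opn L U ⊆ B) {F : CA} (hF : Dep (cls L U) F) :
    Dep (cls L U) (P (off l B) F) := by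
  have h1 : off l (opn L U) ⊆ off l B := fun x hx =>
    mem_off.2 ⟨hU (mem_off.1 hx).1, (mem_off.1 hx).2⟩
  have h2 : ∀ x ∈ (cls L U : Set Site) ∪ nbr (off l (opn L U)), x ∈ cls L U := fun x hx =>
    hx.elim id fun e => nbr_opn (nbr_mono off_sub e)
  have h3 : (off l B : Set Site) ⊆ Ω := (Finset.coe_subset.2 off_sub).trans hB
  rw [h.ind_loc h1 h3 hF fun x hx hx' =>
    hx.2 (mem_off.2 ⟨off_cls hd (h2 x hx.1) hx', (mem_off.1 hx').2⟩)]
  exact (h.loc _ _ F ((Finset.coe_subset.2 h1).trans h3) hF).mono fun x hx => h2 x hx.1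

/-- conditional independence of different cells given the grid -/
theorem Sys.indep (h : Sys b Ω J E P) {l : ℤ} (hl : 0 < l) {B : Finset Site}
    (hB : (B : Set Site) ⊆ Ω) {U U' : Site} (hU : opn l U ⊆ B) (hne : U ≠ U') {F G : CA}
    (hF : Dep (cls l U) F) (hG : Dep (cls l U') G) :
    P (off l B) (F * G) = P (off l B) F * P (off l B) G := by
  have h1 : Dep (opn l U : Set Site)ᶜ G := hG.mono fun x hx hx' => hne (opn_cls hl hx' hx)
  have h2 := h.P_dep ((Finset.coe_subset.2 (off_sub (l := l))).trans hB) F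
  rw [← h.tower _ _ (F * G) (opn_sub_off hl hU), mul_comm F G, h.Pmul _ _ _ h1,
    ← h.ind_cell hl hB hU hF, mul_comm G, h.Pmul _ _ _ h2]

/-- some increment of a reverse martingale is small -/
theorem Sys.mart (h : Sys b Ω J E P) (A : ℕ → Finset Site) (hA : ∀ k, A k ⊆ A (k + 1))
    (hΩ : ∀ k, (A k : Set Site) ⊆ Ω) (Y : CA) {N : ℕ} (hN : 0 < N) :
    ∃ k < N, E ((P (A k) Y - P (A (k + 1)) Y) ^ 2) ≤ E (Y ^ 2) / N := by
  have h1 : ∀ k, E ((P (A k) Y - P (A (k + 1)) Y) ^ 2) =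
      E (P (A k) Y ^ 2) - E (P (A (k + 1)) Y ^ 2) := fun k => by
    have := h.ind_sq (hΩ (k + 1)) (P (A k) Y)
    rwa [h.tower _ _ _ (hA k)] at this
  have h2 : ∀ F : CA, 0 ≤ E (F ^ 2) := fun F => h.pos _ fun σ => _root_.sq_nonneg (F σ)
  have h3 : ∑ k ∈ Finset.range N, E ((P (A k) Y - P (A (k + 1)) Y) ^ 2) ≤
      ∑ _k ∈ Finset.range N, E (Y ^ 2) / N := by
    have h4 : (N : ℝ) ≠ 0 := by exact_mod_cast hN.ne'
    simp only [h1]
    rw [Finset.sum_range_sub' fun k => E (P (A k) Y ^ 2), Finset.sum_const, Finset.card_range,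
      nsmul_eq_mul, mul_div_cancel₀ _ h4]
    linarith [h2 (P (A N) Y), h2 (Y - P (A 0) Y), h.ind_sq (hΩ 0) Y]
  obtain ⟨k, hk, hk'⟩ := Finset.exists_le_of_sum_le (Finset.nonempty_range_iff.2 hN.ne') h3
  exact ⟨k, Finset.mem_range.1 hk, hk'⟩

/-- the increments of different large cells are orthogonal -/
theorem Sys.orth (h : Sys b Ω J E P) {l L : ℤ} (hL : 0 < L) (hd : l ∣ L) {B : Finset Site}
    (hB : (B : Set Site) ⊆ Ω) (I : Finset Site) (hI : ∀ U ∈ I, opn L U ⊆ B)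
    (W : Fin 2 → Site → ℝ) :
    ∑ U ∈ I, E (DL J P l L B U W ^ 2) = E ((∑ U ∈ I, DL J P l L B U W) ^ 2) := by
  have h1 : ∀ U ∈ I, Dep (cls L U) (DL J P l L B U W) := fun U hU =>
    (h.dep_cls hd hB (hI U hU) (dep_jc_cel L U)).sub
      (h.dep_cls dvd_rfl hB (hI U hU) (dep_jc_cel L U))
  have h2 : ∀ U, P (off L B) (DL J P l L B U W) = 0 := fun U => by
    rw [DL, map_sub, h.tower _ _ _ (off_mono hd), h.tower _ _ _ subset_rfl, sub_self]
  rw [sq (∑ U ∈ I, DL J P l L B U W), Finset.sum_mul_sum, map_sum]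
  refine Finset.sum_congr rfl fun U hU => ?_
  rw [map_sum, Finset.sum_eq_single_of_mem U hU fun U' hU' hne => ?_, sq]
  rw [← h.EP (off L B), h.indep hL hB (hI U hU) hne.symm (h1 U hU) (h1 U' hU'), h2, zero_mul,
    map_zero]

end Vale.Agent.P163N
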