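import Vale.Agent.P163N.Av
import Vale.Agent.P163.Trans

open MeasureTheory Vale.Agent.P163

namespace Vale.Agent.P163N

variable {om : Measure S4} [IsProbabilityMeasure om] {ν : Measure unitInterval}
  {η : Measure Circle} {Λ : Finset Site} {K : Site → Site → ℝ}

theorem Loc_wt_dep (Λ : Finset Site) (K : Site → Site → ℝ) (T : Set Site)
    (h : ∀ x ∈ Λ, ∀ y ∈ Λ, K x y ≠ 0 → x ∈ T ∧ y ∈ T) : Dep T (wt Λ K) := fun σ τ e => by
  simp only [wt_apply, ham]
  congr 1
  refine Finset.sum_congr rfl fun x hx => Finset.sum_congr rfl fun y hy => ?_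
  by_cases h0 : K x y = 0
  · rw [h0, zero_mul, zero_mul]
  · rw [e x (h x hx y hy h0).1, e y (h x hx y hy h0).2]

theorem Loc_wt_split (Λ A : Finset Site) (K : Site → Site → ℝ) :
    wt Λ K = wt Λ (fun x y => if x ∈ A ∨ y ∈ A then 0 else K x y) *
      wt Λ (fun x y => if x ∈ A ∨ y ∈ A then K x y else 0) := by
  ext σ
  simp only [ContinuousMap.mul_apply, wt_apply, ← Real.exp_add, ham, ← Finset.sum_add_distrib]
  congr 1
  refine Finset.sum_congr rfl fun x _ => Finset.sum_congr rfl fun y _ => ?_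
  split_ifs <;> ring

/-- Markov property -/
theorem PP_loc {β : ℝ} {Ω : Set Site} (hN : Nice β Ω Λ K) (A : Finset Site) (S : Set Site)
    (F : CA) (hA : (A : Set Site) ⊆ Ω) (hF : Dep S F) :
    Dep ((S ∪ nbr A) \ A) (PP om Λ K A F) := by
  have h2 : Dep (A : Set Site)ᶜ (wt Λ fun x y => if x ∈ A ∨ y ∈ A then 0 else K x y) :=
    Loc_wt_dep _ _ _ fun x _ y _ h => by
      by_cases hxy : x ∈ A ∨ y ∈ A
      · exact absurd (if_pos hxy) h
      · exact ⟨fun hx => hxy (Or.inl hx), fun hy => hxy (Or.inr hy)⟩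
  have h1 : Dep ((A : Set Site) ∪ nbr A) (wt Λ fun x y => if x ∈ A ∨ y ∈ A then K x y else 0) :=
    Loc_wt_dep _ _ _ fun x hx y hy h => by
      by_cases hxy : x ∈ A ∨ y ∈ A
      · have hK : K x y ≠ 0 := fun e => h ((if_pos hxy).trans e)
        have hs : symK Λ K x y ≠ 0 := by
          have h3 := lt_of_le_of_ne (hN.nn x y) hK.symm
          have h4 := hN.nn y x
          simp only [symK, hx, hy, and_self, if_true]
          exact (by linarith : 0 < K x y + K y x).ne'
        rcases hxy with hx' | hy'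
        · exact ⟨Or.inl hx', Or.inr ⟨x, hx', hN.nb x (hA hx') y hs⟩⟩
        · rw [trans_symK_comm] at hs
          exact ⟨Or.inr ⟨y, hy', hN.nb y (hA hy') x hs⟩, Or.inl hy'⟩
      · exact absurd (if_neg hxy) h
  have hsub : ∀ T : Set Site, T ⊆ S → (T ∪ ((A : Set Site) ∪ nbr A)) \ A ⊆ (S ∪ nbr A) \ A := by
    rintro T hT x ⟨h | h | h, hx⟩
    · exact ⟨Or.inl (hT h), hx⟩
    · exact absurd h hx
    · exact ⟨Or.inr h, hx⟩
  have d1 := (av_dep (om := om) A ((hF.mono Set.subset_union_left).mul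
    (h1.mono Set.subset_union_right))).mono (hsub S subset_rfl)
  have d2 := (av_dep (om := om) A (h1.mono (Set.subset_union_right (s := ∅)))).mono
    (hsub ∅ (Set.empty_subset S))
  have key : ∀ σ, PP om Λ K A F σ =
      av om A (F * wt Λ fun x y => if x ∈ A ∨ y ∈ A then K x y else 0) σ *
        (av om A (wt Λ fun x y => if x ∈ A ∨ y ∈ A then K x y else 0) σ)⁻¹ := by
    intro σ
    rw [PP_apply, ContinuousMap.mul_apply, iz_apply, Loc_wt_split Λ A K, mul_left_comm,
      av_mul A _ h2, av_mul A _ h2, ContinuousMap.mul_apply, ContinuousMap.mul_apply]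
    have h0 : wt Λ (fun x y => if x ∈ A ∨ y ∈ A then 0 else K x y) σ ≠ 0 := (Real.exp_pos _).ne'
    rw [mul_inv, mul_mul_mul_comm, mul_inv_cancel₀ h0, one_mul]
  intro σ τ e
  rw [key, key, d1 σ τ e, d2 σ τ e]

omit [IsProbabilityMeasure om] in
theorem Loc_ro_mp (h : Model om ν η) (i j : Fin 3) (φ : Site → ℝ) (t : ℝ) :
    MeasurePreserving (ro i j φ t) (pm om) (pm om) := by
  have := h.pom
  have hs : ∀ x, MeasurePreserving (sph (WardF_R i j (t * φ x)) (WardF_R_norm i j _)) om om :=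
    fun x => h.inv _ _ (WardF_R_three i j _)
  refine ⟨(continuous_ro i j φ t).measurable, ?_⟩
  have h1 := Measure.infinitePi_map_pi (μ := fun _ : Site => om) fun x => (hs x).measurable
  refine h1.trans ?_
  congr 1
  funext y
  exact (hs y).map_eq

theorem Loc_ro_pw (i j : Fin 3) (φ : Site → ℝ) (t : ℝ) (A : Finset Site) (τ σ : XX) :
    ro i j φ t (A.piecewise τ σ) = A.piecewise (ro i j φ t τ) (ro i j φ t σ) := by
  funext x
  by_cases hx : x ∈ A
  · simp only [ro, Finset.piecewise_eq_of_mem _ _ _ hx]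
  · simp only [ro, Finset.piecewise_eq_of_notMem _ _ _ hx]

theorem Loc_av_gr (h : Model om ν η) (A : Finset Site) (i j : Fin 3) (t : ℝ) (F : CA) :
    av om A (gr i j t F) = gr i j t (av om A F) := by
  ext σ
  simp only [gr_apply, av_apply, Loc_ro_pw]
  exact Sym_integral (Loc_ro_mp h i j _ t) (continuous_pw1 A F _)

theorem Loc_gr_wt (i j : Fin 3) (t : ℝ) : gr i j t (wt Λ K) = wt Λ K := by
  ext σ
  simp only [gr_apply, wt_apply, ham, ro, Sym_dot]

/-- equivariance under global rotations -/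
theorem PP_equi (h : Model om ν η) (A : Finset Site) (i j : Fin 3) (t : ℝ) (F : CA) :
    PP om Λ K A (gr i j t F) = gr i j t (PP om Λ K A F) := by
  have h1 : gr i j t (iz om Λ K A) = iz om Λ K A := by
    ext σ
    rw [gr_apply, iz_apply, iz_apply, ← gr_apply, ← Loc_av_gr h, Loc_gr_wt]
  rw [PP_apply, PP_apply, map_mul (gr i j t), h1, ← Loc_av_gr h, map_mul (gr i j t), Loc_gr_wt]

end Vale.Agent.P163N
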