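import Vale.Agent.P163N.Alg

open MeasureTheory Vale.Agent.P163

namespace Vale.Agent.P163N

theorem log_clamp (s t : ℝ) : |max 0 (min 1 s) - max 0 (min 1 t)| ≤ |s - t| := by
  have h1 := le_abs_self (s - t)
  have h2 := neg_abs_le (s - t)
  rw [abs_le]
  simp only [max_def, min_def]
  split_ifs <;> constructor <;> linarith

/-- a linear cutoff between the radii `a` and `2 a` -/
theorem log_lin (c : Site) (a : ℤ) (ha : 1 ≤ a) : ∃ χ : Site → ℝ, (∀ x ∈ bal c a, χ x = 1) ∧
    (∀ x, χ x ≠ 0 → x ∈ bal c (2 * a)) ∧ ∀ S, nq S (gd χ) ≤ 98 := by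
  classical
  have ha' : (1 : ℝ) ≤ a := by exact_mod_cast ha
  have ha0 : (0 : ℝ) < a := by linarith
  obtain ⟨d, hd⟩ : ∃ d : Site → ℤ, ∀ x, d x = max |x.1 - c.1| |x.2 - c.2| := ⟨_, fun _ => rfl⟩
  have hb : ∀ x r, x ∈ bal c r ↔ d x ≤ r := fun x r => by
    rw [mem_bal, hd, max_le_iff, abs_le, abs_le]
    omega
  have hsupp : ∀ x, max 0 (min 1 (2 - (d x : ℝ) / a)) ≠ 0 → x ∈ bal c (2 * a) := by
    intro x hx
    rw [hb]
    by_contra h
    have h1 : (2 * a : ℝ) ≤ d x := by exact_mod_cast (not_le.1 h).le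
    have h2 : 2 ≤ (d x : ℝ) / a := by rwa [le_div_iff₀ ha0]
    exact hx (max_eq_left ((min_le_right _ _).trans (by linarith)))
  refine ⟨fun x => max 0 (min 1 (2 - (d x : ℝ) / a)), fun x hx => ?_, hsupp, fun S => ?_⟩
  · have h1 : (d x : ℝ) ≤ a := by exact_mod_cast (hb x a).1 hx
    have h2 : (d x : ℝ) / a ≤ 1 := by rwa [div_le_one ha0]
    show max 0 (min 1 (2 - (d x : ℝ) / a)) = 1
    rw [min_eq_left (by linarith), max_eq_right zero_le_one]
  · have key : ∀ x μ, gd (fun x => max 0 (min 1 (2 - (d x : ℝ) / a))) μ x ^ 2 ≤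
        if x ∈ bal c (2 * a + 1) then 1 / (a : ℝ) ^ 2 else 0 := by
      intro x μ
      split_ifs with h
      · have h1 : |d x - d (x + ee μ)| ≤ 1 := by
          have := ee_cases μ
          rw [hd, hd, abs_le]
          simp only [Prod.fst_add, Prod.snd_add, abs_eq_max_neg]
          omega
        have h2 : |(d x : ℝ) - d (x + ee μ)| ≤ 1 := by exact_mod_cast h1
        have h3 := log_clamp (2 - (d (x + ee μ) : ℝ) / a) (2 - (d x : ℝ) / a)
        have h4 : 2 - (d (x + ee μ) : ℝ) / a - (2 - (d x : ℝ) / a) =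
            ((d x : ℝ) - d (x + ee μ)) / a := by ring
        rw [h4, abs_div, abs_of_pos ha0] at h3
        have h5 := h3.trans (div_le_div_of_nonneg_right h2 ha0.le)
        have h6 := pow_le_pow_left₀ (abs_nonneg _) h5 2
        rwa [sq_abs, div_pow, one_pow] at h6
      · have : gd (fun x => max 0 (min 1 (2 - (d x : ℝ) / a))) μ x = 0 := by
          by_contra h1
          exact h (gd_mem_bal hsupp μ x h1)
        rw [this]
        norm_num
    have h1 : nq S (gd fun x => max 0 (min 1 (2 - (d x : ℝ) / a))) ≤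
        ∑ x ∈ S, if x ∈ bal c (2 * a + 1) then 2 / (a : ℝ) ^ 2 else 0 := by
      refine Finset.sum_le_sum fun x _ => (Finset.sum_le_sum fun μ _ => key x μ).trans ?_
      rw [Fin.sum_univ_two]
      split_ifs
      · exact le_of_eq (by ring)
      · norm_num
    refine h1.trans ?_
    rw [Finset.sum_ite_mem, Finset.sum_const, nsmul_eq_mul]
    have h2 : ((S ∩ bal c (2 * a + 1)).card : ℝ) ≤ (bal c (2 * a + 1)).card := by
      exact_mod_cast Finset.card_le_card Finset.inter_subset_right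
    rw [card_bal c (by omega)] at h2
    push_cast at h2
    rw [← mul_div_assoc, div_le_iff₀ (by positivity)]
    nlinarith

theorem log_ind (H : ℕ) : ∃ ρ : ℤ, 1 ≤ ρ ∧ ∀ (c : Site) (r : ℤ), 1 ≤ r →
    ∃ φ : Site → ℝ, (∀ x ∈ bal c r, φ x = H) ∧ (∀ x, φ x ≠ 0 → x ∈ bal c (ρ * r)) ∧
      ∀ S, nq S (gd φ) ≤ 98 * H := by
  induction H with
  | zero => exact ⟨1, le_rfl, fun c r _ => ⟨fun _ => 0, by simp, by simp, by simp [nq, gd]⟩⟩
  | succ H ih =>
    obtain ⟨ρ, hρ, h⟩ := ih
    refine ⟨6 * ρ, by omega, fun c r hr => ?_⟩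
    obtain ⟨φ, h1, h2, h3⟩ := h c r hr
    have hle : r ≤ ρ * r := by nlinarith
    obtain ⟨χ, k1, k2, k3⟩ := log_lin c (ρ * r + 2) (by omega)
    refine ⟨fun x => φ x + χ x, fun x hx => ?_, fun x hx => ?_, fun S => ?_⟩
    · show φ x + χ x = _
      rw [h1 x hx, k1 x (bal_mono c (by omega) hx)]
      push_cast
      ring
    · rw [mul_assoc]
      by_cases h0 : φ x = 0
      · exact bal_mono c (by omega) (k2 x (by simpa [h0] using hx))
      · exact bal_mono c (by omega) (h2 x h0)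
    · have e : nq S (gd fun x => φ x + χ x) = nq S (gd φ) + nq S (gd χ) := by
        unfold nq
        rw [← Finset.sum_add_distrib]
        refine Finset.sum_congr rfl fun x _ => ?_
        rw [← Finset.sum_add_distrib]
        refine Finset.sum_congr rfl fun μ _ => ?_
        have e1 : gd (fun x => φ x + χ x) μ x = gd φ μ x + gd χ μ x := by
          unfold gd
          ring
        rw [e1]
        by_cases h0 : gd φ μ x = 0
        · rw [h0]
          ring
        · have a1 := gd_mem_bal h2 μ x h0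
          have a2 : x + ee μ ∈ bal c (ρ * r + 2) := by
            have := ee_cases μ
            simp only [mem_bal, Prod.fst_add, Prod.snd_add] at a1 ⊢
            omega
          have a3 : gd χ μ x = 0 := by
            unfold gd
            rw [k1 _ a2, k1 x (bal_mono c (by omega) a1), sub_self]
          rw [a3]
          ring
      rw [e]
      push_cast
      linarith [h3 S, k3 S]

/-- logarithmic cutoff (recurrence of the square lattice) -/
theorem logcut (η : ℝ) (hη : 0 < η) : ∃ ρ : ℤ, 1 ≤ ρ ∧ ∀ (c : Site) (r : ℤ), 1 ≤ r →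
    ∃ φ : Site → ℝ, (∀ x ∈ bal c r, φ x = 1) ∧ (∀ x, φ x ≠ 0 → x ∈ bal c (ρ * r)) ∧
      nv (bal c (ρ * r + 1)) (gd φ) ≤ η := by
  obtain ⟨H, hH⟩ := exists_nat_gt (98 / η ^ 2)
  have hH0 : (0 : ℝ) < H := lt_trans (by positivity) hH
  obtain ⟨ρ, hρ, h⟩ := log_ind H
  refine ⟨ρ, hρ, fun c r hr => ?_⟩
  obtain ⟨φ, h1, h2, h3⟩ := h c r hr
  refine ⟨fun x => φ x / H, fun x hx => ?_, fun x hx => h2 x fun h0 => hx (by simp [h0]), ?_⟩
  · show φ x / H = 1
    rw [h1 x hx, div_self hH0.ne']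
  · have e : nq (bal c (ρ * r + 1)) (gd fun x => φ x / H) =
        nq (bal c (ρ * r + 1)) (gd φ) / (H : ℝ) ^ 2 := by
      unfold nq
      rw [Finset.sum_div]
      refine Finset.sum_congr rfl fun x _ => ?_
      rw [Finset.sum_div]
      refine Finset.sum_congr rfl fun μ _ => ?_
      unfold gd
      ring
    unfold nv
    rw [Real.sqrt_le_left hη.le, e, div_le_iff₀ (by positivity)]
    rw [div_lt_iff₀ (by positivity)] at hH
    nlinarith [h3 (bal c (ρ * r + 1))]

end Vale.Agent.P163N
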