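import Vale.Agent.P163N.Cor
import Vale.Agent.P163.JMom

open MeasureTheory Vale.Agent.P163

namespace Vale.Agent.P163N

variable {om : Measure S4} [IsProbabilityMeasure om] {ν : Measure unitInterval}
  {η : Measure Circle} {Λ : Finset Site} {K : Site → Site → ℝ}

theorem mom_symK_comm (x y : Site) : symK Λ K x y = symK Λ K y x := by
  simp only [symK, and_comm, add_comm]

theorem mom_symK_nonneg (hK : ∀ x y, 0 ≤ K x y) (x y : Site) : 0 ≤ symK Λ K x y := by
  unfold symK
  split_ifs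
  exacts [add_nonneg (hK _ _) (hK _ _), le_rfl]

theorem JJ_nonneg {β : ℝ} {Ω : Set Site} (hN : Nice β Ω Λ K) (μ : Fin 2) (x : Site) :
    0 ≤ JJ Ω Λ K μ x := by
  unfold JJ
  split_ifs
  exacts [mom_symK_nonneg hN.nn _ _, le_rfl]

theorem JJ_le {β : ℝ} (hβ : 0 ≤ β) {Ω : Set Site} (hN : Nice β Ω Λ K) (μ : Fin 2) (x : Site) :
    JJ Ω Λ K μ x ≤ β := by
  unfold JJ
  split_ifs with h
  · rcases h with h | h
    · exact hN.le _ h _
    · rw [mom_symK_comm]
      exact hN.le _ h _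
  · exact hβ

open Classical in
/-- oriented couplings -/
noncomputable def mom_K (Λ : Finset Site) (K : Site → Site → ℝ) (x y : Site) : ℝ :=
  if ∃ μ, y = x + ee μ then symK Λ K x y else if ∃ μ, x = y + ee μ then 0 else symK Λ K x y / 2

theorem mom_K_nonneg (hK : ∀ x y, 0 ≤ K x y) (x y : Site) : 0 ≤ mom_K Λ K x y := by
  have := mom_symK_nonneg (Λ := Λ) hK x y
  unfold mom_K
  split_ifs
  exacts [this, le_rfl, by positivity]

theorem mom_K_sym (x y : Site) : symK Λ (mom_K Λ K) x y = symK Λ K x y := by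
  have hc := mom_symK_comm (Λ := Λ) (K := K) x y
  by_cases h : x ∈ Λ ∧ y ∈ Λ
  · rw [symK, if_pos h]
    unfold mom_K
    by_cases h1 : ∃ μ, y = x + ee μ
    · have h2 : ¬∃ μ, x = y + ee μ := by
        rintro ⟨κ, e2⟩
        obtain ⟨μ, e1⟩ := h1
        have a := ee_cases μ
        have b := ee_cases κ
        have c1 := congrArg Prod.fst e1
        have c2 := congrArg Prod.snd e1
        have c3 := congrArg Prod.fst e2
        have c4 := congrArg Prod.snd e2
        simp only [Prod.fst_add, Prod.snd_add] at *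
        omega
      rw [if_pos h1, if_neg h2, if_pos h1, add_zero]
    · by_cases h2 : ∃ μ, x = y + ee μ
      · rw [if_neg h1, if_pos h2, if_pos h2, zero_add, hc]
      · rw [if_neg h1, if_neg h2, if_neg h2, if_neg h1, ← hc, add_halves]
  · rw [symK, if_neg h, symK, if_neg h]

theorem mom_wt : wt Λ K = wt Λ (mom_K Λ K) := by
  ext σ
  have h1 := trans_ham_sym Λ Λ subset_rfl K σ
  have h2 := trans_ham_sym Λ Λ subset_rfl (mom_K Λ K) σ
  simp only [mom_K_sym] at h2
  rw [wt_apply, wt_apply]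
  congr 1
  linarith

theorem mom_sum (W S : Finset Site) (K' : Site → Site → ℝ) (U : Fin 2 → Site → ℝ)
    (h0 : ∀ μ, ∀ x ∉ S, U μ x = 0) (hT : ∀ μ, ∀ x ∈ S, x ∈ W ∧ x + ee μ ∈ W)
    (G : Site → Site → ℝ) :
    ∑ x : W, ∑ y : W, K' x y * JMom_s U x y * G x y =
      ∑ x ∈ S, ∑ μ, K' x (x + ee μ) * U μ x * G x (x + ee μ) := by
  have e : ∀ x : W, ∑ y : W, K' x y * JMom_s U x y * G x y =
      ∑ μ, K' x (x + ee μ) * U μ x * G x (x + ee μ) := fun x => by
    simp only [JMom_s, Finset.mul_sum, Finset.sum_mul]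
    rw [Finset.sum_comm]
    refine Finset.sum_congr rfl fun μ _ => ?_
    rw [Finset.sum_coe_sort W fun y => K' x y * (if y = x + ee μ then U μ x else 0) * G x y]
    simp only [mul_ite, ite_mul, mul_zero, zero_mul, Finset.sum_ite_eq']
    split_ifs with h
    · rfl
    · rw [h0 μ x fun hx => h (hT μ x hx).2, mul_zero, zero_mul]
  simp only [e]
  rw [Finset.sum_coe_sort W fun x => ∑ μ, K' x (x + ee μ) * U μ x * G x (x + ee μ)]
  exact (Finset.sum_subset (fun x hx => (hT 0 x hx).1) fun x _ hx =>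
    Finset.sum_eq_zero fun μ _ => by rw [h0 μ x hx, mul_zero, zero_mul]).symm

/-- exponential of an observable -/
noncomputable def mom_ex (F : CA) : CA :=
  ⟨fun σ => Real.exp (F σ), Real.continuous_exp.comp F.continuous⟩

theorem mom_le (S : Finset Site) (V : Fin 2 → Site → ℝ) {x : Site} (hx : x ∈ S) :
    ∑ μ, V μ x ^ 2 ≤ nq S V :=
  Finset.single_le_sum (f := fun x => ∑ μ, V μ x ^ 2)
    (fun _ _ => Finset.sum_nonneg fun _ _ => sq_nonneg _) hx

theorem mom_exp (h : Model om ν η) {β : ℝ} (hβ : 0 ≤ β) {Ω : Set Site} (hN : Nice β Ω Λ K)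
    (S : Finset Site) (V : Fin 2 → Site → ℝ) {t : ℝ} (ht : t ^ 2 * nq S V ≤ 1) :
    EE om Λ K (mom_ex (t • jc (JJ Ω Λ K) 0 1 S V)) ≤ Real.exp β := by
  classical
  obtain ⟨D, hΛ, hT⟩ : ∃ D : Finset Site, Λ ⊆ D ∧ ∀ μ, ∀ x ∈ S, x ∈ D ∧ x + ee μ ∈ D :=
    ⟨Λ ∪ (S ∪ S.biUnion fun x => Finset.univ.image fun μ => x + ee μ), Finset.subset_union_left,
      fun μ x hx => ⟨by simp [hx], Finset.mem_union_right _ (Finset.mem_union_right _
        (Finset.mem_biUnion.2 ⟨x, hx, Finset.mem_image_of_mem _ (Finset.mem_univ μ)⟩))⟩⟩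
  have hd : Dep D (mom_ex (t • jc (JJ Ω Λ K) 0 1 S V)) := fun σ τ e =>
    congrArg Real.exp (((dep_jc fun x hx μ => hT μ x hx).smul t) σ τ e)
  have hp := II_wt_pos om Λ K
  have h1 : II om (wt Λ K) = II om (1 * wt Λ K) := by rw [one_mul]
  rw [EE_apply, inv_mul_le_iff₀ hp, mul_comm (II om (wt Λ K)), h1, mom_wt, II_num D hΛ hd,
    II_num D hΛ dep_one,
    num_eq_numF D Λ D hΛ subset_rfl _ _ (ContinuousMap.continuous _),
    num_eq_numF D Λ D hΛ subset_rfl _ _ (ContinuousMap.continuous _)]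
  set U : Fin 2 → Site → ℝ := fun μ x =>
    if x ∈ S ∧ (x ∈ Ω ∨ x + ee μ ∈ Ω) then t * V μ x else 0 with hU
  have U0 : ∀ μ, ∀ x ∉ S, U μ x = 0 := fun μ x hx => if_neg fun e => hx e.1
  have U1 : ∀ μ x, U μ x ^ 2 ≤ t ^ 2 * V μ x ^ 2 := fun μ x => by
    simp only [hU]
    split_ifs
    · exact (mul_pow _ _ _).le
    · rw [zero_pow two_ne_zero]
      positivity
  have KU : ∀ μ, ∀ x ∈ S, (if x ∈ Λ ∧ x + ee μ ∈ Λ then mom_K Λ K x (x + ee μ) else 0) * U μ x
      = JJ Ω Λ K μ x * (t * V μ x) := fun μ x hx => by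
    have e : (if x ∈ Λ ∧ x + ee μ ∈ Λ then mom_K Λ K x (x + ee μ) else 0)
        = symK Λ K x (x + ee μ) := by
      split_ifs with e
      · exact if_pos ⟨μ, rfl⟩
      · exact (if_neg e).symm
    rw [e]
    simp only [hU, JJ, hx, true_and]
    split_ifs
    · rfl
    · rw [mul_zero, zero_mul]
  have k := diaF h (D.subtype (· ∈ D))
    (fun x y : D => if x.1 ∈ Λ ∧ y.1 ∈ Λ then mom_K Λ K x y else 0)
    (fun x y => by
      split_ifs
      exacts [mom_K_nonneg hN.nn _ _, le_rfl])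
    (fun x y => JMom_s U x y) fun x y => by
      rw [← sq_le_one_iff_abs_le_one, JMom_sq]
      by_cases hx : x.1 ∈ S
      · refine le_trans ?_ ((mul_le_mul_of_nonneg_left (mom_le S V hx) (sq_nonneg t)).trans ht)
        rw [Finset.mul_sum]
        refine Finset.sum_le_sum fun μ _ => ?_
        split_ifs
        · exact U1 μ x
        · positivity
      · simp [JMom_s, U0 _ _ hx]
  refine le_trans (le_of_eq ?_) (k.trans (mul_le_mul_of_nonneg_right ?_ ?_))
  · refine congrArg _ (funext fun τ => congrArg Real.exp ?_)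
    have e := mom_sum D S (fun x y => if x ∈ Λ ∧ y ∈ Λ then mom_K Λ K x y else 0) U U0 hT
      (JMom_J (ext0 D τ))
    have e' : ∀ x : D, ext0 D τ x = τ x := fun x => dif_pos x.2
    simp only [JMom_J, e'] at e
    rw [e]
    simp only [jc, cu, ContinuousMap.smul_apply, ContinuousMap.sum_apply, ContinuousMap.sub_apply,
      ContinuousMap.mul_apply, smul_eq_mul, Finset.mul_sum, sx_apply]
    refine Finset.sum_congr rfl fun x hx => Finset.sum_congr rfl fun μ _ => ?_
    rw [KU μ x hx]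
    simp only [Fin.castSucc_zero, Fin.castSucc_one]
    ring
  · have e := mom_sum D S (fun x y => if x ∈ Λ ∧ y ∈ Λ then mom_K Λ K x y else 0)
      (fun μ x => U μ x ^ 2) (fun μ x hx => by rw [U0 μ x hx, zero_pow two_ne_zero]) hT
      fun _ _ => 1
    simp only [mul_one] at e
    simp only [JMom_sq]
    rw [e, Real.exp_le_exp]
    refine le_trans ?_ (mul_le_of_le_one_right hβ ht)
    simp only [nq, Finset.mul_sum]
    refine Finset.sum_le_sum fun x hx => Finset.sum_le_sum fun μ _ => ?_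
    rw [sq (U μ x), ← mul_assoc, KU μ x hx]
    have a1 := JJ_nonneg hN μ x
    have a2 := JJ_le hβ hN μ x
    have a3 : t * V μ x * U μ x ≤ t ^ 2 * V μ x ^ 2 := by
      nlinarith [U1 μ x, sq_nonneg (t * V μ x - U μ x)]
    calc _ = JJ Ω Λ K μ x * (t * V μ x * U μ x) := by ring
      _ ≤ JJ Ω Λ K μ x * (t ^ 2 * V μ x ^ 2) := mul_le_mul_of_nonneg_left a3 a1
      _ ≤ _ := mul_le_mul_of_nonneg_right a2 (by positivity)
  · exact integral_nonneg fun σ => by positivity

theorem mom_mono {F G : CA} (h : ∀ σ, F σ ≤ G σ) : EE om Λ K F ≤ EE om Λ K G := by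
  rw [← sub_nonneg, ← map_sub, EE_apply]
  exact mul_nonneg (inv_nonneg.2 (II_wt_pos om Λ K).le) (integral_nonneg fun σ =>
    mul_nonneg (sub_nonneg.2 (h σ)) (Real.exp_pos _).le)

theorem mom_pow (y : ℝ) : y ^ 4 ≤ 24 * (Real.exp y + Real.exp (-y)) := by
  have h := Real.pow_div_factorial_le_exp |y| (abs_nonneg y) 4
  rw [Even.pow_abs (by decide), div_le_iff₀ (by positivity)] at h
  have h1 : Real.exp |y| ≤ Real.exp y + Real.exp (-y) := by
    rcases abs_choice y with e | e <;> rw [e] <;> linarith [Real.exp_pos y, Real.exp_pos (-y)]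
  norm_num [Nat.factorial] at h
  linarith

theorem mom_01 (h : Model om ν η) {β : ℝ} (hβ : 0 ≤ β) {Ω : Set Site} (hN : Nice β Ω Λ K)
    (S : Finset Site) (V : Fin 2 → Site → ℝ) :
    EE om Λ K (jc (JJ Ω Λ K) 0 1 S V ^ 4) ≤ 48 * Real.exp β * nq S V ^ 2 := by
  rcases (nq_nonneg S V).eq_or_lt with hq | hq
  · have z : jc (JJ Ω Λ K) 0 1 S V = 0 :=
      Finset.sum_eq_zero fun x hx => Finset.sum_eq_zero fun μ _ => by
        have : V μ x = 0 := pow_eq_zero_iff two_ne_zero |>.1 <|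
          le_antisymm ((Finset.single_le_sum (f := fun μ => V μ x ^ 2) (fun _ _ => sq_nonneg _)
            (Finset.mem_univ μ)).trans ((mom_le S V hx).trans hq.ge)) (sq_nonneg _)
        rw [this, zero_smul]
    rw [z, zero_pow (by norm_num), map_zero]
    positivity
  · obtain ⟨t, ht⟩ : ∃ t : ℝ, t ^ 2 * nq S V = 1 :=
      ⟨(√(nq S V))⁻¹, by rw [inv_pow, Real.sq_sqrt hq.le, inv_mul_cancel₀ hq.ne']⟩
    have k1 := mom_exp h hβ hN S V ht.le
    have k2 := mom_exp h hβ hN S V (t := -t) (by rw [neg_sq, ht])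
    have k3 := mom_mono (om := om) (Λ := Λ) (K := K) (F := jc (JJ Ω Λ K) 0 1 S V ^ 4)
      (G := (24 * nq S V ^ 2) • (mom_ex (t • jc (JJ Ω Λ K) 0 1 S V)
        + mom_ex (-t • jc (JJ Ω Λ K) 0 1 S V))) fun σ => by
      have k := mul_le_mul_of_nonneg_left (mom_pow (t * jc (JJ Ω Λ K) 0 1 S V σ))
        (sq_nonneg (nq S V))
      have e : nq S V ^ 2 * (t * jc (JJ Ω Λ K) 0 1 S V σ) ^ 4 =
          (t ^ 2 * nq S V) ^ 2 * jc (JJ Ω Λ K) 0 1 S V σ ^ 4 := by ring
      rw [e, ht, one_pow, one_mul] at k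
      simp only [mom_ex, ContinuousMap.pow_apply, ContinuousMap.smul_apply,
        ContinuousMap.add_apply, ContinuousMap.coe_mk, smul_eq_mul, neg_mul]
      linarith
    rw [map_smul, map_add, smul_eq_mul] at k3
    refine k3.trans ((mul_le_mul_of_nonneg_left (add_le_add k1 k2) (by positivity)).trans
      (le_of_eq ?_))
    ring

theorem mom_gr12 (J : Fin 2 → Site → ℝ) (S : Finset Site) (V : Fin 2 → Site → ℝ) :
    gr 1 2 (Real.pi / 2) (jc J 0 1 S V) = -jc J 0 2 S V := by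
  have h12 : (1 : Fin 3) ≠ 2 := by decide
  simp only [jc, cu, map_sum, map_smul, map_sub, map_mul, gr_sx_i h12,
    gr_sx_k (k := 0) (i := 1) (j := 2) (by decide) (by decide), Real.cos_pi_div_two,
    Real.sin_pi_div_two, ← Finset.sum_neg_distrib]
  refine Finset.sum_congr rfl fun x _ => Finset.sum_congr rfl fun μ _ => ?_
  ext σ
  simp only [ContinuousMap.sub_apply, ContinuousMap.mul_apply, ContinuousMap.smul_apply,
    ContinuousMap.neg_apply, smul_eq_mul]
  ring

/-- fourth moment of the currents (diamagnetic inequality) -/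
theorem EE_mom (h : Model om ν η) {β : ℝ} (hβ : 0 ≤ β) {Ω : Set Site} (hN : Nice β Ω Λ K)
    (i j : Fin 3) (hij : i < j) (S : Finset Site) (V : Fin 2 → Site → ℝ) :
    EE om Λ K (jc (JJ Ω Λ K) i j S V ^ 4) ≤ 48 * Real.exp β * nq S V ^ 2 := by
  have h01 := mom_01 h hβ hN S V
  have h02 : EE om Λ K (jc (JJ Ω Λ K) 0 2 S V ^ 4) ≤ 48 * Real.exp β * nq S V ^ 2 := by
    rw [← EE_gr h 1 2 (Real.pi / 2), map_pow, mom_gr12, Even.neg_pow (by decide)] at h01
    exact h01
  have h12 : EE om Λ K (jc (JJ Ω Λ K) 1 2 S V ^ 4) ≤ 48 * Real.exp β * nq S V ^ 2 := by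
    rw [← EE_gr h 0 1 (Real.pi / 2), map_pow, gr_jc02, Real.cos_pi_div_two, Real.sin_pi_div_two,
      zero_smul, one_smul, zero_sub, Even.neg_pow (by decide)] at h02
    exact h02
  fin_cases i <;> fin_cases j <;> first | exact absurd hij (by decide) | assumption

end Vale.Agent.P163N
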