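import Vale.Agent.P163N.Geo

open MeasureTheory Vale.Agent.P163

namespace Vale.Agent.P163N

theorem op_base {Ω : Set Site} {G : Site → Site → ℝ} (h : Ker G) {l : ℤ} (hl : 0 ≤ l) :
    Op Ω G ((2 * l + 1) ^ 2) l := by
  intro c S f _ hS hf
  have h1 : QQ G S f S f ≤ (∑ x ∈ S, f x) ^ 2 := by
    rw [QQ, sq, Finset.sum_mul_sum]
    exact Finset.sum_le_sum fun x _ => Finset.sum_le_sum fun y _ =>
      mul_le_of_le_one_right (mul_nonneg (hf x) (hf y)) (h.le1 x y)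
  have h2 : (S.card : ℝ) ≤ (2 * l + 1) ^ 2 := by
    rw [← card_bal c hl]; exact_mod_cast Finset.card_le_card hS
  refine h1.trans (sq_sum_le_card_mul_sum_sq.trans ?_)
  exact mul_le_mul_of_nonneg_right h2 (Finset.sum_nonneg fun _ _ => sq_nonneg _)

theorem Opb_sqrt {p q lam A B : ℝ} (hlam : 0 ≤ lam) (hA : 0 ≤ A) (hB : 0 ≤ B) (hp : p ≤ lam * A)
    (hq : q ≤ lam * B) : Real.sqrt p * Real.sqrt q ≤ lam * (A + B) / 2 := by
  have h1 := Real.sq_sqrt (mul_nonneg hlam hA)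
  have h2 := Real.sq_sqrt (mul_nonneg hlam hB)
  have h3 : Real.sqrt p * Real.sqrt q ≤ Real.sqrt (lam * A) * Real.sqrt (lam * B) := by gcongr
  nlinarith [sq_nonneg (Real.sqrt (lam * A) - Real.sqrt (lam * B))]

theorem Opb_near (I : Finset Site) (U : Site) {t : ℝ} (ht : 0 ≤ t) :
    ∑ U' ∈ I, (if U' ∈ bal U 4 then t else 0) ≤ 81 * t := by
  classical
  rw [← Finset.sum_filter, Finset.sum_const, nsmul_eq_mul]
  refine mul_le_mul_of_nonneg_right ?_ ht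
  have h1 : ((I.filter fun U' => U' ∈ bal U 4).card : ℝ) ≤ (bal U 4).card := by
    exact_mod_cast Finset.card_le_card fun x hx => (Finset.mem_filter.1 hx).2
  rw [card_bal U (by norm_num)] at h1
  norm_num at h1 ⊢
  exact h1

theorem op_step {Ω : Set Site} {G : Site → Site → ℝ} (h : Ker G) {lam : ℝ} (hlam : 0 ≤ lam)
    {l : ℤ} (hl : 1 ≤ l) (h1 : Op Ω G lam l) (h2 : Dc Ω G (1 / 329 ^ 2) l) :
    Op Ω G (82 * lam) (164 * l) := by
  classical
  intro c S f hΩ hS hf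
  have hl0 : 0 < l := by omega
  obtain ⟨I, hI⟩ : ∃ I, I = bal (idx l c) 164 := ⟨_, rfl⟩
  have hmap : ∀ x ∈ S, idx l x ∈ I := fun x hx => hI ▸ idx_mem_bal hl0 (hS hx)
  have hcard : (I.card : ℝ) = 329 ^ 2 := by rw [hI, card_bal _ (by norm_num)]; norm_num
  obtain ⟨T, hT⟩ : ∃ T : Site → Finset Site, ∀ U, T U = S.filter fun x => idx l x = U :=
    ⟨_, fun _ => rfl⟩
  obtain ⟨A, hA⟩ : ∃ A : Site → ℝ, ∀ U, A U = ∑ x ∈ T U, f x ^ 2 := ⟨_, fun _ => rfl⟩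
  have A0 : ∀ U, 0 ≤ A U := fun U => hA U ▸ Finset.sum_nonneg fun _ _ => sq_nonneg _
  have fib : ∀ F : Site → ℝ, ∑ x ∈ S, F x = ∑ U ∈ I, ∑ x ∈ T U, F x := fun F => by
    simp only [hT]
    exact (Finset.sum_fiberwise_of_maps_to hmap F).symm
  have hsub : ∀ U, T U ⊆ bal (cor l U) l := fun U x hx => by
    rw [hT, Finset.mem_filter] at hx
    exact cls_sub_bal (cel_sub_cls (cor_mem_cel hl0 U)) (cel_sub_cls ((mem_cel_iff hl0).2 hx.2))
  have hin : ∀ U, (T U).Nonempty → ∀ r, r ≤ 20 * l → (bal (cor l U) r : Set Site) ⊆ Ω := by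
    rintro U ⟨x, hx⟩ r hr y hy
    have e1 := mem_bal.1 (hsub U hx)
    rw [hT, Finset.mem_filter] at hx
    have e2 := mem_bal.1 (hS hx.1)
    have e3 := mem_bal.1 (Finset.mem_coe.1 hy)
    exact hΩ (Finset.mem_coe.2 (mem_bal.2 (by omega)))
  have hd : ∀ U, QQ G (T U) f (T U) f ≤ lam * A U := fun U => by
    rcases (T U).eq_empty_or_nonempty with e | e
    · simp [hA, e, QQ]
    · rw [hA]; exact h1 _ _ f (hin U e _ le_rfl) (hsub U) hf
  have hp : ∀ U U', QQ G (T U) f (T U') f ≤ (if U' ∈ bal U 4 then lam * A U / 2 else 0)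
      + (if U ∈ bal U' 4 then lam * A U' / 2 else 0)
      + (1 / 329 ^ 2 * (lam * A U / 2) + 1 / 329 ^ 2 * (lam * A U' / 2)) := fun U U' => by
    have e1 := Opb_sqrt hlam (A0 U) (A0 U') (hd U) (hd U')
    have e2 := mul_nonneg hlam (A0 U)
    have e3 := mul_nonneg hlam (A0 U')
    have hs : U ∈ bal U' 4 ↔ U' ∈ bal U 4 := by simp only [mem_bal]; omega
    by_cases hn : U' ∈ bal U 4
    · rw [if_pos hn, if_pos (hs.2 hn)]
      linarith [h.cs (T U) f (T U') f]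
    rw [if_neg hn, if_neg (mt hs.1 hn)]
    rcases (T U).eq_empty_or_nonempty with e | e
    · have : QQ G (T U) f (T U') f = 0 := by simp [e, QQ]
      linarith
    have := h2 (cor l U) (T U) (T U') f f (hin U e _ (by omega)) (hsub U)
      (Finset.disjoint_left.2 fun y hy hy' => hn (by
        have e4 := idx_mem_bal hl0 hy'
        rw [hT, Finset.mem_filter] at hy
        rwa [hy.2, (mem_cel_iff hl0).1 (cor_mem_cel hl0 U)] at e4)) hf hf
    linarith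
  have hq : QQ G S f S f = ∑ U ∈ I, ∑ U' ∈ I, QQ G (T U) f (T U') f := by
    rw [QQ, fib]
    refine Finset.sum_congr rfl fun U _ => ?_
    simp only [QQ]
    rw [Finset.sum_comm (s := I)]
    exact Finset.sum_congr rfl fun x _ => fib _
  have s1 : ∑ U ∈ I, ∑ U' ∈ I, (if U' ∈ bal U 4 then lam * A U / 2 else 0)
      ≤ ∑ U ∈ I, 81 * (lam * A U / 2) := Finset.sum_le_sum fun U _ =>
    Opb_near I U (by have := mul_nonneg hlam (A0 U); linarith)
  have s2 : ∑ U ∈ I, ∑ U' ∈ I, (if U ∈ bal U' 4 then lam * A U' / 2 else 0)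
      ≤ ∑ U ∈ I, 81 * (lam * A U / 2) := by rw [Finset.sum_comm]; exact s1
  have s3 : ∑ U ∈ I, ∑ _U' ∈ I, 1 / 329 ^ 2 * (lam * A U / 2) = ∑ U ∈ I, lam * A U / 2 :=
    Finset.sum_congr rfl fun U _ => by rw [Finset.sum_const, nsmul_eq_mul, hcard]; ring
  have s4 : ∑ _U ∈ I, ∑ U' ∈ I, 1 / 329 ^ 2 * (lam * A U' / 2) = ∑ U ∈ I, lam * A U / 2 := by
    rw [Finset.sum_comm]; exact s3
  have s5 : ∑ U ∈ I, lam * A U / 2 = lam * (∑ x ∈ S, f x ^ 2) / 2 := by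
    rw [fib, Finset.mul_sum, Finset.sum_div]
    exact Finset.sum_congr rfl fun U _ => by rw [hA]
  rw [← Finset.mul_sum] at s1 s2
  have s6 := Finset.sum_le_sum fun U (_ : U ∈ I) => Finset.sum_le_sum fun U' (_ : U' ∈ I) => hp U U'
  simp only [Finset.sum_add_distrib] at s6
  rw [hq]
  linarith

theorem op_small (ε : ℝ) (hε : 0 < ε) (l0 : ℤ) (hl0 : 1 ≤ l0) : ∃ (l : ℤ) (lam : ℝ), 1 ≤ l ∧
    0 ≤ lam ∧ lam ≤ ε * l ∧ ∀ (Ω : Set Site) (G : Site → Site → ℝ), Ker G →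
      (∀ l', l0 ≤ l' → Dc Ω G (1 / 329 ^ 2) l') → Op Ω G lam (2 * l) := by
  have h0 : (1 : ℝ) ≤ l0 := by exact_mod_cast hl0
  have hp : (0 : ℝ) < (2 * ((2 * l0 : ℤ) : ℝ) + 1) ^ 2 := by push_cast; positivity
  obtain ⟨m, hm⟩ := exists_pow_lt_of_lt_one (div_pos (mul_pos hε (by linarith : (0 : ℝ) < l0)) hp)
    (show (1 / 2 : ℝ) < 1 by norm_num)
  have h1 : ∀ k : ℕ, (1 : ℤ) ≤ 164 ^ k := fun k => one_le_pow₀ (by norm_num)
  refine ⟨164 ^ m * l0, 82 ^ m * (2 * ((2 * l0 : ℤ) : ℝ) + 1) ^ 2, by nlinarith [h1 m],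
    by positivity, ?_, fun Ω G hG hD => ?_⟩
  · rw [lt_div_iff₀ hp] at hm
    have e : (82 : ℝ) ^ m = 164 ^ m * (1 / 2) ^ m := by rw [← mul_pow]; norm_num
    rw [e, mul_assoc, Int.cast_mul (164 ^ m), Int.cast_pow, Int.cast_ofNat, mul_left_comm ε]
    exact mul_le_mul_of_nonneg_left hm.le (by positivity)
  · have : ∀ k : ℕ, Op Ω G (82 ^ k * (2 * ((2 * l0 : ℤ) : ℝ) + 1) ^ 2) (164 ^ k * (2 * l0)) := by
      intro k
      induction k with
      | zero =>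
        rw [pow_zero, pow_zero, one_mul, one_mul]
        exact op_base hG (by omega)
      | succ k ih =>
        have := op_step hG (by positivity) (by nlinarith [h1 k]) ih (hD _ (by nlinarith [h1 k]))
        rwa [← mul_assoc, ← mul_assoc, ← pow_succ', ← mul_assoc, ← pow_succ', mul_assoc] at this
    rw [mul_left_comm]
    exact this m

end Vale.Agent.P163N
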