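import Vale.Agent.P163N.Mix
import Vale.Agent.P163N.Alg
import Vale.Agent.P163.BoxA

open MeasureTheory Vale.Agent.P163

namespace Vale.Agent.P163N

theorem Red_mp {A B C : Type} [MeasurableSpace A] [MeasurableSpace B] [MeasurableSpace C]
    {μ : Measure A} {ν : Measure B} {ρ : Measure C} [IsProbabilityMeasure μ]
    [IsProbabilityMeasure ν] [IsProbabilityMeasure ρ] {f : A × B → C}
    (hf : MeasurePreserving f (μ.prod ν) ρ) :
    MeasurePreserving (fun (p : (Site → A) × (Site → B)) z => f (p.1 z, p.2 z))
      ((Measure.infinitePi fun _ => μ).prod (Measure.infinitePi fun _ => ν))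
      (Measure.infinitePi fun _ => ρ) := by
  have hm : Measurable fun (p : (Site → A) × (Site → B)) z => f (p.1 z, p.2 z) :=
    measurable_pi_lambda _ fun z => hf.measurable.comp (by fun_prop)
  refine ⟨hm, Measure.eq_infinitePi _ fun s t ht => ?_⟩
  have h := (measurePreserving_pi (fun _ : s => μ.prod ν) (fun _ => ρ) fun _ => hf).comp
    (((measurePreserving_arrowProdEquivProdArrow A B s (fun _ => μ) fun _ => ν).symm _).comp
      (MeasurePreserving.prod
        ⟨s.measurable_restrict, Measure.infinitePi_map_restrict fun _ : Site => μ⟩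
        ⟨s.measurable_restrict, Measure.infinitePi_map_restrict fun _ : Site => ν⟩))
  have h1 := h.measure_preimage (s := Set.univ.pi fun i : s => t i)
    (MeasurableSet.univ_pi fun i : s => ht i).nullMeasurableSet
  rw [Measure.pi_pi, Finset.prod_coe_sort s fun i => ρ (t i)] at h1
  rw [Measure.map_apply hm (MeasurableSet.pi s.countable_toSet fun i _ => ht i), ← h1]
  congr 1
  ext p
  exact ⟨fun hp i _ => hp i i.2, fun hp i hi => hp ⟨i, hi⟩ trivial⟩

theorem Red_ham (n : ℕ) (β : ℝ) (a b : Site) (per : Bool) (σ : Site → Spin n) :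
    β * energy n a b per σ =
      ∑ x ∈ box a b, ∑ y ∈ box a b, kx β a b per x y * inner ℝ (σ x).1 (σ y).1 := by
  unfold energy
  rw [Finset.mul_sum]
  refine Finset.sum_congr rfl fun x hx => Eq.symm ?_
  have h2 : ∀ z ∈ box a b, ∑ y ∈ box a b, (if y = z then β else 0) * inner ℝ (σ x).1 (σ y).1 =
      β * inner ℝ (σ x).1 (σ z).1 := by
    intro z hz
    simp only [ite_mul, zero_mul, Finset.sum_ite_eq', hz, if_true]
  have hx' := BoxA_mem.1 hx
  simp only [kx, add_mul, Finset.sum_add_distrib, mul_add]
  congr 1
  · by_cases h : x.1 < b.1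
    · simp only [h, if_true]
      exact h2 _ (BoxA_mem.2 (by simp only; omega))
    · by_cases hp : per = true
      · simp only [h, hp, if_true, if_false]
        exact h2 _ (BoxA_mem.2 (by simp only; omega))
      · simp [h, hp]
  · by_cases h : x.2 < b.2
    · simp only [h, if_true]
      exact h2 _ (BoxA_mem.2 (by simp only; omega))
    · by_cases hp : per = true
      · simp only [h, hp, if_true, if_false]
        exact h2 _ (BoxA_mem.2 (by simp only; omega))
      · simp [h, hp]

/-- product of the remaining components -/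
noncomputable def Red_perp {n : ℕ} (s t : Spin n) : ℝ :=
  ∑ i : Fin n, if (i : ℕ) < 3 then 0 else s.1 i * t.1 i

theorem Red_inner {n : ℕ} (hn : 3 ≤ n) (s t : Spin n) (u v : Spin 3) :
    inner ℝ (mix hn s u).1 (mix hn t v).1 = rad s * rad t * inner ℝ u.1 v.1 + Red_perp s t := by
  rw [PiLp.inner_apply, PiLp.inner_apply, Finset.mul_sum, ← sum_lt3 hn, Red_perp,
    ← Finset.sum_add_distrib]
  refine Finset.sum_congr rfl fun i _ => ?_
  by_cases h : (i : ℕ) < 3
  · simp only [mix, mixv, h, dif_pos, if_true, RCLike.inner_apply, conj_trivial]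
    ring
  · simp only [mix, mixv, h, dif_neg, if_false, RCLike.inner_apply, conj_trivial,
      not_false_eq_true]
    ring

theorem Red_rad {n : ℕ} (s : Spin n) : 0 ≤ rad s ∧ rad s ≤ 1 := by
  refine ⟨Real.sqrt_nonneg _, Real.sqrt_le_one.2 ?_⟩
  have h2 := EuclideanSpace.real_norm_sq_eq s.1
  rw [norm_eq_of_mem_sphere, one_pow] at h2
  rw [h2]
  refine Finset.sum_le_sum fun i _ => ?_
  split_ifs
  · exact le_rfl
  · positivity

theorem Red_II (F : CA) : II om3 F =
    ∫ u, F fun z => emb 3 (by norm_num) (u z) ∂Measure.infinitePi fun _ : Site => unif 3 := by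
  have := unif_prob 3 (by norm_num)
  have hm : Measurable (emb 3 (by norm_num)) := (continuous_emb 3 (by norm_num)).measurable
  have h2 := Measure.infinitePi_map_pi (μ := fun _ : Site => unif 3)
    (f := fun _ => emb 3 (by norm_num)) fun _ => hm
  refine Eq.trans ?_ (integral_map (measurable_pi_lambda _ fun y =>
    hm.comp (measurable_pi_apply y)).aemeasurable F.continuous.aestronglyMeasurable)
  exact congrArg (fun m => ∫ σ, F σ ∂m) h2.symm

theorem Red_fub {n : ℕ} (hn : 3 ≤ n) [IsProbabilityMeasure (unif n)]
    [IsProbabilityMeasure (unif 3)] {f g : (Site → Spin n) → ℝ} (hf : Continuous f)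
    (hg : Continuous g)
    (h : ∀ s : Site → Spin n,
      ∫ u, f fun z => mix hn (s z) (u z) ∂(Measure.infinitePi fun _ : Site => unif 3) ≤
        ∫ u, g fun z => mix hn (s z) (u z) ∂(Measure.infinitePi fun _ : Site => unif 3)) :
    ∫ σ, f σ ∂(Measure.infinitePi fun _ : Site => unif n) ≤
      ∫ σ, g σ ∂(Measure.infinitePi fun _ : Site => unif n) := by
  have hmp := Red_mp (mix_mp hn)
  have hi : ∀ {k : (Site → Spin n) → ℝ}, Continuous k → Integrable k
      (Measure.infinitePi fun _ : Site => unif n) := fun hk =>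
    hk.integrable_of_hasCompactSupport (HasCompactSupport.of_compactSpace _)
  have e : ∀ {k : (Site → Spin n) → ℝ}, Continuous k →
      ∫ σ, k σ ∂(Measure.infinitePi fun _ : Site => unif n) = ∫ s, ∫ u,
        k fun z => mix hn (s z) (u z) ∂(Measure.infinitePi fun _ : Site => unif 3)
          ∂(Measure.infinitePi fun _ : Site => unif n) := fun hk => by
    have h1 := integral_map hmp.measurable.aemeasurable
      (μ := (Measure.infinitePi fun _ => unif n).prod (Measure.infinitePi fun _ => unif 3))
      hk.aestronglyMeasurable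
    rw [hmp.map_eq] at h1
    exact h1.trans (integral_prod _ (hmp.integrable_comp_of_integrable (hi hk)))
  rw [e hf, e hg]
  exact integral_mono (hmp.integrable_comp_of_integrable (hi hf)).integral_prod_left
    (hmp.integrable_comp_of_integrable (hi hg)).integral_prod_left h

/-- reduction to Heisenberg models with random couplings -/
theorem red (n : ℕ) (hn : 3 ≤ n) (β : ℝ) (a b : Site) (per : Bool) (x y : Site) (c : ℝ)
    (hc : 0 ≤ c) (H : ∀ r : Site → ℝ, (∀ z, 0 ≤ r z ∧ r z ≤ 1) →
      EE om3 (box a b) (fun u v => kx β a b per u v * (r u * r v)) (sx 0 x * sx 0 y) ≤ c) :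
    ∫ σ, inner ℝ (σ x).1 (σ y).1 ∂gibbs n β a b per ≤ n * c := by
  have h1 : 1 ≤ n := by omega
  have := unif_prob n h1
  have := unif_prob 3 (by norm_num)
  have hce : Continuous fun σ => Real.exp (β * energy n a b per σ) :=
    Real.continuous_exp.comp (continuous_const.mul (BoxA_cont_energy n a b per))
  have hZ : 0 < ∫ σ, Real.exp (β * energy n a b per σ)
      ∂(Measure.infinitePi fun _ : Site => unif n) :=
    integral_exp_pos (hce.integrable_of_hasCompactSupport (HasCompactSupport.of_compactSpace _))
  have key := Red_fub hn (BoxA_cont_term n β a b per x y ⟨0, h1⟩)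
    (g := fun σ => c * Real.exp (β * energy n a b per σ)) (continuous_const.mul hce) fun s => by
      obtain ⟨K, hK⟩ : ∃ K : Site → Site → ℝ,
        K = fun u v => kx β a b per u v * (rad (s u) * rad (s v)) := ⟨_, rfl⟩
      obtain ⟨E, hE, hw⟩ : ∃ E : ℝ, 0 < E ∧ ∀ u : Site → Spin 3,
          Real.exp (β * energy n a b per fun z => mix hn (s z) (u z)) =
            E * wt (box a b) K fun z => emb 3 (by norm_num) (u z) := by
        refine ⟨_, Real.exp_pos (∑ u ∈ box a b, ∑ v ∈ box a b,
          kx β a b per u v * Red_perp (s u) (s v)), fun u => ?_⟩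
        rw [wt_apply, ← Real.exp_add, Red_ham, ham, hK]
        simp only [← Finset.sum_add_distrib, Red_inner, dot_emb]
        congr 1
        exact Finset.sum_congr rfl fun _ _ => Finset.sum_congr rfl fun _ _ => by ring
      have h2 := H _ fun z => Red_rad (s z)
      have h3 := II_wt_pos om3 (box a b) K
      rw [← hK, EE_apply, inv_mul_le_iff₀ h3] at h2
      have e1 : ∀ u : Site → Spin 3, (mix hn (s x) (u x)).1 ⟨0, h1⟩ *
          (mix hn (s y) (u y)).1 ⟨0, h1⟩ * Real.exp (β * energy n a b per fun z =>
            mix hn (s z) (u z)) = rad (s x) * rad (s y) * E *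
          (sx 0 x * sx 0 y * wt (box a b) K) fun z => emb 3 (by norm_num) (u z) := fun u => by
        rw [hw]
        simp only [ContinuousMap.mul_apply, sx_apply]
        simp [mix, mixv, emb]
        ring
      simp only [e1]
      simp only [hw, integral_const_mul, ← Red_II]
      have h4 : rad (s x) * rad (s y) ≤ 1 :=
        mul_le_one₀ (Red_rad _).2 (Red_rad _).1 (Red_rad _).2
      have h5 := mul_le_mul_of_nonneg_left h2
        (mul_nonneg (mul_nonneg (Red_rad (s x)).1 (Red_rad (s y)).1) hE.le)
      have h6 := mul_le_mul_of_nonneg_right h4 (mul_nonneg hE.le (mul_nonneg h3.le hc))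
      linarith
  unfold gibbs
  rw [integral_tilted]
  have h3 : ∀ σ : Site → Spin n, (Real.exp (β * energy n a b per σ) /
        ∫ σ, Real.exp (β * energy n a b per σ) ∂(Measure.infinitePi fun _ : Site => unif n)) •
        (inner ℝ (σ x).1 (σ y).1 : ℝ) =
      (∑ i, (σ x).1 i * (σ y).1 i * Real.exp (β * energy n a b per σ)) /
        ∫ σ, Real.exp (β * energy n a b per σ) ∂(Measure.infinitePi fun _ : Site => unif n) := by
    intro σ
    rw [← Finset.sum_mul, smul_eq_mul, PiLp.inner_apply]
    simp only [RCLike.inner_apply, conj_trivial, mul_comm ((σ y).1 _)]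
    ring
  simp only [h3]
  rw [integral_div, integral_finsetSum _ fun i _ =>
    (BoxA_cont_term n β a b per x y i).integrable_of_hasCompactSupport
      (HasCompactSupport.of_compactSpace _),
    Finset.sum_congr rfl fun i _ => BoxA_swap n h1 β a b per x y i ⟨0, h1⟩, div_le_iff₀ hZ]
  simp only [Finset.sum_const, Finset.card_univ, Fintype.card_fin, nsmul_eq_mul]
  rw [integral_const_mul] at key
  rw [mul_assoc]
  exact mul_le_mul_of_nonneg_left key (Nat.cast_nonneg n)

end Vale.Agent.P163N
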