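import Vale.Agent.P163N.Alg
import Vale.Agent.P163.Sym
import Vale.Agent.P163.Trans

open MeasureTheory Vale.Agent.P163

namespace Vale.Agent.P163N

variable {om : Measure S4} [IsProbabilityMeasure om] {ν : Measure unitInterval}
  {η : Measure Circle} {Λ : Finset Site} {K : Site → Site → ℝ}

theorem Ward_grp (i j : Fin 3) (s t : ℝ) (v : Fin 4 → ℝ) :
    WardF_R i j s (WardF_R i j t v) = WardF_R i j (s + t) v := by
  have e : ∀ r u, WardF_R i j r u = u + Real.sin r • WardF_L i j u +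
      (1 - Real.cos r) • WardF_L i j (WardF_L i j u) := fun _ _ => rfl
  rw [e s, e t, e (s + t)]
  simp only [map_add, map_smul, WardF_L3, map_neg, Real.sin_add, Real.cos_add]
  module

theorem Ward_ro_add (i j : Fin 3) (φ : Site → ℝ) (s t : ℝ) (σ : XX) :
    ro i j φ s (ro i j φ t σ) = ro i j φ (s + t) σ := by
  funext x
  apply Subtype.ext
  simp only [ro, sph, Ward_grp, add_mul]

omit [IsProbabilityMeasure om] in
theorem Ward_mp (h : Model om ν η) (i j : Fin 3) (φ : Site → ℝ) (t : ℝ) :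
    MeasurePreserving (ro i j φ t) (pm om) (pm om) := by
  have := h.pom
  have hm := fun x : Site => h.inv _ (WardF_R_norm i j (t * φ x)) (WardF_R_three i j _)
  refine ⟨(continuous_ro i j φ t).measurable, ?_⟩
  refine (Measure.infinitePi_map_pi (μ := fun _ : Site => om) fun x => (hm x).measurable).trans ?_
  congr 1
  funext y
  exact (hm y).map_eq

theorem Ward_main (h : Model om ν η) {i j : Fin 3} {φ : Site → ℝ} {G G' : CA}
    (hG : Gen i j φ G G') : II om G' = 0 := by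
  have hd : ∀ σ t, HasDerivAt (fun s => G (ro i j φ s σ)) (G' (ro i j φ t σ)) t := fun σ t => by
    have h1 := hG (ro i j φ t σ)
    rw [← sub_self t] at h1
    simpa only [Ward_ro_add, sub_add_cancel] using h1.comp_sub_const t t
  have key := hasDerivAt_integral_of_dominated_loc_of_deriv_le (μ := pm om) (x₀ := (0 : ℝ))
    (s := Set.univ) (F := fun t σ => G (ro i j φ t σ)) (F' := fun t σ => G' (ro i j φ t σ))
    (bound := fun _ => ‖G'‖) Filter.univ_mem
    (Filter.Eventually.of_forall fun t =>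
      (G.continuous.comp (continuous_ro i j φ t)).aestronglyMeasurable)
    (ca_int _ (G.continuous.comp (continuous_ro i j φ 0)))
    (G'.continuous.comp (continuous_ro i j φ 0)).aestronglyMeasurable
    (Filter.Eventually.of_forall fun σ t _ => G'.norm_coe_le_norm _) (integrable_const _)
    (Filter.Eventually.of_forall fun σ t _ => hd σ t)
  have hconst : (fun t => ∫ σ, G (ro i j φ t σ) ∂pm om) = fun _ => ∫ σ, G σ ∂pm om := by
    funext t
    have hmp := Ward_mp h i j φ t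
    have h1 := integral_map (μ := pm om) hmp.measurable.aemeasurable
      (f := fun σ => G σ) G.continuous.aestronglyMeasurable
    rw [hmp.map_eq] at h1
    exact h1.symm
  have h2 := key.2
  rw [hconst] at h2
  have h3 := h2.unique (hasDerivAt_const _ _)
  simpa only [ro_zero, II_apply] using h3

/-- the antisymmetric pairing -/
def Ward_c (i j : Fin 3) (σ : XX) (x y : Site) : ℝ :=
  (σ x).1 i.castSucc * (σ y).1 j.castSucc - (σ x).1 j.castSucc * (σ y).1 i.castSucc

theorem Ward_ham (Λ : Finset Site) (K : Site → Site → ℝ) (i j : Fin 3) (φ : Site → ℝ) (σ : XX) :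
    HasDerivAt (fun t => ham Λ K (ro i j φ t σ))
      (∑ x ∈ Λ, ∑ y ∈ Λ, K x y * ((φ x - φ y) * Ward_c i j σ x y)) 0 := by
  have h1 : ∀ x k, HasDerivAt (fun t => (ro i j φ t σ x).1 k) (WardF_L i j (σ x).1 k * φ x) 0 := by
    intro x k
    have h2 := (WardF_R_deriv i j (σ x).1 k (0 * φ x)).comp 0 (hasDerivAt_mul_const (φ x))
    have e : WardF_R i j (0 * φ x) (σ x).1 = (σ x).1 :=
      congrArg Subtype.val (congrFun (ro_zero i j φ σ) x)
    rw [e] at h2
    exact h2
  refine HasDerivAt.fun_sum fun x _ => HasDerivAt.fun_sum fun y _ => HasDerivAt.const_mul _ ?_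
  refine (HasDerivAt.fun_sum (u := Finset.univ) fun k _ => (h1 x k).fun_mul (h1 y k)).congr_deriv ?_
  have a := WardF_dot i j (σ x).1 (σ y).1
  have b := WardF_dot i j (σ y).1 (σ x).1
  simp only [ro_zero, Ward_c, Fin.sum_univ_four] at a b ⊢
  linear_combination φ x * a + φ y * b

theorem Ward_count {s : ℝ} {x y : Site} (h : s ≠ 0 → ∃ μ, y = x + ee μ ∨ x = y + ee μ) :
    s = ∑ μ, ((if y = x + ee μ then s else 0) + if x = y + ee μ then s else 0) := by
  by_cases hs : s = 0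
  · simp [hs]
  obtain ⟨μ, hμ⟩ := h hs
  obtain ⟨x1, x2⟩ := x
  obtain ⟨y1, y2⟩ := y
  simp only [Fin.sum_univ_two, ee0, ee1, Prod.mk_add_mk, Prod.mk.injEq]
  fin_cases μ <;> simp only [Fin.zero_eta, Fin.mk_one, ee0, ee1, Prod.mk_add_mk,
    Prod.mk.injEq] at hμ <;> split_ifs <;> first | omega | ring

theorem Ward_alg {β : ℝ} {Ω : Set Site} (hN : Nice β Ω Λ K) (i j : Fin 3)
    (φ : Site → ℝ) (T : Finset Site) (hφ : ∀ x, φ x ≠ 0 → x ∈ Ω)
    (hT : ∀ μ x, gd φ μ x ≠ 0 → x ∈ T) (σ : XX) :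
    ∑ x ∈ Λ, ∑ y ∈ Λ, K x y * ((φ x - φ y) * Ward_c i j σ x y) =
      -jc (JJ Ω Λ K) i j T (gd φ) σ := by
  obtain ⟨s, hs⟩ : ∃ s : Site → Site → ℝ,
      ∀ x y, s x y = symK Λ K x y * ((φ x - φ y) * Ward_c i j σ x y) := ⟨_, fun _ _ => rfl⟩
  have sK : ∀ x y, symK Λ K x y = symK Λ K y x := fun x y => by
    simp only [symK, and_comm, add_comm]
  have sy : ∀ x y, s x y = s y x := fun x y => by
    rw [hs, hs, sK]
    unfold Ward_c
    ring
  have s0 : ∀ x y, y ∉ Λ → s x y = 0 := fun x y hy => by simp [hs, symK, hy]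
  have e1 : 2 * ∑ x ∈ Λ, ∑ y ∈ Λ, K x y * ((φ x - φ y) * Ward_c i j σ x y) =
      ∑ x ∈ Λ, ∑ y ∈ Λ, s x y := by
    rw [two_mul]
    nth_rw 2 [Finset.sum_comm]
    simp only [← Finset.sum_add_distrib]
    refine Finset.sum_congr rfl fun x hx => Finset.sum_congr rfl fun y hy => ?_
    rw [hs, symK, if_pos ⟨hx, hy⟩]
    unfold Ward_c
    ring
  have e2 : ∑ x ∈ Λ, ∑ y ∈ Λ, ∑ μ, (if y = x + ee μ then s x y else 0) =
      ∑ x ∈ Λ, ∑ μ, s x (x + ee μ) := by
    refine Finset.sum_congr rfl fun x _ => ?_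
    rw [Finset.sum_comm]
    refine Finset.sum_congr rfl fun μ _ => ?_
    rw [Finset.sum_ite_eq']
    split_ifs with h
    · rfl
    · exact (s0 _ _ h).symm
  have e3 : ∑ x ∈ Λ, ∑ y ∈ Λ, s x y = 2 * ∑ x ∈ Λ, ∑ μ, s x (x + ee μ) := by
    have hc : ∀ x y, s x y ≠ 0 → ∃ μ, y = x + ee μ ∨ x = y + ee μ := fun x y h => by
      rw [hs] at h
      have h1 := left_ne_zero_of_mul h
      have h2 := left_ne_zero_of_mul (right_ne_zero_of_mul h)
      by_cases hx : φ x = 0
      · refine (hN.nb y (hφ y fun hy => h2 (by rw [hx, hy, sub_self])) x (sK x y ▸ h1)).imp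
          fun _ => Or.symm
      · exact hN.nb x (hφ x hx) y h1
    rw [Finset.sum_congr rfl fun x _ => Finset.sum_congr rfl fun y _ => Ward_count (hc x y)]
    simp only [Finset.sum_add_distrib]
    rw [two_mul, e2]
    congr 1
    rw [Finset.sum_comm, ← e2]
    simp only [sy]
  have e4 : ∀ x μ, s x (x + ee μ) = -(gd φ μ x • cu (JJ Ω Λ K) i j μ x) σ := fun x μ => by
    simp only [hs, cu, JJ, gd, Ward_c, ContinuousMap.smul_apply, ContinuousMap.sub_apply,
      ContinuousMap.mul_apply, sx_apply, smul_eq_mul]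
    split_ifs with h
    · ring
    · rw [not_or] at h
      rw [not_imp_comm.1 (hφ _) h.1, not_imp_comm.1 (hφ _) h.2]
      ring
  have e5 : ∑ x ∈ Λ, ∑ μ, s x (x + ee μ) = ∑ x ∈ T, ∑ μ, s x (x + ee μ) := by
    refine (Finset.sum_subset (Finset.subset_union_left (s₂ := T)) fun x _ hx =>
      Finset.sum_eq_zero fun μ _ => (sy _ _).trans (s0 _ _ hx)).trans
      (Finset.sum_subset Finset.subset_union_right fun x _ hx =>
        Finset.sum_eq_zero fun μ _ => ?_).symm
    rw [e4, not_imp_comm.1 (hT μ x) hx, zero_smul, ContinuousMap.zero_apply, neg_zero]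
  have e6 : ∑ x ∈ T, ∑ μ, s x (x + ee μ) = -jc (JJ Ω Λ K) i j T (gd φ) σ := by
    simp only [e4, jc, ContinuousMap.sum_apply, Finset.sum_neg_distrib]
  linarith

/-- Ward identity -/
theorem EE_ward (h : Model om ν η) {β : ℝ} {Ω : Set Site} (hN : Nice β Ω Λ K) (i j : Fin 3)
    (φ : Site → ℝ) (T : Finset Site) (F F' : CA) (hφ : ∀ x, φ x ≠ 0 → x ∈ Ω)
    (hT : ∀ μ x, gd φ μ x ≠ 0 → x ∈ T) (hF : Gen i j φ F F') :
    EE om Λ K F' = EE om Λ K (F * jc (JJ Ω Λ K) i j T (gd φ)) := by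
  have hw : Gen i j φ (wt Λ K) (-(jc (JJ Ω Λ K) i j T (gd φ) * wt Λ K)) := fun σ => by
    refine (Ward_ham Λ K i j φ σ).exp.congr_deriv ?_
    rw [Ward_alg hN i j φ T hφ hT, ro_zero, ContinuousMap.neg_apply, ContinuousMap.mul_apply,
      wt_apply]
    ring
  have h1 := Ward_main h (hF.mul hw)
  rw [mul_neg, map_add, map_neg, ← mul_assoc] at h1
  rw [EE_apply, EE_apply]
  congr 1
  linarith

end Vale.Agent.P163N
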