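import Vale.Agent.P163N.Dec
import Vale.Agent.P163N.Asi
import Vale.Agent.P163N.Opb
import Vale.Agent.P163N.Edec
import Vale.Agent.P163N.Loc
import Vale.Agent.P163N.Ward
import Vale.Agent.P163N.Mom
import Vale.Agent.P163N.Red

open MeasureTheory Vale.Agent.P163

namespace Vale.Agent.P163N

theorem core (b : ℝ) (hb : 0 < b) : ∃ (C m : ℝ) (R : ℤ), 0 ≤ C ∧ 0 < m ∧
    ∀ (Ω : Set Site) (J : Fin 2 → Site → ℝ) (E : CA →ₗ[ℝ] ℝ) (P : Finset Site → CA →ₗ[ℝ] CA),
      Sys b Ω J E P → ∀ (x z : Site) (r : ℤ), z ∈ bal x r → (bal x (r + R) : Set Site) ⊆ Ω →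
        GG E x z ≤ C * Real.exp (-m * ed x z) := by
  obtain ⟨l0, hl0, hd⟩ := dec b (1 / 329 ^ 2) (by positivity)
  obtain ⟨l, lam, hl, hlam, hs, ho⟩ := op_small (1 / (24 * b)) (by positivity) l0 hl0
  have hs' : 24 * b * lam ≤ l := by
    have := mul_le_mul_of_nonneg_left hs (by positivity : 0 ≤ 24 * b)
    rwa [← mul_assoc, mul_one_div_cancel (by positivity), one_mul] at this
  obtain ⟨C, m, R, hC, hm, he⟩ := exp_dec b lam hb.le hlam l hl hs'
  exact ⟨C, m, R, hC, hm, fun Ω J E P h =>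
    he Ω (GG E) h.ker h.asi (ho Ω (GG E) h.ker (hd Ω J E P h))⟩

theorem sys_model {om : Measure S4} [IsProbabilityMeasure om] {ν : Measure unitInterval}
    {η : Measure Circle} (h : Model om ν η) {β : ℝ} (hβ : 0 ≤ β) {Ω : Set Site}
    {Λ : Finset Site} {K : Site → Site → ℝ} (hN : Nice β Ω Λ K) :
    Sys (cb β) Ω (JJ Ω Λ K) (EE om Λ K) (PP om Λ K) := by
  have he := Real.exp_pos β
  exact
    { b1 := by unfold cb; linarith
      J0 := JJ_nonneg hN
      J1 := fun μ x => (JJ_le hβ hN μ x).trans (by unfold cb; linarith)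
      one := EE_one
      pos := EE_pos
      Pone := PP_one
      Ppos := PP_pos
      Pmul := PP_mul
      EP := EE_PP
      tower := PP_tower
      loc := PP_loc hN
      equi := PP_equi h
      ward := EE_ward h hN
      mom := fun i j hij S V => (EE_mom h hβ hN i j hij S V).trans
        (mul_le_mul_of_nonneg_right (by unfold cb; linarith) (sq_nonneg _))
      g2 := EE_g2 h hN.nn
      sym := EE_sym h
      grif := EE_grif h hN.nn
      neg := EE_neg h hN.nn }

theorem nice_box {β : ℝ} (hβ : 0 ≤ β) (a b : Site) (per : Bool) (r : Site → ℝ)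
    (hr : ∀ z, 0 ≤ r z ∧ r z ≤ 1) :
    Nice β {z | a.1 < z.1 ∧ z.1 < b.1 ∧ a.2 < z.2 ∧ z.2 < b.2} (box a b)
      fun u v => kx β a b per u v * (r u * r v) := by
  have hk : ∀ u v, 0 ≤ kx β a b per u v := by
    intro u v
    unfold kx
    split_ifs <;> linarith
  have key : ∀ x : Site, a.1 < x.1 ∧ x.1 < b.1 ∧ a.2 < x.2 ∧ x.2 < b.2 → ∀ y,
      kx β a b per x y + kx β a b per y x ≤ β ∧ (kx β a b per x y + kx β a b per y x ≠ 0 →
        ∃ μ, y = x + ee μ ∨ x = y + ee μ) := by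
    intro x hx y
    simp only [kx, Fin.exists_fin_two, ee0, ee1, Prod.ext_iff, Prod.fst_add, Prod.snd_add]
    split_ifs <;> first | omega | (constructor; linarith; intro h; first | omega | simp at h)
  have hrr : ∀ u v, 0 ≤ r u * r v ∧ r u * r v ≤ 1 := fun u v =>
    ⟨mul_nonneg (hr u).1 (hr v).1, mul_le_one₀ (hr u).2 (hr v).1 (hr v).2⟩
  refine ⟨fun u v => mul_nonneg (hk u v) (hrr u v).1, fun x hx y hne => (key x hx y).2 ?_,
    fun x hx y => ?_⟩
  · intro e
    have e1 : kx β a b per x y = 0 := by linarith [hk x y, hk y x]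
    have e2 : kx β a b per y x = 0 := by linarith [hk x y, hk y x]
    simp [symK, e1, e2] at hne
  · unfold symK
    split_ifs
    · have h1 := mul_le_of_le_one_right (hk x y) (hrr x y).2
      have h2 := mul_le_of_le_one_right (hk y x) (hrr y x).2
      linarith [(key x hx y).1]
    · exact hβ

theorem main (n : ℕ) (hn : 3 ≤ n) (β : ℝ) (hβ : 0 < β) :
    ∃ C m : ℝ, 0 < m ∧ ∀ μ : Measure (Site → Spin n), IsState n β μ → ∀ x y : Site,
      ∫ σ, inner ℝ (σ x).1 (σ y).1 ∂μ ≤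
        C * Real.exp (-m * Real.sqrt (((x.1 : ℝ) - y.1) ^ 2 + ((x.2 : ℝ) - y.2) ^ 2)) := by
  obtain ⟨C, m, R, hC, hm, hcore⟩ := core (cb β) (by unfold cb; positivity)
  obtain ⟨ν, hM⟩ := model3
  refine ⟨n * C, m, hm, fun μ hμ x y => ?_⟩
  obtain ⟨-, a, b, per, hex, hlim⟩ := hμ
  have hx : x ∈ ({x, y} : Finset Site) := by simp
  have hy : y ∈ ({x, y} : Finset Site) := by simp
  have hl := hlim {x, y} (fun τ => inner ℝ (τ ⟨x, hx⟩).1 (τ ⟨y, hy⟩).1) (by fun_prop)
  simp only [Finset.restrict] at hl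
  refine le_of_tendsto hl ?_
  set r : ℤ := |x.1 - y.1| + |x.2 - y.2| with hr
  have hyr : y ∈ bal x r := by
    have h1 := abs_le.1 (le_refl |x.1 - y.1|)
    have h2 := abs_le.1 (le_refl |x.2 - y.2|)
    have h3 := abs_nonneg (x.1 - y.1)
    have h4 := abs_nonneg (x.2 - y.2)
    rw [mem_bal]
    omega
  filter_upwards [hex (x.1 - (r + R) - 1, x.2 - (r + R) - 1),
    hex (x.1 + (r + R) + 1, x.2 + (r + R) + 1)] with k h1 h2
  rw [mul_assoc]
  refine red n hn β (a k) (b k) (per k) x y _ (by positivity) fun ρ hρ => ?_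
  refine hcore _ _ _ _ (sys_model (om := om3) hM hβ.le (nice_box hβ.le (a k) (b k) (per k) ρ hρ))
    x y r hyr fun z hz => ?_
  simp only [box, Finset.mem_product, Finset.mem_Icc, Finset.mem_coe, mem_bal,
    Set.mem_ofPred_eq] at h1 h2 hz ⊢
  omega

end Vale.Agent.P163N
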