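import Vale.Agent.P163N.Defs

open MeasureTheory Vale.Agent.P163

namespace Vale.Agent.P163N

theorem Mix_rad_cont {n : ℕ} : Continuous fun s : Spin n => rad s := by
  refine Real.continuous_sqrt.comp (continuous_finsetSum _ fun i _ => ?_)
  split_ifs
  · fun_prop
  · exact continuous_const

theorem continuous_mix {n : ℕ} (hn : 3 ≤ n) :
    Continuous fun p : Spin n × Spin 3 => mix hn p.1 p.2 := by
  refine Continuous.subtype_mk ?_ _
  refine (PiLp.continuous_toLp 2 _).comp (continuous_pi fun i => ?_)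
  by_cases h : (i : ℕ) < 3
  · simp only [h, dif_pos]
    exact (Mix_rad_cont.comp continuous_fst).mul (by fun_prop)
  · simp only [h, dif_neg, not_false_eq_true]
    fun_prop

abbrev MixE (n : ℕ) := EuclideanSpace ℝ (Fin n)

instance Mix_star : ContinuousStar (MixE 3 →L[ℝ] MixE 3) :=
  ⟨(ContinuousLinearMap.adjoint (𝕜 := ℝ) (E := MixE 3) (F := MixE 3)).continuous⟩

abbrev MixG : Type := unitary (MixE 3 →L[ℝ] MixE 3)

theorem Mix_norm (g : MixG) (v : MixE 3) : ‖(g : MixE 3 →L[ℝ] MixE 3) v‖ = ‖v‖ :=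
  (Unitary.linearIsometryEquiv g).norm_map v

instance Mix_compact : CompactSpace MixG := by
  refine isCompact_iff_compactSpace.1 (Metric.isCompact_of_isClosed_isBounded isClosed_unitary ?_)
  refine (Metric.isBounded_closedBall (x := 0) (r := 1)).subset fun g hg => ?_
  rw [mem_closedBall_zero_iff]
  exact ContinuousLinearMap.opNorm_le_bound _ zero_le_one fun v => by
    rw [one_mul]; exact (Mix_norm ⟨g, hg⟩ v).le

/-- the action on the two-sphere -/
noncomputable def MixAct (g : MixG) (a : Spin 3) : Spin 3 :=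
  ⟨(g : MixE 3 →L[ℝ] MixE 3) a.1, by simp [Mix_norm]⟩

theorem MixAct_cont : Continuous fun p : MixG × Spin 3 => MixAct p.1⁻¹ p.2 := by
  refine Continuous.subtype_mk ?_ _
  exact ((continuous_subtype_val.comp (continuous_inv.comp continuous_fst)).clm_apply
    (continuous_subtype_val.comp continuous_snd))

theorem MixAct_mul (g h : MixG) (a : Spin 3) : MixAct (g * h) a = MixAct g (MixAct h a) := rfl

theorem MixAct_trans (a b : Spin 3) : ∃ h : MixG, MixAct h a = b := by
  refine ⟨Unitary.linearIsometryEquiv.symm (ℝ ∙ (a.1 - b.1))ᗮ.reflection, Subtype.ext ?_⟩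
  exact Submodule.reflection_sub (by simp)

theorem MixAct_mp (g : MixG) : MeasurePreserving (MixAct g) (unif 3) (unif 3) :=
  unif_inv 3 (Unitary.linearIsometryEquiv g)

/-- the first three components -/
def MixP {n : ℕ} (hn : 3 ≤ n) (x : MixE n) : MixE 3 := WithLp.toLp 2 fun k => x (Fin.castLE hn k)

/-- the action on the first three components -/
noncomputable def MixL {n : ℕ} (hn : 3 ≤ n) (g : MixG) : MixE n →ₗᵢ[ℝ] MixE n where
  toFun x := WithLp.toLp 2 fun i =>
    if h : (i : ℕ) < 3 then (g : MixE 3 →L[ℝ] MixE 3) (MixP hn x) ⟨i, h⟩ else x i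
  map_add' x y := by
    have e : MixP hn (x + y) = MixP hn x + MixP hn y := rfl
    ext i
    by_cases h : (i : ℕ) < 3 <;> simp [h, e]
  map_smul' c x := by
    have e : MixP hn (c • x) = c • MixP hn x := rfl
    ext i
    by_cases h : (i : ℕ) < 3 <;> simp [h, e]
  norm_map' x := by
    refine (sq_eq_sq₀ (norm_nonneg _) (norm_nonneg _)).1 ?_
    have h1 := congrArg (· ^ 2) (Mix_norm g (MixP hn x))
    simp only [EuclideanSpace.real_norm_sq_eq] at h1 ⊢
    rw [← sum_lt3 hn, ← sum_lt3 hn, ← sub_eq_zero, ← Finset.sum_sub_distrib] at h1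
    rw [← sub_eq_zero, ← Finset.sum_sub_distrib, ← h1]
    refine Finset.sum_congr rfl fun i _ => ?_
    by_cases h : (i : ℕ) < 3 <;> simp [h, MixP]

/-- the action on the big sphere -/
noncomputable def MixN {n : ℕ} (hn : 3 ≤ n) (g : MixG) (s : Spin n) : Spin n :=
  ⟨MixL hn g s.1, by simp⟩

theorem MixN_mp {n : ℕ} (hn : 3 ≤ n) (g : MixG) : MeasurePreserving (MixN hn g) (unif n) (unif n) :=
  unif_inv n ((MixL hn g).toLinearIsometryEquiv rfl)

theorem MixN_mix {n : ℕ} (hn : 3 ≤ n) (g : MixG) (s : Spin n) (a : Spin 3) :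
    MixN hn g (mix hn s a) = mix hn s (MixAct g a) := by
  have e : MixP hn (mixv s a) = rad s • a.1 := by
    ext k
    simp [MixP, mixv]
  refine Subtype.ext ?_
  ext i
  change (if h : (i : ℕ) < 3 then (g : MixE 3 →L[ℝ] MixE 3) (MixP hn (mixv s a)) ⟨i, h⟩
    else mixv s a i) = mixv s (MixAct g a) i
  rw [e]
  by_cases h : (i : ℕ) < 3 <;> simp [h, mixv, MixAct]

theorem Mix_surj {n : ℕ} (hn : 3 ≤ n) (s : Spin n) : ∃ a, mix hn s a = s := by
  have hr : rad s = ‖MixP hn s.1‖ := by
    rw [rad, EuclideanSpace.norm_eq, ← sum_lt3 hn]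
    congr 1
    refine Finset.sum_congr rfl fun i _ => ?_
    by_cases h : (i : ℕ) < 3 <;> simp [h, MixP]
  have key : ∀ a : Spin 3, rad s • a.1 = MixP hn s.1 → mix hn s a = s := by
    intro a ha
    refine Subtype.ext ?_
    ext i
    change mixv s a i = s.1 i
    by_cases h : (i : ℕ) < 3
    · have := congrArg (fun v : MixE 3 => v ⟨i, h⟩) ha
      simpa [mixv, h, MixP] using this
    · simp [mixv, h]
  by_cases h0 : MixP hn s.1 = 0
  · exact ⟨⟨EuclideanSpace.single 0 1, by simp⟩, key _ (by rw [hr, h0]; simp)⟩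
  · have h1 : ‖MixP hn s.1‖ ≠ 0 := norm_ne_zero_iff.2 h0
    refine ⟨⟨‖MixP hn s.1‖⁻¹ • MixP hn s.1, by simp [norm_smul, h1]⟩, key _ ?_⟩
    rw [hr, smul_smul, mul_inv_cancel₀ h1, one_smul]

theorem MixN_cont {n : ℕ} (hn : 3 ≤ n) :
    Continuous fun p : MixG × Spin n => MixN hn p.1⁻¹ p.2 := by
  refine Continuous.subtype_mk ?_ _
  refine (PiLp.continuous_toLp 2 _).comp (continuous_pi fun i => ?_)
  by_cases h : (i : ℕ) < 3
  · simp only [h, dif_pos]
    have h1 : Continuous fun p : MixG × Spin n => MixP hn p.2.1 :=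
      (PiLp.continuous_toLp 2 _).comp (continuous_pi fun k => by fun_prop)
    have h2 := (continuous_subtype_val.comp (continuous_inv.comp continuous_fst)).clm_apply h1
    exact (EuclideanSpace.proj (⟨i, h⟩ : Fin 3)).continuous.comp h2
  · simp only [h, dif_neg, not_false_eq_true]
    fun_prop

noncomputable instance Mix_ms : MeasurableSpace MixG := borel MixG

instance Mix_bs : BorelSpace MixG := ⟨rfl⟩

instance Mix_sc : SecondCountableTopology MixG := inferInstance

instance Mix_tg : IsTopologicalGroup MixG := inferInstance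

/-- Haar probability measure -/
noncomputable def MixR : Measure MixG := Measure.haarMeasure ⊤

instance Mix_prob : IsProbabilityMeasure MixR := ⟨by
  simpa [MixR] using
    Measure.haarMeasure_self (K₀ := (⊤ : TopologicalSpace.PositiveCompacts MixG))⟩

instance Mix_inv : MixR.IsMulLeftInvariant := Measure.isMulLeftInvariant_haarMeasure _

theorem MixAct_meas : Measurable fun p : MixG × Spin 3 => MixAct p.1⁻¹ p.2 :=
  MixAct_cont.measurable

theorem MixN_meas {n : ℕ} (hn : 3 ≤ n) :
    Measurable fun p : MixG × Spin n => MixN hn p.1⁻¹ p.2 := (MixN_cont hn).measurable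

theorem Mix_const (f : Spin 3 → ENNReal) (a b : Spin 3) :
    ∫⁻ g, f (MixAct g⁻¹ b) ∂MixR = ∫⁻ g, f (MixAct g⁻¹ a) ∂MixR := by
  obtain ⟨h, rfl⟩ := MixAct_trans a b
  rw [← lintegral_mul_left_eq_self (fun g => f (MixAct g⁻¹ (MixAct h a))) h]
  refine lintegral_congr fun g => ?_
  rw [← MixAct_mul, mul_inv_rev, inv_mul_cancel_right]

theorem Mix_avg (f : Spin 3 → ENNReal) (hf : Measurable f) (a : Spin 3) :
    ∫⁻ g, f (MixAct g⁻¹ a) ∂MixR = ∫⁻ u, f u ∂unif 3 := by
  have := unif_prob 3 (by norm_num)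
  have m1 : Measurable fun p : MixG × Spin 3 => f (MixAct p.1⁻¹ p.2) := hf.comp MixAct_meas
  calc ∫⁻ g, f (MixAct g⁻¹ a) ∂MixR = ∫⁻ b, ∫⁻ g, f (MixAct g⁻¹ b) ∂MixR ∂unif 3 := by
        rw [lintegral_congr fun b => Mix_const f a b, lintegral_const, measure_univ, mul_one]
    _ = ∫⁻ g, ∫⁻ b, f (MixAct g⁻¹ b) ∂unif 3 ∂MixR :=
        (lintegral_lintegral_swap m1.aemeasurable).symm
    _ = ∫⁻ _, ∫⁻ u, f u ∂unif 3 ∂MixR :=
        lintegral_congr fun g => (MixAct_mp g⁻¹).lintegral_comp hf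
    _ = _ := by rw [lintegral_const, measure_univ, mul_one]

theorem Mix_inner {n : ℕ} (hn : 3 ≤ n) (f : Spin n → ENNReal) (hf : Measurable f) (s : Spin n) :
    ∫⁻ u, f (mix hn s u) ∂unif 3 = ∫⁻ g, f (MixN hn g⁻¹ s) ∂MixR := by
  obtain ⟨a, ha⟩ := Mix_surj hn s
  have m : Measurable fun u : Spin 3 => mix hn s u :=
    ((continuous_mix hn).comp (continuous_const.prodMk continuous_id)).measurable
  refine (Mix_avg (fun u => f (mix hn s u)) (hf.comp m) a).symm.trans ?_
  refine lintegral_congr fun g => ?_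
  rw [← MixN_mix, ha]

theorem Mix_outer {n : ℕ} (hn : 3 ≤ n) (f : Spin n → ENNReal) (hf : Measurable f) :
    ∫⁻ s, ∫⁻ g, f (MixN hn g⁻¹ s) ∂MixR ∂unif n = ∫⁻ s, f s ∂unif n := by
  have := unif_prob n (by omega)
  have m2 : Measurable fun p : MixG × Spin n => f (MixN hn p.1⁻¹ p.2) := hf.comp (MixN_meas hn)
  have e1 := lintegral_lintegral_swap (μ := MixR) (ν := unif n)
    (f := fun g s => f (MixN hn g⁻¹ s)) m2.aemeasurable
  rw [← e1, lintegral_congr fun g => (MixN_mp hn g⁻¹).lintegral_comp hf, lintegral_const,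
    measure_univ, mul_one]

/-- resampling the direction of the first three components preserves the uniform measure -/
theorem mix_mp {n : ℕ} (hn : 3 ≤ n) :
    MeasurePreserving (fun p : Spin n × Spin 3 => mix hn p.1 p.2) ((unif n).prod (unif 3))
      (unif n) := by
  have := unif_prob 3 (by norm_num)
  have := unif_prob n (by omega)
  have mp := (continuous_mix hn).measurable
  refine ⟨mp, Measure.ext_of_lintegral _ fun f hf => ?_⟩
  have m1 : Measurable fun p : Spin n × Spin 3 => f (mix hn p.1 p.2) := hf.comp mp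
  rw [lintegral_map hf mp, lintegral_prod _ m1.aemeasurable, ← Mix_outer hn f hf]
  exact lintegral_congr fun s => Mix_inner hn f hf s

end Vale.Agent.P163N
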