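import Vale.Agent.P163N.Alg

open MeasureTheory Vale.Agent.P163

namespace Vale.Agent.P163N

variable {b : ℝ} {Ω : Set Site} {J : Fin 2 → Site → ℝ} {E : CA →ₗ[ℝ] ℝ}
  {P : Finset Site → CA →ₗ[ℝ] CA}

theorem Sys.mono (h : Sys b Ω J E P) {F G : CA} (hFG : ∀ σ, F σ ≤ G σ) : E F ≤ E G := by
  have := h.pos (G - F) fun σ => sub_nonneg.2 (hFG σ)
  rw [map_sub] at this
  linarith

theorem Sys.sq_nonneg (h : Sys b Ω J E P) (F : CA) : 0 ≤ E (F ^ 2) :=
  h.pos _ fun σ => _root_.sq_nonneg (F σ)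

theorem n2_nonneg (E : CA →ₗ[ℝ] ℝ) (F : CA) : 0 ≤ n2 E F := Real.sqrt_nonneg _

theorem n4_nonneg (E : CA →ₗ[ℝ] ℝ) (F : CA) : 0 ≤ n4 E F := Real.sqrt_nonneg _

theorem Sys.n2_sq (h : Sys b Ω J E P) (F : CA) : n2 E F ^ 2 = E (F ^ 2) :=
  Real.sq_sqrt (h.sq_nonneg F)

theorem Sys.cs (h : Sys b Ω J E P) (F G : CA) : |E (F * G)| ≤ n2 E F * n2 E G := by
  have h1 : ∀ t : ℝ, 0 ≤ E (F ^ 2) * (t * t) + 2 * E (F * G) * t + E (G ^ 2) := by
    intro t
    have e : (t • F + G) ^ 2 = (t * t) • F ^ 2 + (2 * t) • (F * G) + G ^ 2 := by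
      ext σ
      simp only [ContinuousMap.add_apply, ContinuousMap.mul_apply, ContinuousMap.smul_apply,
        ContinuousMap.pow_apply, smul_eq_mul]
      ring
    have := h.sq_nonneg (t • F + G)
    rw [e, map_add, map_add, map_smul, map_smul, smul_eq_mul, smul_eq_mul] at this
    linarith
  have h2 := discrim_le_zero h1
  refine abs_le_of_sq_le_sq ?_ (mul_nonneg (n2_nonneg E F) (n2_nonneg E G))
  rw [mul_pow, h.n2_sq, h.n2_sq]
  unfold discrim at h2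
  linarith

theorem Nrm_n4 (E : CA →ₗ[ℝ] ℝ) (F : CA) : n4 E F = Real.sqrt (n2 E (F ^ 2)) := by
  unfold n4 n2
  rw [← pow_mul]

theorem Sys.n2_mul (h : Sys b Ω J E P) (F G : CA) : n2 E (F * G) ≤ n4 E F * n4 E G := by
  rw [Nrm_n4, Nrm_n4, ← Real.sqrt_mul (n2_nonneg E _)]
  refine Real.sqrt_le_sqrt ?_
  rw [mul_pow]
  exact (le_abs_self _).trans (h.cs _ _)

theorem Sys.hold (h : Sys b Ω J E P) (F G H : CA) :
    |E (F * G * H)| ≤ n4 E F * n4 E G * n2 E H :=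
  (h.cs _ _).trans (mul_le_mul_of_nonneg_right (h.n2_mul F G) (n2_nonneg E H))

theorem Sys.n2_add (h : Sys b Ω J E P) (F G : CA) : n2 E (F + G) ≤ n2 E F + n2 E G := by
  refine Real.sqrt_le_iff.2 ⟨add_nonneg (n2_nonneg E F) (n2_nonneg E G), ?_⟩
  have e : (F + G) ^ 2 = F ^ 2 + (F * G + F * G) + G ^ 2 := by ring
  have h1 := (le_abs_self _).trans (h.cs F G)
  rw [e, map_add, map_add, map_add, add_sq, h.n2_sq, h.n2_sq]
  linarith

theorem n2_neg (E : CA →ₗ[ℝ] ℝ) (F : CA) : n2 E (-F) = n2 E F := by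
  unfold n2
  rw [neg_sq]

theorem Sys.n2_sub (h : Sys b Ω J E P) (F G : CA) : n2 E (F - G) ≤ n2 E F + n2 E G := by
  rw [sub_eq_add_neg, ← n2_neg E G]
  exact h.n2_add F (-G)

theorem Sys.n2_le_n4 (h : Sys b Ω J E P) (F : CA) : n2 E F ≤ n4 E F := by
  have h1 := h.n2_mul F 1
  have h2 : n4 E 1 = 1 := by
    unfold n4
    rw [one_pow, h.one, Real.sqrt_one, Real.sqrt_one]
  rwa [mul_one, h2, mul_one] at h1

theorem Nrm_const (h : Sys b Ω J E P) (c : ℝ) : E (c • (1 : CA)) = c := by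
  rw [map_smul, h.one, smul_eq_mul, mul_one]

theorem Sys.n2_le (h : Sys b Ω J E P) {F : CA} {c : ℝ} (hc : ∀ σ, |F σ| ≤ c) : n2 E F ≤ c := by
  have : Nonempty XX := by
    by_contra hn
    have h0 : (1 : CA) = 0 := ContinuousMap.ext fun σ => (hn ⟨σ⟩).elim
    have h1 := h.one
    rw [h0, map_zero] at h1
    exact zero_ne_one h1
  have h0 : 0 ≤ c := (abs_nonneg _).trans (hc (Classical.arbitrary XX))
  refine Real.sqrt_le_iff.2 ⟨h0, ?_⟩
  rw [← Nrm_const h (c ^ 2)]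
  refine h.mono fun σ => ?_
  simp only [ContinuousMap.pow_apply, ContinuousMap.smul_apply, ContinuousMap.one_apply,
    smul_eq_mul, mul_one]
  exact sq_le_sq' (abs_le.1 (hc σ)).1 (abs_le.1 (hc σ)).2

theorem Nrm_jensen (h : Sys b Ω J E P) (A : Finset Site) (F : CA) (σ : XX) :
    P A F σ ^ 2 ≤ P A (F ^ 2) σ := by
  have e : ∀ c : ℝ, (F - c • (1 : CA)) ^ 2 = F ^ 2 - (2 * c) • F + c ^ 2 • (1 : CA) := by
    intro c
    ext τ
    simp only [ContinuousMap.add_apply, ContinuousMap.sub_apply, ContinuousMap.smul_apply,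
      ContinuousMap.pow_apply, ContinuousMap.one_apply, smul_eq_mul]
    ring
  have h1 := h.Ppos A ((F - P A F σ • (1 : CA)) ^ 2) (fun τ => _root_.sq_nonneg _) σ
  rw [e, map_add, map_sub, map_smul, map_smul, h.Pone] at h1
  simp only [ContinuousMap.add_apply, ContinuousMap.sub_apply, ContinuousMap.smul_apply,
    ContinuousMap.one_apply, smul_eq_mul] at h1
  linarith

theorem Sys.n2_P (h : Sys b Ω J E P) (A : Finset Site) (F : CA) : n2 E (P A F) ≤ n2 E F := by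
  refine Real.sqrt_le_sqrt ?_
  rw [← h.EP A (F ^ 2)]
  exact h.mono (Nrm_jensen h A F)

theorem Sys.n4_P (h : Sys b Ω J E P) (A : Finset Site) (F : CA) : n4 E (P A F) ≤ n4 E F := by
  refine Real.sqrt_le_sqrt (Real.sqrt_le_sqrt ?_)
  rw [← h.EP A (F ^ 4)]
  refine h.mono fun σ => ?_
  have h1 := Nrm_jensen h A F σ
  have h2 := Nrm_jensen h A (F ^ 2) σ
  rw [← pow_mul] at h2
  have h3 : (P A F σ ^ 2) ^ 2 ≤ P A (F ^ 2) σ ^ 2 := pow_le_pow_left₀ (_root_.sq_nonneg _) h1 2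
  rw [← pow_mul] at h3
  exact h3.trans h2

theorem Sys.n4_jc (h : Sys b Ω J E P) {i j : Fin 3} (hij : i < j) (S : Finset Site)
    (V : Fin 2 → Site → ℝ) : n4 E (jc J i j S V) ≤ b * nv S V := by
  have hb := h.b1
  have h0 : 0 ≤ b * nv S V := mul_nonneg (by linarith) (nv_nonneg S V)
  refine Real.sqrt_le_iff.2 ⟨h0, Real.sqrt_le_iff.2 ⟨_root_.sq_nonneg _, ?_⟩⟩
  refine (h.mom i j hij S V).trans ?_
  rw [mul_pow, mul_pow, nv_sq, ← pow_mul]
  exact mul_le_mul_of_nonneg_right (le_self_pow₀ hb (by norm_num)) (_root_.sq_nonneg _)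

theorem Sys.n2_jc (h : Sys b Ω J E P) {i j : Fin 3} (hij : i < j) (S : Finset Site)
    (V : Fin 2 → Site → ℝ) : n2 E (jc J i j S V) ≤ b * nv S V :=
  (h.n2_le_n4 _).trans (h.n4_jc hij S V)

theorem Nrm_cs (S : Finset Site) (V W : Fin 2 → Site → ℝ) :
    ∑ x ∈ S, ∑ μ, |V μ x| * |W μ x| ≤ nv S V * nv S W := by
  have h1 := Real.sum_mul_le_sqrt_mul_sqrt (S ×ˢ (Finset.univ : Finset (Fin 2)))
    (fun p => |V p.2 p.1|) fun p => |W p.2 p.1|
  simp only [sq_abs, Finset.sum_product] at h1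
  exact h1

theorem Sys.n2_ep (h : Sys b Ω J E P) (a : Fin 3) (S : Finset Site) (V W : Fin 2 → Site → ℝ) :
    n2 E (ep J a S fun μ x => V μ x * W μ x) ≤ b * (nv S V * nv S W) := by
  have hb := h.b1
  refine h.n2_le fun σ => ?_
  refine le_trans ?_ (mul_le_mul_of_nonneg_left (Nrm_cs S V W) (by linarith))
  unfold ep
  simp only [ContinuousMap.sum_apply, ContinuousMap.smul_apply, ContinuousMap.mul_apply,
    smul_eq_mul, Finset.mul_sum]
  refine (Finset.abs_sum_le_sum_abs _ _).trans (Finset.sum_le_sum fun x _ => ?_)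
  refine (Finset.abs_sum_le_sum_abs _ _).trans (Finset.sum_le_sum fun μ _ => ?_)
  rw [abs_mul, abs_mul, abs_mul, abs_mul, abs_of_nonneg (h.J0 μ x)]
  have h1 : |sx 2 x σ| * |sx a (x + ee μ) σ| ≤ 1 :=
    mul_le_one₀ (abs_sx_le _ _ _) (abs_nonneg _) (abs_sx_le _ _ _)
  have h2 : 0 ≤ |V μ x| * |W μ x| := mul_nonneg (abs_nonneg _) (abs_nonneg _)
  calc |V μ x| * |W μ x| * J μ x * (|sx 2 x σ| * |sx a (x + ee μ) σ|)
      ≤ |V μ x| * |W μ x| * J μ x * 1 :=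
        mul_le_mul_of_nonneg_left h1 (mul_nonneg h2 (h.J0 μ x))
    _ ≤ b * (|V μ x| * |W μ x|) := by
        rw [mul_one, mul_comm]
        exact mul_le_mul_of_nonneg_right (h.J1 μ x) h2

end Vale.Agent.P163N
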