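import Vale.Agent.P163N.Bcell
import Vale.Agent.P163N.Bs
import Vale.Agent.P163N.Cut
import Vale.Agent.P163N.Log

open MeasureTheory Vale.Agent.P163

namespace Vale.Agent.P163N

variable {b : ℝ} {Ω : Set Site} {J : Fin 2 → Site → ℝ} {E : CA →ₗ[ℝ] ℝ}
  {P : Finset Site → CA →ₗ[ℝ] CA}

theorem stiff_cell (h : Sys b Ω J E P) {l K ρ p : ℤ} (hl : 1 ≤ l) (hρ : 1 ≤ ρ) (hp : 1 ≤ p)
    (hK : K = p ^ 2 * (ρ + 2)) {η : ℝ} (hη : 0 ≤ η)
    (hlog : ∀ (c : Site) (r : ℤ), 1 ≤ r → ∃ φ : Site → ℝ, (∀ x ∈ bal c r, φ x = 1) ∧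
      (∀ x, φ x ≠ 0 → x ∈ bal c (ρ * r)) ∧ nv (bal c (ρ * r + 1)) (gd φ) ≤ η)
    {B : Finset Site} (hB : (B : Set Site) ⊆ Ω) {U : Site} (hU : opn (K * l) U ⊆ B)
    (g : Site → ℝ) (γ : ℝ) (T : Finset Site) (hg : ∀ x, g x ≠ 0 → x ∈ Ω)
    (hT : ∀ μ x, gd g μ x ≠ 0 → x ∈ T) (hγ : ∀ μ x, |gd g μ x| ≤ γ)
    (hΩ : (bal (cor (K * l) U) (2 * (K * l)) : Set Site) ⊆ Ω) (a : ℝ) (ha : a = γ * (K * l : ℤ)) :
    ∃ z : ℝ, E (jc J 0 2 T (gd g) * P (off (K * l) B) (jc J 0 2 (cel (K * l) U) (gd g))) ≤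
        70 * b * (a * z + 5 * b * a ^ 2 / p) ∧
      z ^ 2 ≤ 30 * b ^ 4 * p * (a * n2 E (DL J P l (K * l) B U (gd g)) + 2 * η * a ^ 2) := by
  have hb := h.b1
  have hγ0 : 0 ≤ γ := (abs_nonneg _).trans (hγ 0 0)
  have hK0 : 0 < K := by rw [hK]; positivity
  have hl0 : 0 < l := by omega
  have hL0 : 0 < K * l := mul_pos hK0 hl0
  have hw : 1 ≤ (ρ + 2) * l := by nlinarith
  have hpR : (1 : ℝ) ≤ p := by exact_mod_cast hp
  have hLR : (0 : ℝ) < (K * l : ℤ) := by exact_mod_cast hL0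
  have hwR : (0 : ℝ) < ((ρ + 2) * l : ℤ) := by exact_mod_cast (by omega : 0 < (ρ + 2) * l)
  have hLw : ((K * l : ℤ) : ℝ) = p ^ 2 * ((ρ + 2) * l : ℤ) := by
    rw [hK]; push_cast; ring
  have ha0 : 0 ≤ a := by rw [ha]; positivity
  obtain ⟨f, f01, fs, fb, fe, f1⟩ := fcut (K * l) ((ρ + 2) * l) hL0 hw U
  obtain ⟨k, c0, ks, kc, ke⟩ := hcut (K * l) hL0 U g γ hγ
  have e1 : nv (cel (K * l) U) (gd g) ≤ 2 * a := by
    refine nv_le (by positivity) ((nq_le_card fun x _ μ => hγ μ x).trans ?_)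
    rw [card_cel U hL0.le, ha]
    nlinarith [sq_nonneg (γ * (K * l : ℤ))]
  have e2 : nv (cel (K * l) U) (gd f) ≤ 5 * p := by
    refine nv_le (by positivity) (fe.trans ?_)
    rw [hLw, div_le_iff₀ hwR]
    nlinarith [mul_pos (by positivity : (0 : ℝ) < p ^ 2) hwR]
  have e3 : nv (cel (K * l) U) (fun μ x => (1 - f x) * gd g μ x) ≤ 5 * a / p := by
    refine nv_le (by positivity) ?_
    have h1 : nq (cel (K * l) U) (fun μ x => (1 - f x) * gd g μ x) ≤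
        ∑ x ∈ cel (K * l) U, (1 - f x) ^ 2 * (2 * γ ^ 2) := by
      refine Finset.sum_le_sum fun x _ => ?_
      have h0 := sq_le_sq' (abs_le.1 (hγ 0 x)).1 (abs_le.1 (hγ 0 x)).2
      have h1 := sq_le_sq' (abs_le.1 (hγ 1 x)).1 (abs_le.1 (hγ 1 x)).2
      rw [Fin.sum_univ_two, mul_pow, mul_pow, ← mul_add]
      exact mul_le_mul_of_nonneg_left (by linarith) (sq_nonneg _)
    rw [← Finset.sum_mul] at h1
    refine h1.trans ((mul_le_mul_of_nonneg_right f1 (by positivity)).trans ?_)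
    rw [div_pow, le_div_iff₀ (by positivity), ha]
    have h2 : 12 * ((K * l : ℤ) : ℝ) * ((ρ + 2) * l : ℤ) * (2 * γ ^ 2) * p ^ 2 =
        24 * (γ * (K * l : ℤ)) ^ 2 := by
      rw [hLw]; ring
    rw [h2]
    nlinarith [sq_nonneg (γ * (K * l : ℤ))]
  refine ⟨n2 E (ZZ J P (K * l) B U f (gd g)), ?_, ?_⟩
  · refine (h.bs hL0 hB hU g k c0 T _ hg hT (fun x hx => hΩ (ks x hx)) (gd_mem_bal ks) kc f
      (gd g)).trans ?_
    have z0 := n2_nonneg E (ZZ J P (K * l) B U f (gd g))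
    have n0 := nv_nonneg (cel (K * l) U) fun μ x => (1 - f x) * gd g μ x
    calc _ ≤ b * (70 * a) * (n2 E (ZZ J P (K * l) B U f (gd g)) + b * (5 * a / p)) := by
          have : nv (bal (cor (K * l) U) (2 * (K * l) + 1)) (gd k) ≤ 70 * a := by
            rw [ha]; exact ke.trans (le_of_eq (mul_assoc _ _ _))
          gcongr
      _ = _ := by ring
  · rw [h.n2_sq]
    refine (h.bcell hl0 hK0 hB hU (gd g) f (fun x => abs_le.2 ⟨by linarith [(f01 x).1], (f01 x).2⟩)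
      fs η hη fun u _ x hx μ hne => ?_).trans ?_
    · obtain ⟨φ, φ1, φs, φe⟩ := hlog (cor l u) l hl
      have hc : cor l u ∈ cls l u := cel_sub_cls (cor_mem_cel hl0 u)
      refine ⟨φ, _, fun y hy => φ1 y (cls_sub_bal hc hy), fun y hy => fb μ x hne ?_,
        gd_mem_bal φs, φe⟩
      refine bal_mono x ?_ (bal_sub (cls_sub_bal (cel_sub_cls hx) hc) _ (φs y hy))
      nlinarith
    · have d0 := n2_nonneg E (DL J P l (K * l) B U (gd g))
      have n0 := nv_nonneg (cel (K * l) U) (gd g)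
      have n1 := nv_nonneg (cel (K * l) U) (gd f)
      calc _ ≤ 3 * b ^ 4 * (2 * a) * (5 * p) *
            (n2 E (DL J P l (K * l) B U (gd g)) + η * (2 * a)) := by gcongr
        _ = _ := by ring

theorem stiff_amgm (a z : ℝ) {s : ℝ} (hs : 0 < s) : a * z ≤ z ^ 2 / (2 * s) + s * a ^ 2 / 2 := by
  have : z ^ 2 / (2 * s) + s * a ^ 2 / 2 - a * z = (z - s * a) ^ 2 / (2 * s) := by
    field_simp
    ring
  have h2 : 0 ≤ (z - s * a) ^ 2 / (2 * s) := by positivity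
  linarith

theorem stiff_arith {b e q p y z d a : ℝ} (hb : 1 ≤ b) (he : 0 < e) (hp : 1 ≤ p)
    (hpe : 20 * b / e ≤ p) (hq : q = e ^ 2 / (60 * b ^ 4 * p))
    (h1 : y ≤ 70 * b * (a * z + 5 * b * a ^ 2 / p))
    (h2 : z ^ 2 ≤ 30 * b ^ 4 * p * (a * d + 2 * (q / 8) * a ^ 2)) :
    y ≤ 70 * b * (e / (2 * q ^ 2) * d ^ 2 + 3 / 4 * e * a ^ 2) := by
  have hq0 : 0 < q := by rw [hq]; positivity
  have k1 := stiff_amgm a z (half_pos he)
  have k2 := stiff_amgm a d (half_pos hq0)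
  have k3 : 5 * b * a ^ 2 / p ≤ e / 4 * a ^ 2 := by
    rw [div_le_iff₀ he] at hpe
    rw [div_le_iff₀ (by positivity)]
    nlinarith [sq_nonneg a]
  have k4 : 30 * b ^ 4 * p = e ^ 2 / (2 * q) := by
    rw [hq]; field_simp; ring
  have k5 : z ^ 2 ≤ e ^ 2 / (2 * q) * (d ^ 2 / q + q / 2 * a ^ 2) := by
    rw [k4] at h2
    refine h2.trans (mul_le_mul_of_nonneg_left ?_ (by positivity))
    have : d ^ 2 / (2 * (q / 2)) = d ^ 2 / q := by congr 1; ring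
    linarith
  have k6 : z ^ 2 / (2 * (e / 2)) ≤ e / (2 * q ^ 2) * d ^ 2 + e / 4 * a ^ 2 := by
    rw [div_le_iff₀ (by positivity)]
    refine k5.trans (le_of_eq ?_)
    field_simp
    ring
  refine h1.trans (mul_le_mul_of_nonneg_left ?_ (by positivity))
  linarith

/-- vanishing of the stiffness at large scales -/
theorem stiff (b δ : ℝ) (hδ : 0 < δ) : ∃ R : ℤ, 1 ≤ R ∧ ∀ (Ω : Set Site) (J : Fin 2 → Site → ℝ)
    (E : CA →ₗ[ℝ] ℝ) (P : Finset Site → CA →ₗ[ℝ] CA), Sys b Ω J E P →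
    ∀ (g : Site → ℝ) (γ : ℝ) (c : Site) (L : ℤ) (B : Finset Site), R ≤ L →
      (bal c (5 * L) : Set Site) ⊆ Ω → (B : Set Site) ⊆ Ω → (∀ x, g x ≠ 0 → x ∈ bal c L) →
      (∀ μ x, |gd g μ x| ≤ γ) → (∀ μ x, gd g μ x ≠ 0 → bal x R ⊆ B) →
      ∃ A ⊆ B, n2 E (P A (jc J 0 2 (bal c (L + 1)) (gd g))) ≤ δ * γ * L := by
  rcases lt_or_ge b 1 with hb | hb
  · exact ⟨1, le_rfl, fun _ _ _ _ h => absurd h.b1 (not_le.2 hb)⟩
  obtain ⟨e, he⟩ : ∃ e, e = δ ^ 2 / (3430 * b) := ⟨_, rfl⟩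
  have he0 : 0 < e := by rw [he]; positivity
  obtain ⟨p, hpe, hp⟩ : ∃ p : ℤ, 20 * b / e ≤ p ∧ 1 ≤ p :=
    ⟨⌈20 * b / e⌉, Int.le_ceil _, Int.ceil_pos.2 (by positivity)⟩
  have hpR : (1 : ℝ) ≤ p := by exact_mod_cast hp
  obtain ⟨q, hq⟩ : ∃ q, q = e ^ 2 / (60 * b ^ 4 * p) := ⟨_, rfl⟩
  have hq0 : 0 < q := by rw [hq]; positivity
  obtain ⟨ρ, hρ, hlog⟩ := logcut (q / 8) (by positivity)
  obtain ⟨N, hN⟩ := exists_nat_ge (8 * b ^ 2 / q ^ 2)
  have hNR : (0 : ℝ) < N := lt_of_lt_of_le (by positivity) hN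
  obtain ⟨K, hK⟩ : ∃ K : ℤ, K = p ^ 2 * (ρ + 2) := ⟨_, rfl⟩
  have hK1 : 1 ≤ K := by rw [hK]; nlinarith
  refine ⟨K ^ N, one_le_pow₀ hK1, fun Ω J E P h g γ c L B hRL hΩ hB hg hγ hBR => ?_⟩
  have hγ0 : 0 ≤ γ := (abs_nonneg _).trans (hγ 0 0)
  have hT := gd_mem_bal hg
  set T := bal c (L + 1) with hTd
  obtain ⟨k, hk, hm⟩ := h.mart (fun k => off (K ^ k) B)
    (fun k => off_mono (pow_dvd_pow K k.le_succ)) (fun k => (Finset.coe_subset.2 off_sub).trans hB)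
    (jc J 1 2 T (gd g)) (Nat.cast_pos.1 hNR)
  rw [pow_succ' K k] at hm
  have hl : 1 ≤ K ^ k := one_le_pow₀ hK1
  have hLR : K * K ^ k ≤ K ^ N := by
    rw [← pow_succ']
    exact pow_le_pow_right₀ hK1 hk
  generalize K ^ k = l at hm hl hLR
  have hL0 : 0 < K * l := by positivity
  have hL1 : 1 ≤ L := (one_le_pow₀ hK1).trans hRL
  refine ⟨off (K * l) B, off_sub, ?_⟩
  classical
  set I := (T.filter fun x => ∃ μ, gd g μ x ≠ 0).image (idx (K * l)) with hI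
  have hIU : ∀ U ∈ I, ∃ x ∈ cls (K * l) U, x ∈ T ∧ bal x (K ^ N) ⊆ B := by
    intro U hU
    obtain ⟨x, hx, rfl⟩ := Finset.mem_image.1 hU
    obtain ⟨h1, μ, h2⟩ := Finset.mem_filter.1 hx
    exact ⟨x, cel_sub_cls (mem_cel_idx hL0 x), h1, hBR μ x h2⟩
  have hIB : ∀ U ∈ I, opn (K * l) U ⊆ B := by
    intro U hU
    obtain ⟨x, h1, -, h3⟩ := hIU U hU
    exact opn_sub_cls.trans ((cls_sub_bal h1).trans ((bal_mono x hLR).trans h3))
  have hsum : ∀ {M : Type} [AddCommMonoid M] (F : Site → M),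
      (∀ x, (∀ μ, gd g μ x = 0) → F x = 0) →
      ∑ x ∈ T, F x = ∑ U ∈ I, ∑ x ∈ cel (K * l) U, F x := by
    intro M _ F hF
    have key : ∀ x, F x ≠ 0 → ∃ μ, gd g μ x ≠ 0 := fun x hx =>
      by_contra fun hc => hx (hF x fun μ => by_contra fun h' => hc ⟨μ, h'⟩)
    refine sum_idx hL0 T I F (fun x hx h' => Finset.mem_image_of_mem _
      (Finset.mem_filter.2 ⟨hx, key x h'⟩)) fun x _ h' => ?_
    obtain ⟨μ, hμ⟩ := key x h'
    exact hT μ x hμ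
  have hjc : ∀ i j, jc J i j T (gd g) = ∑ U ∈ I, jc J i j (cel (K * l) U) (gd g) := fun i j =>
    hsum _ fun x hx => by simp [hx]
  obtain ⟨a, ha⟩ : ∃ a : ℝ, a = γ * (K * l : ℤ) := ⟨_, rfl⟩
  have hnq : nq T (gd g) ≤ 2 * (I.card * a ^ 2) := by
    have h1 : nq T (gd g) = ∑ U ∈ I, nq (cel (K * l) U) (gd g) := hsum _ fun x hx => by simp [hx]
    have h2 : ∀ U ∈ I, nq (cel (K * l) U) (gd g) ≤ 2 * a ^ 2 := fun U _ =>
      (nq_le_card fun x _ μ => hγ μ x).trans (le_of_eq (by rw [card_cel U hL0.le, ha]; ring))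
    rw [h1]
    refine (Finset.sum_le_sum h2).trans (le_of_eq ?_)
    rw [Finset.sum_const, nsmul_eq_mul]
    ring
  have hcard : (I.card : ℝ) * a ^ 2 ≤ 49 * (γ * L) ^ 2 := by
    have h1 : ∑ x ∈ I.biUnion (cel (K * l)), (1 : ℝ) =
        ∑ U ∈ I, ∑ x ∈ cel (K * l) U, (1 : ℝ) := by
      refine sum_idx hL0 _ I _ (fun x hx _ => ?_) fun x hx _ =>
        Finset.mem_biUnion.2 ⟨_, hx, mem_cel_idx hL0 x⟩
      obtain ⟨U, hU, hx⟩ := Finset.mem_biUnion.1 hx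
      rwa [(mem_cel_iff hL0).1 hx]
    have h2 : I.biUnion (cel (K * l)) ⊆ bal c (3 * L) := by
      refine Finset.biUnion_subset.2 fun U hU => ?_
      obtain ⟨x, k1, k2, -⟩ := hIU U hU
      exact cel_sub_cls.trans ((cls_sub_bal k1).trans ((bal_sub k2 _).trans
        (bal_mono c (by omega))))
    have h3 : ((I.biUnion (cel (K * l))).card : ℝ) ≤ (bal c (3 * L)).card := by
      exact_mod_cast Finset.card_le_card h2
    simp only [Finset.sum_const, nsmul_eq_mul, mul_one, card_cel _ hL0.le] at h1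
    rw [h1, card_bal c (by omega)] at h3
    have hLR' : (1 : ℝ) ≤ L := by exact_mod_cast hL1
    have h4 : (I.card : ℝ) * ((K * l : ℤ) : ℝ) ^ 2 ≤ 49 * (L : ℝ) ^ 2 := by
      refine h3.trans ?_
      push_cast
      nlinarith
    calc _ = γ ^ 2 * ((I.card : ℝ) * ((K * l : ℤ) : ℝ) ^ 2) := by rw [ha]; ring
      _ ≤ γ ^ 2 * (49 * (L : ℝ) ^ 2) := by gcongr
      _ = _ := by ring
  have hd : ∑ U ∈ I, n2 E (DL J P l (K * l) B U (gd g)) ^ 2 ≤
      b ^ 2 * (2 * (I.card * a ^ 2)) / N := by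
    simp only [h.n2_sq]
    rw [h.orth hL0 (dvd_mul_left l K) hB I hIB]
    have h1 : ∑ U ∈ I, DL J P l (K * l) B U (gd g) =
        P (off l B) (jc J 1 2 T (gd g)) - P (off (K * l) B) (jc J 1 2 T (gd g)) := by
      simp only [hjc, map_sum, DL, Finset.sum_sub_distrib]
    rw [h1]
    refine hm.trans (div_le_div_of_nonneg_right ?_ hNR.le)
    rw [← h.n2_sq]
    refine (pow_le_pow_left₀ (n2_nonneg _ _) (h.n2_jc (by decide) T (gd g)) 2).trans ?_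
    rw [mul_pow, nv_sq]
    gcongr
  have hcell : ∀ U ∈ I,
      E (jc J 0 2 T (gd g) * P (off (K * l) B) (jc J 0 2 (cel (K * l) U) (gd g))) ≤
        70 * b * (e / (2 * q ^ 2) * n2 E (DL J P l (K * l) B U (gd g)) ^ 2 +
          3 / 4 * e * a ^ 2) := by
    intro U hU
    obtain ⟨x, k1, k2, -⟩ := hIU U hU
    obtain ⟨z, z1, z2⟩ := stiff_cell h hl hρ hp hK (by positivity) hlog hB (hIB U hU) g γ T
      (fun x hx => hΩ (bal_mono c (by omega) (hg x hx))) hT hγ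
      (fun y hy => hΩ (bal_mono c (by omega) (bal_sub (bal_sub k2 _ (cls_sub_bal k1
        (cel_sub_cls (cor_mem_cel hL0 U)))) _ hy))) a ha
    exact stiff_arith hb he0 hpR hpe hq z1 z2
  have hLR' : (0 : ℝ) ≤ L := by exact_mod_cast (by omega : 0 ≤ L)
  refine Real.sqrt_le_iff.2 ⟨by positivity, ?_⟩
  have hA : ((off (K * l) B : Finset Site) : Set Site) ⊆ Ω :=
    (Finset.coe_subset.2 off_sub).trans hB
  have hM : 0 ≤ (I.card : ℝ) * a ^ 2 := by positivity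
  calc E (P (off (K * l) B) (jc J 0 2 T (gd g)) ^ 2)
      = ∑ U ∈ I, E (jc J 0 2 T (gd g) *
          P (off (K * l) B) (jc J 0 2 (cel (K * l) U) (gd g))) := by
        rw [sq, h.E_P (h.P_dep hA _), mul_comm, ← map_sum, ← Finset.mul_sum, ← map_sum, ← hjc]
    _ ≤ _ := Finset.sum_le_sum hcell
    _ = 70 * b * (e / (2 * q ^ 2) * ∑ U ∈ I, n2 E (DL J P l (K * l) B U (gd g)) ^ 2 +
          3 / 4 * e * (I.card * a ^ 2)) := by
        rw [← Finset.mul_sum, Finset.sum_add_distrib, ← Finset.mul_sum, Finset.sum_const,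
          nsmul_eq_mul]
        ring
    _ ≤ 70 * b * (e / 4 * (I.card * a ^ 2) + 3 / 4 * e * (I.card * a ^ 2)) := by
        refine mul_le_mul_of_nonneg_left (add_le_add_left ?_ _) (by positivity)
        refine (mul_le_mul_of_nonneg_left hd (by positivity)).trans ?_
        rw [div_le_iff₀ (by positivity)] at hN
        have : e / (2 * q ^ 2) * (b ^ 2 * (2 * (I.card * a ^ 2)) / N) =
            e * (I.card * a ^ 2) * (b ^ 2 / (N * q ^ 2)) := by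
          field_simp
        rw [this]
        have h2 : b ^ 2 / (N * q ^ 2) ≤ 1 / 4 := by
          rw [div_le_iff₀ (by positivity)]
          nlinarith [sq_nonneg b]
        nlinarith [mul_nonneg he0.le hM]
    _ = 70 * b * e * (I.card * a ^ 2) := by ring
    _ ≤ 70 * b * e * (49 * (γ * L) ^ 2) := by gcongr
    _ = (δ * γ * L) ^ 2 := by
        rw [he]
        field_simp
        ring

end Vale.Agent.P163N
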